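import Vale.Agent.H47.Findim.PdBasic

/-!
# Fitting decomposition, indecomposable modules and a light form of Krull-Schmidt
-/

universe u

namespace Vale.Agent.H47.Findim

variable {A : Type u} [Ring A]


theorem fitting_data {X : Type u} [AddCommGroup X] [Module A X] [IsArtinian A X]
    [IsNoetherian A X] (γ : Module.End A X) :
    ∃ (m : ℕ) (e h : Module.End A X), e * e = e ∧ e * γ ^ m = 0 ∧ γ * h = 1 - e ∧
      h * γ = 1 - e := by
  obtain ⟨N, hN⟩ := Filter.eventually_atTop.mp γ.eventually_isCompl_ker_pow_range_pow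
  have hc : IsCompl (LinearMap.ker (γ ^ (N + 1))) (LinearMap.range (γ ^ (N + 1))) :=
    hN (N + 1) (by omega)
  let e : Module.End A X := (LinearMap.ker (γ ^ (N + 1))).projection _ hc
  have he : ∀ x, e (e x) = e x := fun x =>
    LinearMap.congr_fun (Submodule.isIdempotentElem_projection hc).eq x
  have heK : ∀ x, x ∈ LinearMap.ker (γ ^ (N + 1)) → e x = x := fun x hx =>
    Submodule.projection_apply_of_mem_left hc hx
  have heR : ∀ x, x ∈ LinearMap.range (γ ^ (N + 1)) → e x = 0 := fun x hx =>
    Submodule.projection_apply_of_mem_right hc hx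
  have hmemK : ∀ x, e x ∈ LinearMap.ker (γ ^ (N + 1)) := fun x =>
    Submodule.projection_apply_mem hc x
  have hmemR : ∀ x, x - e x ∈ LinearMap.range (γ ^ (N + 1)) := fun x =>
    Submodule.sub_projection_mem hc x
  have hγK : ∀ x, x ∈ LinearMap.ker (γ ^ (N + 1)) → γ x ∈ LinearMap.ker (γ ^ (N + 1)) := by
    intro x hx
    rw [LinearMap.mem_ker] at hx ⊢
    have : (γ ^ (N + 1)) (γ x) = γ ((γ ^ (N + 1)) x) := by
      rw [← Module.End.mul_apply, ← Module.End.mul_apply, ← pow_succ, ← pow_succ']
    rw [this, hx, map_zero]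
  have hγR : ∀ x, x ∈ LinearMap.range (γ ^ (N + 1)) → γ x ∈ LinearMap.range (γ ^ (N + 1)) := by
    rintro x ⟨y, rfl⟩
    refine ⟨γ y, ?_⟩
    rw [← Module.End.mul_apply, ← Module.End.mul_apply, ← pow_succ, ← pow_succ']
  have hcomm : ∀ x, e (γ x) = γ (e x) := by
    intro x
    have h1 : γ x = γ (e x) + γ (x - e x) := by rw [← map_add]; congr 1; abel
    rw [h1, map_add, heK _ (hγK _ (hmemK x)), heR _ (hγR _ (hmemR x)), add_zero]
  have hkerγ : ∀ x, γ x = 0 → x ∈ LinearMap.ker (γ ^ (N + 1)) := by
    intro x hx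
    rw [LinearMap.mem_ker, pow_succ, Module.End.mul_apply, hx, map_zero]
  let Θ : Module.End A X := γ * (1 - e) + e
  have hΘ : ∀ x, Θ x = γ (x - e x) + e x := fun x => rfl
  have hinj : Function.Injective Θ := by
    rw [injective_iff_map_eq_zero]
    intro x hx
    rw [hΘ] at hx
    have h1 : e x = 0 := by
      have := congrArg e hx
      rw [map_add, hcomm, map_sub, he, sub_self, map_zero, zero_add, map_zero] at this
      exact this
    rw [h1, sub_zero, add_zero] at hx
    rw [← heK x (hkerγ x hx), h1]
  have hsurj : Function.Surjective Θ := IsArtinian.surjective_of_injective_endomorphism Θ hinj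
  let Θ' : X ≃ₗ[A] X := LinearEquiv.ofBijective Θ ⟨hinj, hsurj⟩
  have hΘ' : ∀ x, Θ (Θ'.symm x) = x := fun x => Θ'.apply_symm_apply x
  refine ⟨N + 1, e, Θ'.symm.toLinearMap * (1 - e), ?_, ?_, ?_, ?_⟩
  · ext x; exact he x
  · ext x
    exact heR _ ⟨x, rfl⟩
  · ext x
    show γ (Θ'.symm (x - e x)) = x - e x
    set y := Θ'.symm (x - e x) with hy
    have h1 : γ (y - e y) + e y = x - e x := by rw [← hΘ, hy, hΘ']
    have h2 : e y = 0 := by
      have := congrArg e h1
      rw [map_add, hcomm, map_sub, he, sub_self, map_zero, zero_add, map_sub, he,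
        sub_self] at this
      exact this
    rw [h2, sub_zero, add_zero] at h1
    exact h1
  · ext x
    show Θ'.symm (γ x - e (γ x)) = x - e x
    rw [LinearEquiv.symm_apply_eq]
    show _ = Θ (x - e x)
    rw [hΘ, map_sub e, he, sub_self, sub_zero, add_zero, map_sub, hcomm]



/-- Indecomposability of a module, phrased through idempotent endomorphisms. -/
def Indec (A : Type u) [Ring A] (M : Type u) [AddCommGroup M] [Module A M] : Prop :=
  Nontrivial M ∧ ∀ e : Module.End A M, e * e = e → e = 0 ∨ e = 1

theorem Indec.nilpotent_or_unit {M : Type u} [AddCommGroup M] [Module A M] [IsArtinian A M]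
    [IsNoetherian A M] (hM : Indec A M) (γ : Module.End A M) : IsNilpotent γ ∨ IsUnit γ := by
  obtain ⟨m, e, h, he, hem, h1, h2⟩ := fitting_data γ
  rcases hM.2 e he with rfl | rfl
  · right
    rw [sub_zero] at h1 h2
    exact isUnit_iff_exists.mpr ⟨h, h1, h2⟩
  · left
    rw [one_mul] at hem
    exact ⟨m, hem⟩

theorem exists_isUnit_of_sum {R : Type*} [Ring R] [Nontrivial R]
    (hR : ∀ x : R, IsNilpotent x ∨ IsUnit x) {ι : Type*} (s : Finset ι) (f : ι → R) :
    IsUnit (∑ i ∈ s, f i) → ∃ i ∈ s, IsUnit (f i) := by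
  classical
  induction s using Finset.induction_on with
  | empty =>
    intro h
    rw [Finset.sum_empty] at h
    exact absurd h not_isUnit_zero
  | insert a s ha ih =>
    intro h
    rw [Finset.sum_insert ha] at h
    by_cases hfa : IsUnit (f a)
    · exact ⟨a, Finset.mem_insert_self a s, hfa⟩
    · obtain ⟨u, hu⟩ := h
      have hnil : IsNilpotent ((↑u⁻¹ : R) * f a) := by
        rcases hR ((↑u⁻¹ : R) * f a) with h | h
        · exact h
        · exfalso
          apply hfa
          have : f a = (u : R) * ((↑u⁻¹ : R) * f a) := by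
            rw [← mul_assoc, Units.mul_inv, one_mul]
          rw [this]
          exact u.isUnit.mul h
      have h1 : IsUnit (1 - (↑u⁻¹ : R) * f a) := hnil.isUnit_one_sub
      have h2 : ∑ i ∈ s, f i = (u : R) * (1 - (↑u⁻¹ : R) * f a) := by
        rw [mul_sub, mul_one, ← mul_assoc, Units.mul_inv, one_mul, hu]
        abel
      obtain ⟨i, hi, hfi⟩ := ih (by rw [h2]; exact u.isUnit.mul h1)
      exact ⟨i, Finset.mem_insert_of_mem hi, hfi⟩

/-- Exchange: an indecomposable finite-length retract of a finite product is a retract of one of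
the factors. -/
theorem exchange {Z : Type u} [AddCommGroup Z] [Module A Z] [IsArtinian A Z] [IsNoetherian A Z]
    (hZ : Indec A Z) {κ : Type} [Fintype κ] {T : κ → Type u} [∀ k, AddCommGroup (T k)]
    [∀ k, Module A (T k)] (i : Z →ₗ[A] (∀ k, T k)) (p : (∀ k, T k) →ₗ[A] Z)
    (hpi : p ∘ₗ i = LinearMap.id) :
    ∃ k, ∃ (a : Z →ₗ[A] T k) (b : T k →ₗ[A] Z), b ∘ₗ a = LinearMap.id := by
  classical
  have := hZ.1
  have hsum : ∑ k, (p ∘ₗ LinearMap.single A T k ∘ₗ LinearMap.proj k ∘ₗ i : Module.End A Z) = 1 := by
    ext z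
    rw [LinearMap.sum_apply]
    simp only [LinearMap.comp_apply, LinearMap.proj_apply, LinearMap.single_apply]
    rw [← map_sum, Finset.univ_sum_single]
    exact LinearMap.congr_fun hpi z
  obtain ⟨k, -, hk⟩ := exists_isUnit_of_sum (fun x => hZ.nilpotent_or_unit x) Finset.univ
    (fun k => (p ∘ₗ LinearMap.single A T k ∘ₗ LinearMap.proj k ∘ₗ i : Module.End A Z))
    (by rw [hsum]; exact isUnit_one)
  obtain ⟨u, hu⟩ := hk
  refine ⟨k, LinearMap.proj k ∘ₗ i, (↑u⁻¹ : Module.End A Z) ∘ₗ p ∘ₗ LinearMap.single A T k, ?_⟩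
  have : (↑u⁻¹ : Module.End A Z) * (u : Module.End A Z) = 1 := Units.inv_mul u
  rw [hu] at this
  exact this

theorem Indec.equiv_of_split {Z T : Type u} [AddCommGroup Z] [Module A Z] [AddCommGroup T]
    [Module A T] [Nontrivial Z] (hT : Indec A T) (a : Z →ₗ[A] T) (b : T →ₗ[A] Z)
    (hba : b ∘ₗ a = LinearMap.id) : Nonempty (Z ≃ₗ[A] T) := by
  have hidem : (a ∘ₗ b : Module.End A T) * (a ∘ₗ b) = a ∘ₗ b := by
    ext x
    have := LinearMap.congr_fun hba (b x)
    simp only [LinearMap.comp_apply, LinearMap.id_apply] at this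
    simp [this]
  rcases hT.2 _ hidem with h | h
  · exfalso
    obtain ⟨z, hz⟩ := exists_ne (0 : Z)
    apply hz
    have h1 := LinearMap.congr_fun hba z
    have h2 := LinearMap.congr_fun h (a z)
    simp only [LinearMap.comp_apply, LinearMap.id_apply, LinearMap.zero_apply] at h1 h2
    rw [h1] at h2
    rw [← h1, h2, map_zero]
  · exact ⟨LinearEquiv.ofLinearMap a b h hba⟩

theorem exists_decomp_aux : ∀ (n : ℕ) (M : ModuleCat.{u} A), IsArtinian A M → IsNoetherian A M →
    (Module.length A M).toNat = n →
    ∃ (κ : Type) (_ : Fintype κ) (T : κ → ModuleCat.{u} A), (∀ k, Indec A (T k)) ∧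
      (∀ k, IsArtinian A (T k)) ∧ (∀ k, IsNoetherian A (T k)) ∧
      Nonempty (M ≃ₗ[A] ∀ k, T k) := by
  intro n
  induction n using Nat.strong_induction_on with
  | _ n ih =>
    intro M hA hN hn
    by_cases hsub : Subsingleton M
    · refine ⟨Empty, inferInstance, fun k => k.elim, fun k => k.elim, fun k => k.elim,
        fun k => k.elim, ⟨?_⟩⟩
      exact
        { toFun := fun _ k => k.elim
          map_add' := fun _ _ => by funext k; exact k.elim
          map_smul' := fun _ _ => by funext k; exact k.elim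
          invFun := fun _ => 0
          left_inv := fun x => Subsingleton.elim _ _
          right_inv := fun x => by funext k; exact k.elim }
    · have hnt : Nontrivial M := not_subsingleton_iff_nontrivial.mp hsub
      by_cases hI : ∀ e : Module.End A M, e * e = e → e = 0 ∨ e = 1
      · exact ⟨Unit, inferInstance, fun _ => M, fun _ => ⟨hnt, hI⟩, fun _ => hA, fun _ => hN,
          ⟨(LinearEquiv.funUnique Unit A M).symm⟩⟩
      · obtain ⟨e, he'⟩ := not_forall.mp hI
        obtain ⟨he, h01⟩ := Classical.not_imp.mp he'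
        obtain ⟨he0, he1⟩ := not_or.mp h01
        have hc : IsCompl (LinearMap.range e) (LinearMap.ker e) :=
          LinearMap.IsIdempotentElem.isCompl (f := e) he
        have hp : Nontrivial (LinearMap.range e) := by
          rw [Submodule.nontrivial_iff_ne_bot]
          intro h
          apply he0
          rw [LinearMap.range_eq_bot] at h
          exact h
        have hq : Nontrivial (LinearMap.ker e) := by
          rw [Submodule.nontrivial_iff_ne_bot]
          intro h
          apply he1
          ext x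
          have : e x - x ∈ LinearMap.ker e := by
            rw [LinearMap.mem_ker, map_sub]
            have := LinearMap.congr_fun he x
            simp only [Module.End.mul_apply] at this
            rw [this, sub_self]
          rw [h, Submodule.mem_bot, sub_eq_zero] at this
          simpa using this
        have hlen : Module.length A M = Module.length A (LinearMap.range e) +
            Module.length A (LinearMap.ker e) := by
          rw [← Module.length_prod, (Submodule.prodEquivOfIsCompl _ _ hc).length_eq]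
        have hfin : Module.length A M ≠ ⊤ := Module.length_ne_top
        have hfp : Module.length A (LinearMap.range e) ≠ ⊤ := Module.length_ne_top
        have hfq : Module.length A (LinearMap.ker e) ≠ ⊤ := Module.length_ne_top
        have hpp : (Module.length A (LinearMap.range e)).toNat ≠ 0 := by
          rw [Ne, ENat.toNat_eq_zero, not_or]
          exact ⟨(Module.length_pos (R := A)).ne', hfp⟩
        have hqp : (Module.length A (LinearMap.ker e)).toNat ≠ 0 := by
          rw [Ne, ENat.toNat_eq_zero, not_or]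
          exact ⟨(Module.length_pos (R := A)).ne', hfq⟩
        have hsum : n = (Module.length A (LinearMap.range e)).toNat +
            (Module.length A (LinearMap.ker e)).toNat := by
          rw [← hn, hlen, ENat.toNat_add hfp hfq]
        obtain ⟨κ₁, _, T₁, hT₁, hA₁, hN₁, ⟨e₁⟩⟩ :=
          ih (Module.length A (LinearMap.range e)).toNat (by omega)
          (ModuleCat.of A (LinearMap.range e)) inferInstance inferInstance rfl
        obtain ⟨κ₂, _, T₂, hT₂, hA₂, hN₂, ⟨e₂⟩⟩ :=
          ih (Module.length A (LinearMap.ker e)).toNat (by omega)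
          (ModuleCat.of A (LinearMap.ker e)) inferInstance inferInstance rfl
        refine ⟨κ₁ ⊕ κ₂, inferInstance, Sum.elim T₁ T₂, ?_, ?_, ?_, ⟨?_⟩⟩
        · rintro (k | k)
          · exact hT₁ k
          · exact hT₂ k
        · rintro (k | k)
          · exact hA₁ k
          · exact hA₂ k
        · rintro (k | k)
          · exact hN₁ k
          · exact hN₂ k
        · exact ((Submodule.prodEquivOfIsCompl _ _ hc).symm.trans (e₁.prodCongr e₂)).trans
            (LinearEquiv.sumPiEquivProdPi A κ₁ κ₂
              (fun k => ((Sum.elim T₁ T₂ k : ModuleCat.{u} A) : Type u))).symm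

/-- Every module of finite length is a finite product of indecomposable modules. -/
theorem exists_decomp (M : Type u) [AddCommGroup M] [Module A M] [IsArtinian A M]
    [IsNoetherian A M] :
    ∃ (κ : Type) (_ : Fintype κ) (T : κ → ModuleCat.{u} A), (∀ k, Indec A (T k)) ∧
      (∀ k, IsArtinian A (T k)) ∧ (∀ k, IsNoetherian A (T k)) ∧
      Nonempty (M ≃ₗ[A] ∀ k, T k) :=
  exists_decomp_aux _ (ModuleCat.of A M) inferInstance inferInstance rfl

/-- A uniform bound for the finite projective dimensions in a finite family. -/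
theorem exists_pd_bound {ι : Type} [Finite ι] (W : ι → ModuleCat.{u} A) :
    ∃ ν : ℕ, ∀ j, (∃ n, PdLT A (W j) n) → PdLT A (W j) (ν + 1) := by
  classical
  cases nonempty_fintype ι
  choose! n hn using fun j => (id : (∃ n, PdLT A (W j) n) → ∃ n, PdLT A (W j) n)
  refine ⟨Finset.univ.sup n, fun j hj => (hn j hj).mono ?_⟩
  exact (Finset.le_sup (f := n) (Finset.mem_univ j)).trans (Nat.le_succ _)

/-- Finite-length retracts of finite products of members of a family of indecomposable modules
inherit the uniform bound on finite projective dimensions. -/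
theorem pd_of_retract_pi {ι : Type} (W : ι → ModuleCat.{u} A) (hW : ∀ j, Indec A (W j))
    (ν : ℕ) (hν : ∀ j, (∃ n, PdLT A (W j) n) → PdLT A (W j) (ν + 1))
    {Z : Type u} [AddCommGroup Z] [Module A Z] [IsArtinian A Z] [IsNoetherian A Z]
    {κ : Type} [Fintype κ] (σ : κ → ι)
    (i : Z →ₗ[A] (∀ k, W (σ k))) (p : (∀ k, W (σ k)) →ₗ[A] Z) (hpi : p ∘ₗ i = LinearMap.id)
    (hZ : ∃ n, PdLT A Z n) : PdLT A Z (ν + 1) := by
  classical
  obtain ⟨n, hn⟩ := hZ
  obtain ⟨κ', _, T, hT, hTA, hTN, ⟨e⟩⟩ := exists_decomp (A := A) Z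
  refine PdLT.of_equiv e.symm (PdLT.pi fun l => ?_)
  have := hTA l
  have := hTN l
  -- `T l` is a retract of `Z`
  let a : T l →ₗ[A] Z := e.symm.toLinearMap ∘ₗ LinearMap.single A (fun l => T l) l
  let b : Z →ₗ[A] T l := LinearMap.proj l ∘ₗ e.toLinearMap
  have hba : b ∘ₗ a = LinearMap.id := by
    ext x
    simp [a, b]
  have hpd : PdLT A (T l) n := PdLT.of_retract a b hba hn
  obtain ⟨k, a', b', hb'a'⟩ := exchange (hT l) (i ∘ₗ a) (b ∘ₗ p) (LinearMap.ext fun x => by
    have h1 := LinearMap.congr_fun hpi (a x)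
    have h2 := LinearMap.congr_fun hba x
    simp only [LinearMap.comp_apply, LinearMap.id_apply] at h1 h2 ⊢
    rw [h1, h2])
  have := (hT l).1
  obtain ⟨e'⟩ := (hW (σ k)).equiv_of_split a' b' hb'a'
  exact PdLT.of_equiv e'.symm (hν (σ k) ⟨n, PdLT.of_equiv e' hpd⟩)

end Vale.Agent.H47.Findim
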