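import Vale.Agent.H47.Findim.Stable

/-!
# Syzygies up to stable equivalence: Schanuel, horseshoe, products
-/

universe u

namespace Vale.Agent.H47.Findim

variable {A : Type u} [Ring A]

/-- `Syz1 A M K`: `K` is a first syzygy of `M`: there is a short exact sequence
`0 → K → P → M → 0` with `P` finitely generated projective. -/
def Syz1 (A : Type u) [Ring A] (M K : Type u) [AddCommGroup M] [Module A M] [AddCommGroup K]
    [Module A K] : Prop :=
  ∃ (P : ModuleCat.{u} A) (_ : Module.Projective A P) (_ : Module.Finite A P)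
    (j : K →ₗ[A] P) (π : P →ₗ[A] M),
    Function.Injective j ∧ Function.Exact j π ∧ Function.Surjective π

theorem exists_lift_of_exact {K P M X : Type u} [AddCommGroup K] [Module A K] [AddCommGroup P]
    [Module A P] [AddCommGroup M] [Module A M] [AddCommGroup X] [Module A X]
    {j : K →ₗ[A] P} {π : P →ₗ[A] M} (hj : Function.Injective j) (hex : Function.Exact j π)
    (φ : X →ₗ[A] P) (hφ : ∀ x, π (φ x) = 0) : ∃ ψ : X →ₗ[A] K, ∀ x, j (ψ x) = φ x := by
  let e : K ≃ₗ[A] LinearMap.range j := LinearEquiv.ofInjective j hj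
  let φ' : X →ₗ[A] LinearMap.range j := φ.codRestrict (LinearMap.range j)
    (fun x => (hex (φ x)).mp (hφ x))
  refine ⟨e.symm.toLinearMap ∘ₗ φ', fun x => ?_⟩
  have h1 : (e (e.symm (φ' x)) : P) = j (e.symm (φ' x)) := LinearEquiv.ofInjective_apply j _
  rw [LinearEquiv.apply_symm_apply] at h1
  exact h1.symm

section schanuel
variable {M M' K K' P P' : Type u} [AddCommGroup M] [Module A M] [AddCommGroup M'] [Module A M']
  [AddCommGroup K] [Module A K] [AddCommGroup K'] [Module A K'] [AddCommGroup P] [Module A P]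
  [AddCommGroup P'] [Module A P']

theorem schanuel_aux [Module.Projective A P] [Module.Finite A P]
    {j : K →ₗ[A] P} {π : P →ₗ[A] M} (hj : Function.Injective j) (hex : Function.Exact j π)
    (hπ : Function.Surjective π) {j' : K' →ₗ[A] P'} {π' : P' →ₗ[A] M'}
    {t : M →ₗ[A] M'} {s : M' →ₗ[A] M} (hts : FF (LinearMap.id - s ∘ₗ t))
    {t' : P →ₗ[A] P'} {s' : P' →ₗ[A] P} (ht' : ∀ p, π' (t' p) = t (π p))
    (hs' : ∀ p, π (s' p) = s (π' p)) {tK : K →ₗ[A] K'} {sK : K' →ₗ[A] K}
    (htK : ∀ k, j' (tK k) = t' (j k)) (hsK : ∀ k, j (sK k) = s' (j' k)) :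
    FF (LinearMap.id - sK ∘ₗ tK) := by
  obtain ⟨κ, _, a, b, hab⟩ := hts
  have hab' : ∀ m, m - s (t m) = b (a m) := fun m => LinearMap.congr_fun hab m
  obtain ⟨b', hb'⟩ := Module.projective_lifting_property π b hπ
  have hb'' : ∀ v, π (b' v) = b v := fun v => LinearMap.congr_fun hb' v
  have hπj : ∀ k, π (j k) = 0 := fun k => hex.apply_apply_eq_zero k
  obtain ⟨D', hD'⟩ := exists_lift_of_exact hj hex
    (LinearMap.id - s' ∘ₗ t' - b' ∘ₗ a ∘ₗ π) (fun p => by
      simp only [LinearMap.sub_apply, LinearMap.id_apply, LinearMap.comp_apply, map_sub]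
      rw [hs', ht', hb'', ← hab']
      abel)
  have : LinearMap.id - sK ∘ₗ tK = D' ∘ₗ j := by
    ext k
    apply hj
    simp only [LinearMap.sub_apply, LinearMap.id_apply, LinearMap.comp_apply, map_sub]
    rw [hD', hsK, htK]
    simp only [LinearMap.sub_apply, LinearMap.id_apply, LinearMap.comp_apply]
    rw [hπj, map_zero, map_zero, sub_zero]
  rw [this]
  exact FF.of_factor P j D'

/-- Generalised Schanuel lemma: first syzygies of stably equivalent modules are stably
equivalent. -/
theorem Syz1.stEq (h : StEq A M M') (hK : Syz1 A M K) (hK' : Syz1 A M' K') : StEq A K K' := by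
  obtain ⟨t, s, hts, hst⟩ := h
  obtain ⟨P, _, _, j, π, hj, hex, hπ⟩ := hK
  obtain ⟨P', _, _, j', π', hj', hex', hπ'⟩ := hK'
  obtain ⟨t', ht'⟩ := Module.projective_lifting_property π' (t ∘ₗ π) hπ'
  obtain ⟨s', hs'⟩ := Module.projective_lifting_property π (s ∘ₗ π') hπ
  have ht'' : ∀ p, π' (t' p) = t (π p) := fun p => LinearMap.congr_fun ht' p
  have hs'' : ∀ p, π (s' p) = s (π' p) := fun p => LinearMap.congr_fun hs' p
  obtain ⟨tK, htK⟩ := exists_lift_of_exact hj' hex' (t' ∘ₗ j) (fun k => by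
    simp only [LinearMap.comp_apply]
    rw [ht'', hex.apply_apply_eq_zero, map_zero])
  obtain ⟨sK, hsK⟩ := exists_lift_of_exact hj hex (s' ∘ₗ j') (fun k => by
    simp only [LinearMap.comp_apply]
    rw [hs'', hex'.apply_apply_eq_zero, map_zero])
  exact ⟨tK, sK, schanuel_aux hj hex hπ hts ht'' hs'' htK hsK,
    schanuel_aux hj' hex' hπ' hst hs'' ht'' hsK htK⟩

theorem Syz1.pdLT_iff (h : Syz1 A M K) (m : ℕ) : PdLT A M (m + 2) ↔ PdLT A K (m + 1) := by
  obtain ⟨P, _, _, j, π, hj, hex, hπ⟩ := h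
  constructor
  · intro hM
    exact PdLT.ses_left hj hex hπ ((PdLT.of_projective (A := A) (M := P)).mono (by omega)) hM
  · intro hK
    exact PdLT.ses_right hj hex hπ hK ((PdLT.of_projective (A := A) (M := P)).mono (by omega))

end schanuel

theorem exists_syz1 [IsNoetherianRing A] (M : Type u) [AddCommGroup M] [Module A M]
    [Module.Finite A M] : ∃ K : ModuleCat.{u} A, Module.Finite A K ∧ Syz1 A M K := by
  obtain ⟨n, f, hf⟩ := Module.Finite.exists_fin' A M
  refine ⟨ModuleCat.of A (LinearMap.ker f), ?_, ModuleCat.of A (Fin n → A), ?_, ?_,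
    (LinearMap.ker f).subtype, f, Submodule.subtype_injective _,
    LinearMap.exact_subtype_ker_map f, hf⟩
  · show Module.Finite A (LinearMap.ker f)
    infer_instance
  · show Module.Projective A (Fin n → A)
    infer_instance
  · show Module.Finite A (Fin n → A)
    infer_instance

/-- `Syz A n M K`: `K` is an `n`-th syzygy of `M` (for `n = 0`: stably equivalent to `M`). -/
def Syz (A : Type u) [Ring A] : ℕ → ModuleCat.{u} A → ModuleCat.{u} A → Prop
  | 0, M, K => StEq A M K
  | (n + 1), M, K => ∃ K' : ModuleCat.{u} A, Syz A n M K' ∧ Syz1 A K' K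

theorem Syz.stEq {n : ℕ} : ∀ {M M' K K' : ModuleCat.{u} A}, StEq A M M' → Syz A n M K →
    Syz A n M' K' → StEq A K K' := by
  induction n with
  | zero =>
    intro M M' K K' h hK hK'
    exact (StEq.symm hK).trans (h.trans hK')
  | succ n ih =>
    intro M M' K K' h hK hK'
    obtain ⟨L, hL, hLK⟩ := hK
    obtain ⟨L', hL', hLK'⟩ := hK'
    exact Syz1.stEq (ih h hL hL') hLK hLK'

theorem Syz.pdLT_iff {n : ℕ} : ∀ {M K : ModuleCat.{u} A}, Syz A n M K → ∀ m : ℕ,
    (PdLT A M (n + m + 1) ↔ PdLT A K (m + 1)) := by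
  induction n with
  | zero =>
    intro M K h m
    rw [Nat.zero_add]
    exact ⟨fun hM => StEq.pdLT h hM, fun hK => StEq.pdLT (StEq.symm h) hK⟩
  | succ n ih =>
    intro M K h m
    obtain ⟨L, hL, hLK⟩ := h
    have h1 := ih hL (m + 1)
    have h2 := hLK.pdLT_iff m
    have e : n + 1 + m + 1 = n + (m + 1) + 1 := by omega
    rw [e, h1]
    exact h2

theorem exists_syz [IsNoetherianRing A] (n : ℕ) (M : ModuleCat.{u} A) [Module.Finite A M] :
    ∃ K : ModuleCat.{u} A, Module.Finite A K ∧ Syz A n M K := by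
  induction n with
  | zero => exact ⟨M, inferInstance, StEq.refl _⟩
  | succ n ih =>
    obtain ⟨L, hLf, hL⟩ := ih
    obtain ⟨K, hKf, hK⟩ := exists_syz1 (A := A) L
    exact ⟨K, hKf, L, hL, hK⟩

section horseshoe

theorem horseshoe1 [IsNoetherianRing A] {X Y C : Type u} [AddCommGroup X] [Module A X]
    [AddCommGroup Y] [Module A Y] [AddCommGroup C] [Module A C] [Module.Finite A X]
    [Module.Finite A C] (f : X →ₗ[A] Y) (g : Y →ₗ[A] C) (hf : Function.Injective f)
    (hfg : Function.Exact f g) (hg : Function.Surjective g) :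
    ∃ (KX KY KC : ModuleCat.{u} A) (f' : KX →ₗ[A] KY) (g' : KY →ₗ[A] KC),
      Module.Finite A KX ∧ Module.Finite A KY ∧ Module.Finite A KC ∧
      Syz1 A X KX ∧ Syz1 A Y KY ∧ Syz1 A C KC ∧
      Function.Injective f' ∧ Function.Exact f' g' ∧ Function.Surjective g' := by
  obtain ⟨n, πX, hπX⟩ := Module.Finite.exists_fin' A X
  obtain ⟨m, πC, hπC⟩ := Module.Finite.exists_fin' A C
  obtain ⟨l, hl⟩ := Module.projective_lifting_property g πC hg
  have hl' : ∀ q, g (l q) = πC q := fun q => LinearMap.congr_fun hl q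
  let πY : (Fin n → A) × (Fin m → A) →ₗ[A] Y := (f ∘ₗ πX).coprod l
  have hπY : ∀ p q, πY (p, q) = f (πX p) + l q := fun p q => by simp [πY]
  have hgf : ∀ x, g (f x) = 0 := fun x => hfg.apply_apply_eq_zero x
  have hπYs : Function.Surjective πY := by
    intro y
    obtain ⟨q, hq⟩ := hπC (g y)
    have : g (y - l q) = 0 := by rw [map_sub, hl', hq, sub_self]
    obtain ⟨x, hx⟩ := (hfg (y - l q)).mp this
    obtain ⟨p, hp⟩ := hπX x
    refine ⟨(p, q), ?_⟩
    rw [hπY, hp, hx]; abel
  let f' : LinearMap.ker πX →ₗ[A] LinearMap.ker πY :=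
    (LinearMap.inl A (Fin n → A) (Fin m → A)).restrict (fun x hx => by
      rw [LinearMap.mem_ker] at hx ⊢
      rw [LinearMap.inl_apply, hπY, hx, map_zero, map_zero, add_zero])
  let g' : LinearMap.ker πY →ₗ[A] LinearMap.ker πC :=
    (LinearMap.snd A (Fin n → A) (Fin m → A)).restrict (fun x hx => by
      rw [LinearMap.mem_ker] at hx ⊢
      obtain ⟨p, q⟩ := x
      rw [hπY] at hx
      have := congrArg g hx
      rw [map_add, hgf, zero_add, hl', map_zero] at this
      exact this)
  refine ⟨ModuleCat.of A (LinearMap.ker πX), ModuleCat.of A (LinearMap.ker πY),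
    ModuleCat.of A (LinearMap.ker πC), f', g', ?_, ?_, ?_, ?_, ?_, ?_, ?_, ?_, ?_⟩
  · show Module.Finite A (LinearMap.ker πX)
    infer_instance
  · show Module.Finite A (LinearMap.ker πY)
    infer_instance
  · show Module.Finite A (LinearMap.ker πC)
    infer_instance
  · exact ⟨ModuleCat.of A (Fin n → A), (inferInstance : Module.Projective A (Fin n → A)),
      (inferInstance : Module.Finite A (Fin n → A)), (LinearMap.ker πX).subtype, πX,
      Submodule.subtype_injective _, LinearMap.exact_subtype_ker_map πX, hπX⟩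
  · exact ⟨ModuleCat.of A ((Fin n → A) × (Fin m → A)),
      (inferInstance : Module.Projective A ((Fin n → A) × (Fin m → A))),
      (inferInstance : Module.Finite A ((Fin n → A) × (Fin m → A))),
      (LinearMap.ker πY).subtype, πY,
      Submodule.subtype_injective _, LinearMap.exact_subtype_ker_map πY, hπYs⟩
  · exact ⟨ModuleCat.of A (Fin m → A), (inferInstance : Module.Projective A (Fin m → A)),
      (inferInstance : Module.Finite A (Fin m → A)), (LinearMap.ker πC).subtype, πC,
      Submodule.subtype_injective _, LinearMap.exact_subtype_ker_map πC, hπC⟩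
  · intro x y hxy
    have := congrArg (fun z : LinearMap.ker πY => (z : (Fin n → A) × (Fin m → A)).1) hxy
    exact Subtype.ext this
  · intro y
    constructor
    · intro hy
      obtain ⟨⟨p, q⟩, hpq⟩ := y
      have hq : q = 0 := congrArg Subtype.val hy
      subst hq
      have hp : πX p = 0 := by
        rw [LinearMap.mem_ker, hπY, map_zero, add_zero] at hpq
        exact hf (by rw [hpq, map_zero])
      exact ⟨⟨p, hp⟩, Subtype.ext rfl⟩
    · rintro ⟨x, rfl⟩
      exact Subtype.ext rfl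
  · rintro ⟨q, hq⟩
    rw [LinearMap.mem_ker] at hq
    have : g (l q) = 0 := by rw [hl', hq]
    obtain ⟨x, hx⟩ := (hfg (l q)).mp this
    obtain ⟨p, hp⟩ := hπX x
    refine ⟨⟨(-p, q), ?_⟩, Subtype.ext rfl⟩
    rw [LinearMap.mem_ker, hπY, map_neg, hp, map_neg, hx, neg_add_cancel]

theorem horseshoe [IsNoetherianRing A] (n : ℕ) {X Y C : ModuleCat.{u} A} [Module.Finite A X]
    [Module.Finite A Y] [Module.Finite A C] (f : X →ₗ[A] Y) (g : Y →ₗ[A] C)
    (hf : Function.Injective f) (hfg : Function.Exact f g) (hg : Function.Surjective g) :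
    ∃ (KX KY KC : ModuleCat.{u} A) (f' : KX →ₗ[A] KY) (g' : KY →ₗ[A] KC),
      Module.Finite A KX ∧ Module.Finite A KY ∧ Module.Finite A KC ∧
      Syz A n X KX ∧ Syz A n Y KY ∧ Syz A n C KC ∧
      Function.Injective f' ∧ Function.Exact f' g' ∧ Function.Surjective g' := by
  induction n with
  | zero =>
    exact ⟨X, Y, C, f, g, inferInstance, inferInstance, inferInstance, StEq.refl _, StEq.refl _,
      StEq.refl _, hf, hfg, hg⟩
  | succ n ih =>
    obtain ⟨KX, KY, KC, f', g', hX, hY, hC, sX, sY, sC, hf', hfg', hg'⟩ := ih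
    obtain ⟨LX, LY, LC, f'', g'', hX', hY', hC', sX', sY', sC', hf'', hfg'', hg''⟩ :=
      horseshoe1 f' g' hf' hfg' hg'
    exact ⟨LX, LY, LC, f'', g'', hX', hY', hC', ⟨KX, sX, sX'⟩, ⟨KY, sY, sY'⟩, ⟨KC, sC, sC'⟩,
      hf'', hfg'', hg''⟩

end horseshoe

section pi
variable {κ : Type} [Fintype κ]

theorem FF.pi {M K : κ → Type u} [∀ k, AddCommGroup (M k)] [∀ k, Module A (M k)]
    [∀ k, AddCommGroup (K k)] [∀ k, Module A (K k)] (φ : ∀ k, M k →ₗ[A] K k)
    (h : ∀ k, FF (φ k)) : FF (LinearMap.pi fun k => φ k ∘ₗ LinearMap.proj k) := by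
  classical
  have : (LinearMap.pi fun k => φ k ∘ₗ LinearMap.proj k : (∀ k, M k) →ₗ[A] (∀ k, K k)) =
      ∑ k, LinearMap.single A K k ∘ₗ φ k ∘ₗ LinearMap.proj k := by
    refine LinearMap.ext fun x => funext fun k => ?_
    simp only [LinearMap.pi_apply, LinearMap.comp_apply, LinearMap.proj_apply,
      LinearMap.sum_apply, LinearMap.single_apply, Finset.sum_apply]
    rw [Finset.sum_eq_single k]
    · simp
    · intro b _ hb
      simp [hb.symm]
    · intro hk; exact absurd (Finset.mem_univ k) hk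
  rw [this]
  exact FF.sum _ _ fun k _ => ((h k).comp_right _).comp_left _

theorem StEq.pi {M K : κ → Type u} [∀ k, AddCommGroup (M k)] [∀ k, Module A (M k)]
    [∀ k, AddCommGroup (K k)] [∀ k, Module A (K k)] (h : ∀ k, StEq A (M k) (K k)) :
    StEq A (∀ k, M k) (∀ k, K k) := by
  choose t s h1 h2 using h
  refine ⟨LinearMap.pi fun k => t k ∘ₗ LinearMap.proj k,
    LinearMap.pi fun k => s k ∘ₗ LinearMap.proj k, ?_, ?_⟩
  · have : (LinearMap.id : (∀ k, M k) →ₗ[A] (∀ k, M k)) -
        (LinearMap.pi fun k => s k ∘ₗ LinearMap.proj k) ∘ₗ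
          (LinearMap.pi fun k => t k ∘ₗ LinearMap.proj k) =
        LinearMap.pi fun k => (LinearMap.id - s k ∘ₗ t k) ∘ₗ LinearMap.proj k := by
      refine LinearMap.ext fun x => funext fun k => ?_
      simp
    rw [this]
    exact FF.pi _ h1
  · have : (LinearMap.id : (∀ k, K k) →ₗ[A] (∀ k, K k)) -
        (LinearMap.pi fun k => t k ∘ₗ LinearMap.proj k) ∘ₗ
          (LinearMap.pi fun k => s k ∘ₗ LinearMap.proj k) =
        LinearMap.pi fun k => (LinearMap.id - t k ∘ₗ s k) ∘ₗ LinearMap.proj k := by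
      refine LinearMap.ext fun x => funext fun k => ?_
      simp
    rw [this]
    exact FF.pi _ h2

theorem Syz1.pi {M K : κ → Type u} [∀ k, AddCommGroup (M k)] [∀ k, Module A (M k)]
    [∀ k, AddCommGroup (K k)] [∀ k, Module A (K k)] (h : ∀ k, Syz1 A (M k) (K k)) :
    Syz1 A (∀ k, M k) (∀ k, K k) := by
  choose P hP hPf j π hj hex hπ using h
  refine ⟨ModuleCat.of A (∀ k, P k), ?_, ?_, LinearMap.pi fun k => j k ∘ₗ LinearMap.proj k,
    LinearMap.pi fun k => π k ∘ₗ LinearMap.proj k, ?_, ?_, ?_⟩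
  · show Module.Projective A (∀ k, P k)
    exact PdLT.projective (PdLT.pi fun k => PdLT.of_projective)
  · show Module.Finite A (∀ k, P k)
    infer_instance
  · intro x y hxy
    funext k
    exact hj k (congrFun hxy k)
  · intro y
    constructor
    · intro hy
      have : ∀ k, ∃ x, j k x = y k := fun k => (hex k (y k)).mp (congrFun hy k)
      choose x hx using this
      exact ⟨x, funext hx⟩
    · rintro ⟨x, rfl⟩
      funext k
      exact (hex k _).mpr ⟨x k, rfl⟩
  · intro y
    choose x hx using fun k => hπ k (y k)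
    exact ⟨x, funext hx⟩

theorem Syz.pi (n : ℕ) : ∀ {M K : κ → ModuleCat.{u} A}, (∀ k, Syz A n (M k) (K k)) →
    Syz A n (ModuleCat.of A (∀ k, M k)) (ModuleCat.of A (∀ k, K k)) := by
  induction n with
  | zero =>
    intro M K h
    exact StEq.pi (M := fun k => M k) (K := fun k => K k) h
  | succ n ih =>
    intro M K h
    choose L hL hLK using h
    exact ⟨ModuleCat.of A (∀ k, L k), ih hL,
      Syz1.pi (M := fun k => L k) (K := fun k => K k) hLK⟩

end pi

end Vale.Agent.H47.Findim
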