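import Vale.Agent.H47.Findim.ExtCore
import Vale.Agent.H47.Findim.Fitting
import Vale.Agent.H47.Findim.Syzygy

/-!
# The Fitting/Ext argument at the level of modules
-/

universe u

namespace Vale.Agent.H47.Findim

open CategoryTheory

variable {A : Type u} [Ring A]

section
variable {X Y D : Type u} [AddCommGroup X] [Module A X] [AddCommGroup Y] [Module A Y]
  [AddCommGroup D] [Module A D]

/-- A short exact sequence with finitely generated projective cokernel gives a stable
equivalence. -/
theorem stEq_of_ses_proj [Module.Projective A D] [Module.Finite A D] (a : X →ₗ[A] Y)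
    (b : Y →ₗ[A] D) (ha : Function.Injective a) (hab : Function.Exact a b)
    (hb : Function.Surjective b) : StEq A X Y := by
  obtain ⟨r, hr⟩ := Module.projective_lifting_property b LinearMap.id hb
  have hr' : ∀ d, b (r d) = d := fun d => LinearMap.congr_fun hr d
  obtain ⟨ρ, hρ⟩ := exists_lift_of_exact ha hab (LinearMap.id - r ∘ₗ b) (fun y => by
    simp only [LinearMap.sub_apply, LinearMap.id_apply, LinearMap.comp_apply, map_sub]
    rw [hr', sub_self])
  refine ⟨a, ρ, ?_, ?_⟩
  · have : LinearMap.id - ρ ∘ₗ a = 0 := by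
      ext x
      apply ha
      simp only [LinearMap.sub_apply, LinearMap.id_apply, LinearMap.comp_apply, map_sub,
        LinearMap.zero_apply, map_zero]
      rw [hρ]
      simp only [LinearMap.sub_apply, LinearMap.id_apply, LinearMap.comp_apply]
      rw [hab.apply_apply_eq_zero, map_zero, sub_zero, sub_self]
    rw [this]
    exact FF.zero
  · have : LinearMap.id - a ∘ₗ ρ = r ∘ₗ b := by
      ext y
      simp only [LinearMap.sub_apply, LinearMap.id_apply, LinearMap.comp_apply]
      rw [hρ]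
      simp
    rw [this]
    exact FF.of_factor D b r

theorem FP_of_FF {φ : X →ₗ[A] Y} (h : FF φ) : FP (ModuleCat.ofHom φ) := by
  obtain ⟨κ, _, a, b, rfl⟩ := h
  exact ⟨ModuleCat.of A (κ → A), (IsProjective.iff_projective (κ → A)).mp inferInstance,
    ModuleCat.ofHom a, ModuleCat.ofHom b, ModuleCat.ofHom_comp a b⟩

theorem ofHom_sub' (φ ψ : X →ₗ[A] Y) :
    ModuleCat.ofHom (φ - ψ) = ModuleCat.ofHom φ - ModuleCat.ofHom ψ := rfl

theorem iter_ofHom (γ : Module.End A X) (m : ℕ) :
    iter (ModuleCat.ofHom γ) m = ModuleCat.ofHom (γ ^ m) := by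
  induction m with
  | zero => rfl
  | succ m ih =>
    show ModuleCat.ofHom γ ≫ iter (ModuleCat.ofHom γ) m = _
    rw [ih, ← ModuleCat.ofHom_comp, pow_succ]

/-- The Fitting/Ext argument: in a short exact sequence `0 → X → Y → D → 0` with `X` of finite
length, `X` and `Y` stably equivalent and `D` of finite projective dimension, some direct summand
`Z` of `X` has finite projective dimension and controls the projective dimension of `D`. -/
theorem fitting_ext [IsArtinian A X] [IsNoetherian A X] (f : X →ₗ[A] Y) (g : Y →ₗ[A] D)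
    (hf : Function.Injective f) (hfg : Function.Exact f g) (hg : Function.Surjective g)
    (hXY : StEq A X Y) {d : ℕ} (hD : PdLT A D d) :
    ∃ (Z : Submodule A X) (pZ : X →ₗ[A] Z), (∀ z : Z, pZ z = z) ∧ (∃ m, PdLT A Z m) ∧
      ∀ j, 1 ≤ j → PdLT A Z j → PdLT A D (j + 1) := by
  obtain ⟨t, s, hts, hst⟩ := hXY
  obtain ⟨m, e, h, he, hem, h1, h2⟩ := fitting_data (s ∘ₗ f)
  have he' : ∀ x, e (e x) = e x := fun x => LinearMap.congr_fun he x
  let pZ : X →ₗ[A] LinearMap.range e := e.rangeRestrict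
  have hpZ : ∀ z : LinearMap.range e, pZ z = z := by
    rintro ⟨_, x, rfl⟩
    exact Subtype.ext (he' x)
  have hS := shortExact_of hf hfg hg
  have hγ : ModuleCat.ofHom f ≫ ModuleCat.ofHom s = ModuleCat.ofHom (s ∘ₗ f) :=
    (ModuleCat.ofHom_comp f s).symm
  have c1 : FP (𝟙 (ModuleCat.of A X) - ModuleCat.ofHom t ≫ ModuleCat.ofHom s) := by
    have := FP_of_FF hts
    rw [ofHom_sub', ModuleCat.ofHom_comp] at this
    exact this
  have c2 : FP (𝟙 (ModuleCat.of A Y) - ModuleCat.ofHom s ≫ ModuleCat.ofHom t) := by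
    have := FP_of_FF hst
    rw [ofHom_sub', ModuleCat.ofHom_comp] at this
    exact this
  have c3 : ModuleCat.ofHom (LinearMap.range e).subtype ≫ ModuleCat.ofHom pZ =
      𝟙 (ModuleCat.of A (LinearMap.range e)) := by
    rw [← ModuleCat.ofHom_comp]
    have : pZ ∘ₗ (LinearMap.range e).subtype = LinearMap.id := LinearMap.ext hpZ
    rw [this]; rfl
  have c4 : iter (ModuleCat.ofHom f ≫ ModuleCat.ofHom s) m ≫ ModuleCat.ofHom pZ = 0 := by
    rw [hγ, iter_ofHom, ← ModuleCat.ofHom_comp]
    have : pZ ∘ₗ ((s ∘ₗ f) ^ m : Module.End A X) = 0 := by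
      ext x
      exact LinearMap.congr_fun hem x
    rw [this]; rfl
  have c5 : (ModuleCat.ofHom f ≫ ModuleCat.ofHom s) ≫ ModuleCat.ofHom h =
      𝟙 (ModuleCat.of A X) -
        ModuleCat.ofHom pZ ≫ ModuleCat.ofHom (LinearMap.range e).subtype := by
    rw [hγ, ← ModuleCat.ofHom_comp, ← ModuleCat.ofHom_comp]
    have : h ∘ₗ s ∘ₗ f = LinearMap.id - (LinearMap.range e).subtype ∘ₗ pZ := by
      ext x
      exact LinearMap.congr_fun h2 x
    rw [this, ofHom_sub']; rfl
  have c6 : ModuleCat.ofHom h ≫ (ModuleCat.ofHom f ≫ ModuleCat.ofHom s) =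
      𝟙 (ModuleCat.of A X) -
        ModuleCat.ofHom pZ ≫ ModuleCat.ofHom (LinearMap.range e).subtype := by
    rw [hγ, ← ModuleCat.ofHom_comp, ← ModuleCat.ofHom_comp]
    have : (s ∘ₗ f) ∘ₗ h = LinearMap.id - (LinearMap.range e).subtype ∘ₗ pZ := by
      ext x
      exact LinearMap.congr_fun h1 x
    rw [this, ofHom_sub']; rfl
  have key := ext_core hS (ModuleCat.ofHom s) (ModuleCat.ofHom t) c1 c2
    (ModuleCat.ofHom (LinearMap.range e).subtype) (ModuleCat.ofHom pZ) c3 m c4
    (ModuleCat.ofHom h) c5 c6 d hD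
  exact ⟨LinearMap.range e, pZ, hpZ, ⟨max d 1, key.1⟩, key.2⟩

end

end Vale.Agent.H47.Findim
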