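import Vale.Agent.H47.Findim.HLM

/-!
# The corner ring `e A e` and the functor `X ↦ e X`
-/

universe u

namespace Vale.Agent.H47.Findim

open CategoryTheory

section corner
variable {A : Type u} [Ring A] {e : A} (he : IsIdempotentElem e)

theorem corner_mul_left (b : he.Corner) : e * b.1 = b.1 :=
  ((Subsemigroup.mem_corner_iff he).mp b.2).1

theorem corner_mul_right (b : he.Corner) : b.1 * e = b.1 :=
  ((Subsemigroup.mem_corner_iff he).mp b.2).2

theorem corner_val_mul (b c : he.Corner) : (b * c).1 = b.1 * c.1 := rfl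

theorem corner_val_add (b c : he.Corner) : (b + c).1 = b.1 + c.1 := rfl

theorem corner_val_one : (1 : he.Corner).1 = e := rfl

theorem corner_val_zero : (0 : he.Corner).1 = 0 := rfl

/-- The element `e a e` of the corner ring. -/
def cornerMk (a : A) : he.Corner := ⟨e * a * e, a, rfl⟩

theorem cornerMk_val (a : A) : (cornerMk he a).1 = e * a * e := rfl

/-- The additive subgroup `e X` of an `A`-module `X`. -/
def cornerSub (e : A) (X : Type u) [AddCommGroup X] [Module A X] : AddSubgroup X where
  carrier := {x | e • x = x}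
  add_mem' := by
    intro a b ha hb
    have ha' : e • a = a := ha
    have hb' : e • b = b := hb
    show e • (a + b) = a + b
    rw [smul_add, ha', hb']
  zero_mem' := smul_zero e
  neg_mem' := by
    intro a ha
    have ha' : e • a = a := ha
    show e • (-a) = -a
    rw [smul_neg, ha']

/-- The module `e X` over the corner ring `e A e`. -/
def CM (_ : IsIdempotentElem e) (X : Type u) [AddCommGroup X] [Module A X] : Type u :=
  ↥(cornerSub e X)

section
variable (X : Type u) [AddCommGroup X] [Module A X]

instance : AddCommGroup (CM he X) := inferInstanceAs (AddCommGroup ↥(cornerSub e X))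

instance : SMul he.Corner (CM he X) where
  smul b x := ⟨b.1 • x.1, by
    show e • (b.1 • x.1) = b.1 • x.1
    rw [← mul_smul, corner_mul_left]⟩

end

section
variable {X : Type u} [AddCommGroup X] [Module A X]

theorem CM.ext {x y : CM he X} (h : x.1 = y.1) : x = y := Subtype.ext h

theorem CM.prop (x : CM he X) : e • x.1 = x.1 := x.2

theorem CM.smul_val (b : he.Corner) (x : CM he X) : (b • x).1 = b.1 • x.1 := rfl

theorem CM.add_val (x y : CM he X) : (x + y).1 = x.1 + y.1 := rfl

theorem CM.zero_val : (0 : CM he X).1 = 0 := rfl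

theorem CM.sub_val (x y : CM he X) : (x - y).1 = x.1 - y.1 := rfl

/-- The element `e x` of `e X`. -/
def CM.mk (x : X) : CM he X := ⟨e • x, by
  show e • (e • x) = e • x
  rw [← mul_smul, he.eq]⟩

theorem CM.mk_val (x : X) : (CM.mk he x).1 = e • x := rfl

theorem CM.mk_self (x : CM he X) : CM.mk he x.1 = x := CM.ext he x.2

end

instance (X : Type u) [AddCommGroup X] [Module A X] : Module he.Corner (CM he X) where
  one_smul x := CM.ext he (by rw [CM.smul_val, corner_val_one]; exact x.2)
  mul_smul b c x := CM.ext he (by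
    rw [CM.smul_val, CM.smul_val, CM.smul_val, corner_val_mul, mul_smul])
  smul_zero b := CM.ext he (by rw [CM.smul_val, CM.zero_val, smul_zero])
  smul_add b x y := CM.ext he (by
    rw [CM.smul_val, CM.add_val, CM.add_val, CM.smul_val, CM.smul_val, smul_add])
  add_smul b c x := CM.ext he (by
    rw [CM.smul_val, CM.add_val, CM.smul_val, CM.smul_val, corner_val_add, add_smul])
  zero_smul x := CM.ext he (by rw [CM.smul_val, corner_val_zero, zero_smul, CM.zero_val])

section maps
variable {X Y Z : Type u} [AddCommGroup X] [Module A X] [AddCommGroup Y] [Module A Y]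
  [AddCommGroup Z] [Module A Z]

/-- The map `e X → e Y` induced by a linear map `X → Y`. -/
def cmMap (f : X →ₗ[A] Y) : CM he X →ₗ[he.Corner] CM he Y where
  toFun x := ⟨f x.1, by
    show e • f x.1 = f x.1
    rw [← map_smul, x.2]⟩
  map_add' x y := CM.ext he (by
    show f (x + y).1 = f x.1 + f y.1
    rw [CM.add_val, map_add])
  map_smul' b x := CM.ext he (by
    show f (b • x).1 = b.1 • f x.1
    rw [CM.smul_val, map_smul])

theorem cmMap_val (f : X →ₗ[A] Y) (x : CM he X) : (cmMap he f x).1 = f x.1 := rfl

theorem cmMap_comp (g : Y →ₗ[A] Z) (f : X →ₗ[A] Y) :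
    cmMap he (g ∘ₗ f) = cmMap he g ∘ₗ cmMap he f := rfl

theorem cmMap_id : cmMap he (LinearMap.id : X →ₗ[A] X) = LinearMap.id := rfl

theorem cmMap_injective {f : X →ₗ[A] Y} (hf : Function.Injective f) :
    Function.Injective (cmMap he f) := by
  intro x y hxy
  apply CM.ext he
  apply hf
  have := congrArg Subtype.val hxy
  exact this

theorem cmMap_surjective {f : X →ₗ[A] Y} (hf : Function.Surjective f) :
    Function.Surjective (cmMap he f) := by
  intro y
  obtain ⟨x, hx⟩ := hf y.1
  refine ⟨CM.mk he x, CM.ext he ?_⟩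
  rw [cmMap_val, CM.mk_val, map_smul, hx]
  exact y.2

theorem cmMap_exact {f : X →ₗ[A] Y} {g : Y →ₗ[A] Z} (h : Function.Exact f g) :
    Function.Exact (cmMap he f) (cmMap he g) := by
  intro y
  constructor
  · intro hy
    have h1 : g y.1 = 0 := congrArg Subtype.val hy
    obtain ⟨x, hx⟩ := (h y.1).mp h1
    refine ⟨CM.mk he x, CM.ext he ?_⟩
    rw [cmMap_val, CM.mk_val, map_smul, hx]
    exact y.2
  · rintro ⟨x, rfl⟩
    apply CM.ext he
    rw [cmMap_val, cmMap_val]
    exact h.apply_apply_eq_zero x.1

/-- `e (X × Y) ≃ e X × e Y`. -/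
def cmProd : CM he (X × Y) ≃ₗ[he.Corner] CM he X × CM he Y where
  toFun w := (cmMap he (LinearMap.fst A X Y) w, cmMap he (LinearMap.snd A X Y) w)
  map_add' x y := rfl
  map_smul' b x := rfl
  invFun p := ⟨(p.1.1, p.2.1), by
    show e • ((p.1.1, p.2.1) : X × Y) = (p.1.1, p.2.1)
    rw [Prod.smul_mk, p.1.2, p.2.2]⟩
  left_inv w := rfl
  right_inv p := rfl

/-- `e (X^m) ≃ (e X)^m`. -/
def cmPi (m : ℕ) : CM he (Fin m → X) ≃ₗ[he.Corner] (Fin m → CM he X) where
  toFun w k := cmMap he (LinearMap.proj k) w
  map_add' x y := rfl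
  map_smul' b x := rfl
  invFun p := ⟨fun k => (p k).1, by
    show e • (fun k => (p k).1) = fun k => (p k).1
    funext k
    exact (p k).2⟩
  left_inv w := rfl
  right_inv p := rfl

end maps

section chain
variable {N : Type u} [AddCommGroup N] [Module he.Corner N] {X : Type u} [AddCommGroup X]
  [Module A X]

/-- The `A`-submodule of `X` generated by the image of a submodule of a module over the corner
ring. -/
def spanImage (j : N →+ X) (W : Submodule he.Corner N) : Submodule A X :=
  Submodule.span A (j '' (W : Set N))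

theorem mem_of_mem_spanImage (j : N →+ X) (hj : Function.Injective j)
    (hsmul : ∀ (b : he.Corner) (n : N), j (b • n) = b.1 • j n) (hfix : ∀ n : N, e • j n = j n)
    (W : Submodule he.Corner N) {n : N} (hn : j n ∈ spanImage he j W) : n ∈ W := by
  have key : ∀ x ∈ spanImage he j W, ∀ c : A, ∃ w ∈ W, j w = (e * c) • x := by
    intro x hx
    refine Submodule.span_induction (p := fun x _ => ∀ c : A, ∃ w ∈ W, j w = (e * c) • x)
      ?_ ?_ ?_ ?_ hx
    · rintro x ⟨w₀, hw₀, rfl⟩ c
      refine ⟨cornerMk he c • w₀, W.smul_mem _ hw₀, ?_⟩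
      rw [hsmul, cornerMk_val]
      conv_rhs => rw [← hfix w₀, ← mul_smul]
    · intro c
      exact ⟨0, W.zero_mem, by rw [map_zero, smul_zero]⟩
    · intro x y _ _ hx hy c
      obtain ⟨w, hw, hw'⟩ := hx c
      obtain ⟨w', hw2, hw2'⟩ := hy c
      exact ⟨w + w', W.add_mem hw hw2, by rw [map_add, hw', hw2', smul_add]⟩
    · intro a x _ hx c
      obtain ⟨w, hw, hw'⟩ := hx (c * a)
      exact ⟨w, hw, by rw [hw', ← mul_smul, mul_assoc]⟩
  obtain ⟨w, hw, hw'⟩ := key (j n) hn 1
  rw [mul_one, hfix] at hw'
  rw [← hj hw']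
  exact hw

theorem spanImage_strictMono (j : N →+ X) (hj : Function.Injective j)
    (hsmul : ∀ (b : he.Corner) (n : N), j (b • n) = b.1 • j n) (hfix : ∀ n : N, e • j n = j n) :
    StrictMono (spanImage he j) := by
  intro W W' hlt
  refine lt_of_le_of_ne (Submodule.span_mono (Set.image_mono hlt.le)) ?_
  intro heq
  refine hlt.not_ge ?_
  intro n hn
  apply mem_of_mem_spanImage he j hj hsmul hfix W
  rw [heq]
  exact Submodule.subset_span ⟨n, hn, rfl⟩

end chain

section cmchain
variable (X : Type u) [AddCommGroup X] [Module A X]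

/-- The inclusion `e X → X` as an additive map. -/
def cmVal : CM he X →+ X := (cornerSub e X).subtype

theorem cm_isArtinian [IsArtinian A X] : IsArtinian he.Corner (CM he X) :=
  (spanImage_strictMono he (cmVal he X) Subtype.val_injective (fun _ _ => rfl)
    (fun n => n.2)).wellFoundedLT

theorem cm_isNoetherian [IsNoetherian A X] : IsNoetherian he.Corner (CM he X) := by
  rw [isNoetherian_iff']
  have : WellFoundedGT (Submodule A X) := isNoetherian_iff'.mp inferInstance
  exact (spanImage_strictMono he (cmVal he X) Subtype.val_injective (fun _ _ => rfl)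
    (fun n => n.2)).wellFoundedGT

end cmchain

/-- The inclusion `e A e → A` as an additive map. -/
def cornerVal : he.Corner →+ A where
  toFun b := b.1
  map_zero' := rfl
  map_add' _ _ := rfl

theorem corner_isArtinianRing [IsArtinianRing A] : IsArtinianRing he.Corner :=
  (spanImage_strictMono he (N := he.Corner) (X := A) (cornerVal he) Subtype.val_injective
    (fun _ _ => rfl) (fun n => corner_mul_left he n)).wellFoundedLT

end corner

end Vale.Agent.H47.Findim
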