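import Vale.Agent.H47.Findim.Corner

/-!
# Lifting modules over the corner ring `e A e` to `A`-modules

For a finitely generated `e A e`-module `M` we construct a finitely generated `A`-module `X` with
`e X ≅ M`, together with first and second syzygies of `X` taken with respect to projective
modules in `add (A e)`, so that applying `e` gives first and second syzygies of `M`.
-/

universe u

namespace Vale.Agent.H47.Findim

open CategoryTheory

/-- Exact syzygies: `ESyz A n M K` says that `K` is an `n`-th syzygy of `M` with respect to a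
resolution by finitely generated projective modules (for `n = 0`: `K ≅ M`). -/
def ESyz (A : Type u) [Ring A] : ℕ → ModuleCat.{u} A → ModuleCat.{u} A → Prop
  | 0, M, K => Nonempty (M ≃ₗ[A] K)
  | (n + 1), M, K => ∃ K' : ModuleCat.{u} A, ESyz A n M K' ∧ Syz1 A K' K

theorem lin_eq_sum' {R : Type u} [Semiring R] {P : Type u} [AddCommMonoid P] [Module R P]
    {m : ℕ} (f : (Fin m → R) →ₗ[R] P) (c : Fin m → R) :
    f c = ∑ k, c k • f (Pi.single k 1) := by
  classical
  have h : c = ∑ k, c k • (Pi.single k 1 : Fin m → R) := by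
    funext j
    simp [Finset.sum_apply, Pi.single_apply]
  conv_lhs => rw [h]
  rw [map_sum]
  simp only [map_smul]

section lift
variable {A : Type u} [Ring A] {e : A} (he : IsIdempotentElem e)

/-- The left ideal `A e`. -/
def aeSub (e : A) : Submodule A A where
  carrier := {a | a * e = a}
  add_mem' := by
    intro a b ha hb
    have ha' : a * e = a := ha
    have hb' : b * e = b := hb
    show (a + b) * e = a + b
    rw [add_mul, ha', hb']
  zero_mem' := zero_mul e
  smul_mem' := by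
    intro c a ha
    have ha' : a * e = a := ha
    show (c • a) * e = c • a
    rw [smul_eq_mul, mul_assoc, ha']

theorem aeSub_prop (a : ↥(aeSub e)) : a.1 * e = a.1 := a.2

/-- The projection `A → A e`, `a ↦ a e`. -/
def aeProj : A →ₗ[A] ↥(aeSub e) where
  toFun a := ⟨a * e, by
    show a * e * e = a * e
    rw [mul_assoc, he.eq]⟩
  map_add' a b := Subtype.ext (add_mul a b e)
  map_smul' c a := Subtype.ext (by
    show c • a * e = c • (a * e)
    rw [smul_eq_mul, smul_eq_mul, mul_assoc])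

theorem aeProj_subtype : aeProj he ∘ₗ (aeSub e).subtype = LinearMap.id := by
  ext a
  exact a.2

include he in
theorem aeSub_projective : Module.Projective A ↥(aeSub e) :=
  Module.Projective.of_split (aeSub e).subtype (aeProj he) (aeProj_subtype he)

include he in
theorem aeSub_finite : Module.Finite A ↥(aeSub e) :=
  Module.Finite.of_surjective (aeProj he) (fun a => ⟨a.1, Subtype.ext a.2⟩)

include he in
theorem aePi_projective (m : ℕ) : Module.Projective A (Fin m → ↥(aeSub e)) := by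
  have := aeSub_projective he
  exact PdLT.projective (PdLT.pi fun _ => PdLT.of_projective)

include he in
theorem aePi_finite (m : ℕ) : Module.Finite A (Fin m → ↥(aeSub e)) := by
  have := aeSub_finite he
  infer_instance

/-- `(e A e)^m ≃ e (A e)^m`. -/
def cornerIota (m : ℕ) : (Fin m → he.Corner) ≃ₗ[he.Corner] CM he (Fin m → ↥(aeSub e)) where
  toFun c := ⟨fun k => ⟨(c k).1, corner_mul_right he (c k)⟩, by
    show e • (fun k => (⟨(c k).1, corner_mul_right he (c k)⟩ : ↥(aeSub e))) = _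
    funext k
    exact Subtype.ext (corner_mul_left he (c k))⟩
  map_add' c d := rfl
  map_smul' b c := rfl
  invFun w := fun k => ⟨(w.1 k).1, (Subsemigroup.mem_corner_iff he).mpr
    ⟨congrArg Subtype.val (congrFun w.2 k), (w.1 k).2⟩⟩
  left_inv c := rfl
  right_inv w := rfl

theorem cornerIota_val (m : ℕ) (c : Fin m → he.Corner) (k : Fin m) :
    (((cornerIota he m c).1 k : ↥(aeSub e)) : A) = (c k).1 := rfl

/-- The additive embedding `(e A e)^m → (A e)^m`. -/
def cornerJ (m : ℕ) : (Fin m → he.Corner) →+ (Fin m → ↥(aeSub e)) :=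
  (cmVal he (Fin m → ↥(aeSub e))).comp (cornerIota he m).toLinearMap.toAddMonoidHom

theorem cornerJ_apply (m : ℕ) (c : Fin m → he.Corner) :
    cornerJ he m c = (cornerIota he m c).1 := rfl

theorem cornerJ_injective (m : ℕ) : Function.Injective (cornerJ he m) := by
  intro c d h
  exact (cornerIota he m).injective (Subtype.ext h)

theorem cornerJ_smul (m : ℕ) (b : he.Corner) (c : Fin m → he.Corner) :
    cornerJ he m (b • c) = b.1 • cornerJ he m c := rfl

theorem cornerJ_fix (m : ℕ) (c : Fin m → he.Corner) : e • cornerJ he m c = cornerJ he m c :=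
  (cornerIota he m c).2

theorem cm_pi_projective (m : ℕ) :
    Module.Projective he.Corner (CM he (Fin m → ↥(aeSub e))) :=
  Module.Projective.of_equiv (cornerIota he m)

theorem cm_pi_finite (m : ℕ) : Module.Finite he.Corner (CM he (Fin m → ↥(aeSub e))) :=
  Module.Finite.equiv (cornerIota he m)

/-- Every finitely generated module `M` over the corner ring is `e X` for a finitely generated
`A`-module `X`, and for `n ≤ 2` there is an `n`-th syzygy `K` of `X` such that `e K` is an `n`-th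
syzygy of `M`. -/
theorem corner_lift [IsArtinianRing A] (M : ModuleCat.{u} he.Corner)
    [Module.Finite he.Corner M] :
    ∃ X : ModuleCat.{u} A, Module.Finite A X ∧ ∀ n : ℕ, n ≤ 2 →
      ∃ K : ModuleCat.{u} A, ESyz A n X K ∧
        Syz he.Corner n M (ModuleCat.of he.Corner (CM he K)) := by
  classical
  have := corner_isArtinianRing he
  have := aePi_finite he
  obtain ⟨m₀, ε, hε⟩ := Module.Finite.exists_fin' he.Corner M
  let U₁ : Submodule he.Corner (Fin m₀ → he.Corner) := LinearMap.ker ε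
  let Ut : Submodule A (Fin m₀ → ↥(aeSub e)) := spanImage he (cornerJ he m₀) U₁
  have hmemU : ∀ c, cornerJ he m₀ c ∈ Ut ↔ c ∈ U₁ := fun c =>
    ⟨mem_of_mem_spanImage he _ (cornerJ_injective he m₀) (cornerJ_smul he m₀)
      (cornerJ_fix he m₀) U₁, fun hc => Submodule.subset_span ⟨c, hc, rfl⟩⟩
  let ψ : (Fin m₀ → he.Corner) →ₗ[he.Corner] CM he ((Fin m₀ → ↥(aeSub e)) ⧸ Ut) :=
    cmMap he Ut.mkQ ∘ₗ (cornerIota he m₀).toLinearMap
  have hψ : Function.Surjective ψ :=
    (cmMap_surjective he (Submodule.mkQ_surjective Ut)).comp (cornerIota he m₀).surjective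
  have hker : LinearMap.ker ε = LinearMap.ker ψ := by
    ext c
    rw [LinearMap.mem_ker, LinearMap.mem_ker]
    constructor
    · intro hc
      apply CM.ext he
      show Ut.mkQ (cornerJ he m₀ c) = 0
      rw [Submodule.mkQ_apply, Submodule.Quotient.mk_eq_zero]
      exact (hmemU c).mpr hc
    · intro hc
      have h1 : Ut.mkQ (cornerJ he m₀ c) = 0 := congrArg Subtype.val hc
      rw [Submodule.mkQ_apply, Submodule.Quotient.mk_eq_zero] at h1
      exact (hmemU c).mp h1
  let eM : M ≃ₗ[he.Corner] CM he ((Fin m₀ → ↥(aeSub e)) ⧸ Ut) :=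
    (ε.quotKerEquivOfSurjective hε).symm.trans
      ((Submodule.quotEquivOfEq _ _ hker).trans (ψ.quotKerEquivOfSurjective hψ))
  obtain ⟨m₁, η, hη⟩ := Module.Finite.exists_fin' he.Corner U₁
  let g : Fin m₁ → Ut := fun k =>
    ⟨cornerJ he m₀ (η (Pi.single k 1)).1, (hmemU _).mpr (η (Pi.single k 1)).2⟩
  let θ : (Fin m₁ → ↥(aeSub e)) →ₗ[A] Ut :=
    ∑ k, (LinearMap.toSpanSingleton A Ut (g k)) ∘ₗ (aeSub e).subtype ∘ₗ LinearMap.proj k
  have hθ_apply : ∀ a, θ a = ∑ k, (a k).1 • g k := by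
    intro a
    show (∑ k, (LinearMap.toSpanSingleton A Ut (g k)) ∘ₗ (aeSub e).subtype ∘ₗ
      LinearMap.proj k) a = _
    rw [LinearMap.sum_apply]
    rfl
  have hθ : Function.Surjective θ := by
    rintro ⟨x, hx⟩
    suffices h : ∃ a, ((θ a : Ut) : Fin m₀ → ↥(aeSub e)) = x by
      obtain ⟨a, ha⟩ := h
      exact ⟨a, Subtype.ext ha⟩
    refine Submodule.span_induction (p := fun x _ => ∃ a, ((θ a : Ut) :
      Fin m₀ → ↥(aeSub e)) = x) ?_ ?_ ?_ ?_ hx
    · rintro x ⟨c, hc, rfl⟩
      obtain ⟨d, hd⟩ := hη ⟨c, hc⟩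
      refine ⟨fun k => ⟨(d k).1, corner_mul_right he (d k)⟩, ?_⟩
      have h1 : c = ∑ k, d k • (η (Pi.single k 1)).1 := by
        have h2 := lin_eq_sum' η d
        rw [hd] at h2
        have h3 : c = ((∑ k, d k • η (Pi.single k 1) : U₁) : Fin m₀ → he.Corner) :=
          congrArg Subtype.val h2
        rw [h3, Submodule.coe_sum]
        rfl
      rw [hθ_apply, Submodule.coe_sum]
      conv_rhs => rw [h1]
      rw [map_sum]
      rfl
    · exact ⟨0, by rw [map_zero]; rfl⟩
    · rintro x y _ _ ⟨a, rfl⟩ ⟨b, rfl⟩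
      exact ⟨a + b, by rw [map_add]; rfl⟩
    · rintro c x _ ⟨a, rfl⟩
      exact ⟨c • a, by rw [map_smul]; rfl⟩
  have hS1A : Syz1 A ((Fin m₀ → ↥(aeSub e)) ⧸ Ut) Ut :=
    ⟨ModuleCat.of A (Fin m₀ → ↥(aeSub e)), aePi_projective he m₀, aePi_finite he m₀,
      Ut.subtype, Ut.mkQ, Submodule.subtype_injective _, LinearMap.exact_subtype_mkQ Ut,
      Submodule.mkQ_surjective Ut⟩
  have hS2A : Syz1 A Ut (LinearMap.ker θ) :=
    ⟨ModuleCat.of A (Fin m₁ → ↥(aeSub e)), aePi_projective he m₁, aePi_finite he m₁,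
      (LinearMap.ker θ).subtype, θ, Submodule.subtype_injective _,
      LinearMap.exact_subtype_ker_map θ, hθ⟩
  have hS1B : Syz1 he.Corner (CM he ((Fin m₀ → ↥(aeSub e)) ⧸ Ut)) (CM he Ut) :=
    ⟨ModuleCat.of he.Corner (CM he (Fin m₀ → ↥(aeSub e))), cm_pi_projective he m₀,
      cm_pi_finite he m₀, cmMap he Ut.subtype, cmMap he Ut.mkQ,
      cmMap_injective he (Submodule.subtype_injective _),
      cmMap_exact he (LinearMap.exact_subtype_mkQ Ut),
      cmMap_surjective he (Submodule.mkQ_surjective Ut)⟩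
  have hS2B : Syz1 he.Corner (CM he Ut) (CM he (LinearMap.ker θ)) :=
    ⟨ModuleCat.of he.Corner (CM he (Fin m₁ → ↥(aeSub e))), cm_pi_projective he m₁,
      cm_pi_finite he m₁, cmMap he (LinearMap.ker θ).subtype, cmMap he θ,
      cmMap_injective he (Submodule.subtype_injective _),
      cmMap_exact he (LinearMap.exact_subtype_ker_map θ), cmMap_surjective he hθ⟩
  have h0B : Syz he.Corner 0 M
      (ModuleCat.of he.Corner (CM he ((Fin m₀ → ↥(aeSub e)) ⧸ Ut))) := StEq.of_equiv eM
  refine ⟨ModuleCat.of A ((Fin m₀ → ↥(aeSub e)) ⧸ Ut), ?_, ?_⟩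
  · show Module.Finite A ((Fin m₀ → ↥(aeSub e)) ⧸ Ut)
    infer_instance
  · intro n hn
    rcases n with _ | _ | _ | n
    · exact ⟨ModuleCat.of A ((Fin m₀ → ↥(aeSub e)) ⧸ Ut), ⟨LinearEquiv.refl A _⟩, h0B⟩
    · exact ⟨ModuleCat.of A Ut,
        ⟨ModuleCat.of A ((Fin m₀ → ↥(aeSub e)) ⧸ Ut), ⟨LinearEquiv.refl A _⟩, hS1A⟩,
        ⟨ModuleCat.of he.Corner (CM he ((Fin m₀ → ↥(aeSub e)) ⧸ Ut)), h0B, hS1B⟩⟩
    · exact ⟨ModuleCat.of A (LinearMap.ker θ),
        ⟨ModuleCat.of A Ut,
          ⟨ModuleCat.of A ((Fin m₀ → ↥(aeSub e)) ⧸ Ut), ⟨LinearEquiv.refl A _⟩, hS1A⟩, hS2A⟩,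
        ⟨ModuleCat.of he.Corner (CM he Ut),
          ⟨ModuleCat.of he.Corner (CM he ((Fin m₀ → ↥(aeSub e)) ⧸ Ut)), h0B, hS1B⟩, hS2B⟩⟩
    · omega

end lift

end Vale.Agent.H47.Findim
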