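import Vale.Agent.H47.Findim.CornerLift

/-!
# Corner rings of Igusa-Todorov algebras

If `A` is an `n`-Igusa-Todorov algebra with `n ≤ 2` and `e` is an idempotent of `A`, then the
corner ring `e A e` has finite finitistic dimension.
-/

universe u

namespace Vale.Agent.H47.Findim

open CategoryTheory Limits

section schanuel
variable {A : Type u} [Ring A]

/-- Schanuel's lemma. -/
theorem schanuel {M K₁ P₁ K₂ P₂ : Type u} [AddCommGroup M] [Module A M] [AddCommGroup K₁]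
    [Module A K₁] [AddCommGroup P₁] [Module A P₁] [AddCommGroup K₂] [Module A K₂]
    [AddCommGroup P₂] [Module A P₂] [Module.Projective A P₁] [Module.Projective A P₂]
    (j₁ : K₁ →ₗ[A] P₁) (π₁ : P₁ →ₗ[A] M) (hj₁ : Function.Injective j₁)
    (hex₁ : Function.Exact j₁ π₁) (hπ₁ : Function.Surjective π₁)
    (j₂ : K₂ →ₗ[A] P₂) (π₂ : P₂ →ₗ[A] M) (hj₂ : Function.Injective j₂)
    (hex₂ : Function.Exact j₂ π₂) (hπ₂ : Function.Surjective π₂) :
    Nonempty ((K₁ × P₂) ≃ₗ[A] (K₂ × P₁)) := by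
  obtain ⟨α, hα⟩ := Module.projective_lifting_property π₂ π₁ hπ₂
  obtain ⟨β, hβ⟩ := Module.projective_lifting_property π₁ π₂ hπ₁
  have hα' : ∀ p, π₂ (α p) = π₁ p := fun p => LinearMap.congr_fun hα p
  have hβ' : ∀ p, π₁ (β p) = π₂ p := fun p => LinearMap.congr_fun hβ p
  have h1 : ∀ k, π₁ (j₁ k) = 0 := fun k => hex₁.apply_apply_eq_zero k
  have h2 : ∀ k, π₂ (j₂ k) = 0 := fun k => hex₂.apply_apply_eq_zero k
  -- the two components
  let b₁ : K₁ × P₂ →ₗ[A] P₁ := (β ∘ₗ LinearMap.snd A K₁ P₂) + (j₁ ∘ₗ LinearMap.fst A K₁ P₂)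
  let b₂ : K₂ × P₁ →ₗ[A] P₂ := (α ∘ₗ LinearMap.snd A K₂ P₁) + (j₂ ∘ₗ LinearMap.fst A K₂ P₁)
  have hb₁ : ∀ k p, b₁ (k, p) = β p + j₁ k := fun k p => rfl
  have hb₂ : ∀ k p, b₂ (k, p) = α p + j₂ k := fun k p => rfl
  obtain ⟨l₂, hl₂⟩ := exists_lift_of_exact hj₂ hex₂ (LinearMap.snd A K₁ P₂ - α ∘ₗ b₁)
    (fun x => by
      obtain ⟨k, p⟩ := x
      simp only [LinearMap.sub_apply, LinearMap.snd_apply, LinearMap.comp_apply, map_sub]
      rw [hα', hb₁, map_add, hβ', h1, add_zero, sub_self])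
  obtain ⟨l₁, hl₁⟩ := exists_lift_of_exact hj₁ hex₁ (LinearMap.snd A K₂ P₁ - β ∘ₗ b₂)
    (fun x => by
      obtain ⟨k, p⟩ := x
      simp only [LinearMap.sub_apply, LinearMap.snd_apply, LinearMap.comp_apply, map_sub]
      rw [hβ', hb₂, map_add, hα', h2, add_zero, sub_self])
  have hl₂' : ∀ k p, j₂ (l₂ (k, p)) = p - α (b₁ (k, p)) := fun k p => hl₂ (k, p)
  have hl₁' : ∀ k p, j₁ (l₁ (k, p)) = p - β (b₂ (k, p)) := fun k p => hl₁ (k, p)
  refine ⟨LinearEquiv.ofLinearMap (l₂.prod b₁) (l₁.prod b₂) ?_ ?_⟩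
  · refine LinearMap.ext fun x => ?_
    obtain ⟨k, p⟩ := x
    simp only [LinearMap.comp_apply, LinearMap.prod_apply, LinearMap.id_apply]
    have e2 : b₁ (l₁ (k, p), b₂ (k, p)) = p := by
      rw [hb₁, hl₁']
      abel
    refine Prod.ext ?_ e2
    apply hj₂
    show j₂ (l₂ (l₁ (k, p), b₂ (k, p))) = j₂ k
    rw [hl₂', e2, hb₂]
    abel
  · refine LinearMap.ext fun x => ?_
    obtain ⟨k, p⟩ := x
    simp only [LinearMap.comp_apply, LinearMap.prod_apply, LinearMap.id_apply]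
    have e2 : b₂ (l₂ (k, p), b₁ (k, p)) = p := by
      rw [hb₂, hl₂']
      abel
    refine Prod.ext ?_ e2
    apply hj₁
    show j₁ (l₁ (l₂ (k, p), b₁ (k, p))) = j₁ k
    rw [hl₁', e2, hb₁]
    abel

/-- Projective equivalence: `X ⊕ Q ≅ Y ⊕ Q'` with `Q`, `Q'` finitely generated projective. -/
def PEq (A : Type u) [Ring A] (X Y : Type u) [AddCommGroup X] [Module A X] [AddCommGroup Y]
    [Module A Y] : Prop :=
  ∃ (Q Q' : ModuleCat.{u} A), Module.Projective A Q ∧ Module.Finite A Q ∧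
    Module.Projective A Q' ∧ Module.Finite A Q' ∧ Nonempty ((X × Q) ≃ₗ[A] (Y × Q'))

theorem PEq.of_equiv {X Y : Type u} [AddCommGroup X] [Module A X] [AddCommGroup Y]
    [Module A Y] (t : X ≃ₗ[A] Y) : PEq A X Y :=
  ⟨ModuleCat.of A PUnit.{u + 1}, ModuleCat.of A PUnit.{u + 1},
    (inferInstance : Module.Projective A PUnit.{u + 1}),
    (inferInstance : Module.Finite A PUnit.{u + 1}),
    (inferInstance : Module.Projective A PUnit.{u + 1}),
    (inferInstance : Module.Finite A PUnit.{u + 1}),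
    ⟨t.prodCongr (LinearEquiv.refl A PUnit.{u + 1})⟩⟩

theorem PEq.syz1 {M M' K K' : Type u} [AddCommGroup M] [Module A M] [AddCommGroup M']
    [Module A M'] [AddCommGroup K] [Module A K] [AddCommGroup K'] [Module A K']
    (h : PEq A M M') (hK : Syz1 A M K) (hK' : Syz1 A M' K') : PEq A K K' := by
  obtain ⟨Q, Q', hQ, hQf, hQ', hQ'f, ⟨t⟩⟩ := h
  obtain ⟨P, hP, hPf, j, π, hj, hex, hπ⟩ := hK
  obtain ⟨P', hP', hP'f, j', π', hj', hex', hπ'⟩ := hK'
  have hPQ : Module.Projective A (P × Q) :=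
    PdLT.projective (PdLT.prod PdLT.of_projective PdLT.of_projective)
  have hPQ' : Module.Projective A (P' × Q') :=
    PdLT.projective (PdLT.prod PdLT.of_projective PdLT.of_projective)
  have key := schanuel (M := M × Q) (K₁ := K) (P₁ := P × Q) (K₂ := K') (P₂ := P' × Q')
    (LinearMap.inl A P Q ∘ₗ j) (π.prodMap LinearMap.id)
    (LinearMap.inl_injective.comp hj) (by
      rintro ⟨p, q⟩
      constructor
      · intro h0
        have h1 : π p = 0 := congrArg Prod.fst h0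
        have h2 : q = 0 := congrArg Prod.snd h0
        obtain ⟨k, hk⟩ := (hex p).mp h1
        exact ⟨k, Prod.ext hk h2.symm⟩
      · rintro ⟨k, hk⟩
        have h1 : j k = p := congrArg Prod.fst hk
        have h2 : (0 : Q) = q := congrArg Prod.snd hk
        refine Prod.ext ?_ h2.symm
        show π p = 0
        rw [← h1]
        exact hex.apply_apply_eq_zero k) (by
      rintro ⟨m, q⟩
      obtain ⟨p, hp⟩ := hπ m
      exact ⟨(p, q), Prod.ext hp rfl⟩)
    (LinearMap.inl A P' Q' ∘ₗ j') (t.symm.toLinearMap ∘ₗ π'.prodMap LinearMap.id)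
    (LinearMap.inl_injective.comp hj') (by
      rintro ⟨p, q⟩
      constructor
      · intro h0
        have h0' : (π'.prodMap LinearMap.id) (p, q) = 0 := t.symm.map_eq_zero_iff.mp h0
        have h1 : π' p = 0 := congrArg Prod.fst h0'
        have h2 : q = 0 := congrArg Prod.snd h0'
        obtain ⟨k, hk⟩ := (hex' p).mp h1
        exact ⟨k, Prod.ext hk h2.symm⟩
      · rintro ⟨k, hk⟩
        have h1 : j' k = p := congrArg Prod.fst hk
        have h2 : (0 : Q') = q := congrArg Prod.snd hk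
        show t.symm ((π'.prodMap LinearMap.id) (p, q)) = 0
        rw [t.symm.map_eq_zero_iff]
        refine Prod.ext ?_ h2.symm
        show π' p = 0
        rw [← h1]
        exact hex'.apply_apply_eq_zero k) (by
      intro x
      obtain ⟨p, hp⟩ := hπ' (t x).1
      refine ⟨(p, (t x).2), ?_⟩
      show t.symm ((π'.prodMap LinearMap.id) (p, (t x).2)) = x
      rw [LinearEquiv.symm_apply_eq]
      exact Prod.ext hp rfl)
  obtain ⟨s⟩ := key
  exact ⟨ModuleCat.of A (P' × Q'), ModuleCat.of A (P × Q), hPQ',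
    (inferInstance : Module.Finite A (P' × Q')), hPQ, (inferInstance : Module.Finite A (P × Q)),
    ⟨s⟩⟩

theorem ESyz.peq : ∀ (n : ℕ) {M M' K K' : ModuleCat.{u} A}, PEq A M M' → ESyz A n M K →
    ESyz A n M' K' → PEq A K K'
  | 0, M, M', K, K', h, hK, hK' => by
    obtain ⟨a⟩ := hK
    obtain ⟨b⟩ := hK'
    obtain ⟨Q, Q', hQ, hQf, hQ', hQ'f, ⟨t⟩⟩ := h
    exact ⟨Q, Q', hQ, hQf, hQ', hQ'f,
      ⟨((a.symm.prodCongr (LinearEquiv.refl A Q)).trans t).trans
        (b.prodCongr (LinearEquiv.refl A Q'))⟩⟩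
  | (n + 1), M, M', K, K', h, hK, hK' => by
    obtain ⟨L, hL, hLK⟩ := hK
    obtain ⟨L', hL', hLK'⟩ := hK'
    exact PEq.syz1 (ESyz.peq n h hL hL') hLK hLK'

theorem IsSyzygy.esyz : ∀ (n : ℕ) {M K : ModuleCat.{u} A}, IsSyzygy n M K → ESyz A n M K
  | 0, M, K, h => by
    obtain ⟨φ⟩ := h
    exact ⟨φ.symm.toLinearEquiv⟩
  | (n + 1), M, K, h => by
    obtain ⟨S, hS, ⟨φ⟩, hP, hPf, hsyz⟩ := h
    refine ⟨S.X₃, IsSyzygy.esyz n hsyz, S.X₂, (IsProjective.iff_projective S.X₂).mpr hP, hPf,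
      S.f.hom ∘ₗ φ.symm.toLinearEquiv.toLinearMap, S.g.hom, ?_, ?_, ?_⟩
    · exact hS.moduleCat_injective_f.comp φ.symm.toLinearEquiv.injective
    · have hex : Function.Exact S.f S.g :=
        (ShortComplex.ShortExact.moduleCat_exact_iff_function_exact S).mp hS.exact
      intro y
      rw [hex y]
      constructor
      · rintro ⟨x, rfl⟩
        exact ⟨φ.toLinearEquiv x, by simp⟩
      · rintro ⟨x, rfl⟩
        exact ⟨_, rfl⟩
    · exact hS.moduleCat_surjective_g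

/-- Transport of a short exact sequence `0 → V₁ → V₀ → K → 0` along a projective equivalence
`K' ⊕ Q ≅ K ⊕ Q'`: a short exact sequence `0 → V₁ → E → K' → 0` with `E` a retract of
`V₀ ⊕ Q'`. -/
theorem econstr {V₁ V₀ K K' Q Q' : Type u} [AddCommGroup V₁] [Module A V₁] [AddCommGroup V₀]
    [Module A V₀] [AddCommGroup K] [Module A K] [AddCommGroup K'] [Module A K']
    [AddCommGroup Q] [Module A Q] [AddCommGroup Q'] [Module A Q'] [Module.Projective A Q]
    (f : V₁ →ₗ[A] V₀) (g : V₀ →ₗ[A] K) (hf : Function.Injective f) (hfg : Function.Exact f g)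
    (hg : Function.Surjective g) (t : (K' × Q) ≃ₗ[A] (K × Q')) :
    ∃ (E : ModuleCat.{u} A) (fE : V₁ →ₗ[A] E) (gE : E →ₗ[A] K'),
      Function.Injective fE ∧ Function.Exact fE gE ∧ Function.Surjective gE ∧
      ∃ (i : E →ₗ[A] V₀ × Q') (p : V₀ × Q' →ₗ[A] E), p ∘ₗ i = LinearMap.id := by
  let g₂ : V₀ × Q' →ₗ[A] K' × Q := t.symm.toLinearMap ∘ₗ g.prodMap LinearMap.id
  have hg₂ : Function.Surjective g₂ := by
    intro y
    obtain ⟨v, hv⟩ := hg (t y).1
    refine ⟨(v, (t y).2), ?_⟩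
    show t.symm ((g.prodMap LinearMap.id) (v, (t y).2)) = y
    rw [LinearEquiv.symm_apply_eq]
    exact Prod.ext hv rfl
  have hg₂0 : ∀ w : V₀ × Q', g₂ w = 0 ↔ g w.1 = 0 ∧ w.2 = 0 := by
    intro w
    show t.symm ((g.prodMap LinearMap.id) w) = 0 ↔ _
    rw [t.symm.map_eq_zero_iff]
    constructor
    · intro h
      exact ⟨congrArg Prod.fst h, congrArg Prod.snd h⟩
    · rintro ⟨h1, h2⟩
      exact Prod.ext h1 h2
  let ρ : V₀ × Q' →ₗ[A] Q := LinearMap.snd A K' Q ∘ₗ g₂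
  have hρ : Function.Surjective ρ := by
    intro q
    obtain ⟨w, hw⟩ := hg₂ (0, q)
    refine ⟨w, ?_⟩
    show (g₂ w).2 = q
    rw [hw]
  obtain ⟨s, hs⟩ := Module.projective_lifting_property ρ LinearMap.id hρ
  have hs' : ∀ q, ρ (s q) = q := fun q => LinearMap.congr_fun hs q
  let fE : V₁ →ₗ[A] LinearMap.ker ρ := (LinearMap.inl A V₀ Q' ∘ₗ f).codRestrict _ (fun v => by
    rw [LinearMap.mem_ker]
    have : g₂ (f v, 0) = 0 := (hg₂0 _).mpr ⟨hfg.apply_apply_eq_zero v, rfl⟩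
    show (g₂ (f v, 0)).2 = 0
    rw [this]
    rfl)
  let gE : LinearMap.ker ρ →ₗ[A] K' := LinearMap.fst A K' Q ∘ₗ g₂ ∘ₗ (LinearMap.ker ρ).subtype
  let p : V₀ × Q' →ₗ[A] LinearMap.ker ρ := (LinearMap.id - s ∘ₗ ρ).codRestrict _ (fun w => by
    rw [LinearMap.mem_ker]
    show ρ (w - s (ρ w)) = 0
    rw [map_sub, hs', sub_self])
  refine ⟨ModuleCat.of A (LinearMap.ker ρ), fE, gE, ?_, ?_, ?_, (LinearMap.ker ρ).subtype, p, ?_⟩
  · intro v v' h
    have h1 : (f v, (0 : Q')) = (f v', (0 : Q')) := congrArg Subtype.val h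
    exact hf (congrArg Prod.fst h1)
  · intro w
    constructor
    · intro hw
      have h1 : (g₂ w.1).1 = 0 := hw
      have h2 : (g₂ w.1).2 = 0 := w.2
      have h3 : g₂ w.1 = 0 := Prod.ext h1 h2
      obtain ⟨h4, h5⟩ := (hg₂0 _).mp h3
      obtain ⟨v, hv⟩ := (hfg _).mp h4
      exact ⟨v, Subtype.ext (Prod.ext hv h5.symm)⟩
    · rintro ⟨v, rfl⟩
      have : g₂ (f v, 0) = 0 := (hg₂0 _).mpr ⟨hfg.apply_apply_eq_zero v, rfl⟩
      show (g₂ (f v, 0)).1 = 0
      rw [this]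
      rfl
  · intro k
    obtain ⟨w, hw⟩ := hg₂ (k, 0)
    have hwρ : ρ w = 0 := by
      show (g₂ w).2 = 0
      rw [hw]
    refine ⟨⟨w, hwρ⟩, ?_⟩
    show (g₂ w).1 = k
    rw [hw]
  · refine LinearMap.ext fun w => Subtype.ext ?_
    have hw : ρ w.1 = 0 := w.2
    show w.1 - s (ρ w.1) = w.1
    rw [hw, map_zero, sub_zero]

end schanuel

section retr

/-- `Retr V X`: `X` is a retract of a finite power of `V`. -/
def Retr {R : Type u} [Ring R] (V : Type u) [AddCommGroup V] [Module R V] (X : Type u)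
    [AddCommGroup X] [Module R X] : Prop :=
  ∃ (m : ℕ) (i : X →ₗ[R] (Fin m → V)) (p : (Fin m → V) →ₗ[R] X), p ∘ₗ i = LinearMap.id

variable {R : Type u} [Ring R] {V W X Y Z : Type u} [AddCommGroup V] [Module R V]
  [AddCommGroup W] [Module R W] [AddCommGroup X] [Module R X] [AddCommGroup Y] [Module R Y]
  [AddCommGroup Z] [Module R Z]

theorem Retr.of_retract (i : Z →ₗ[R] X) (p : X →ₗ[R] Z) (hpi : p ∘ₗ i = LinearMap.id)
    (h : Retr (R := R) V X) : Retr (R := R) V Z := by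
  obtain ⟨m, i', p', h'⟩ := h
  refine ⟨m, i' ∘ₗ i, p ∘ₗ p', ?_⟩
  ext z
  have h1 := LinearMap.congr_fun h' (i z)
  have h2 := LinearMap.congr_fun hpi z
  simp only [LinearMap.comp_apply, LinearMap.id_apply] at h1 h2 ⊢
  rw [h1, h2]

theorem Retr.prod (h : Retr (R := R) V X) (h' : Retr (R := R) V Y) :
    Retr (R := R) V (X × Y) := by
  obtain ⟨m, i, p, hpi⟩ := h
  obtain ⟨m', i', p', hpi'⟩ := h'
  let ε : (Fin (m + m') → V) ≃ₗ[R] (Fin m → V) × (Fin m' → V) :=
    (LinearEquiv.funCongrLeft R V finSumFinEquiv).trans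
      (LinearEquiv.sumArrowLequivProdArrow (Fin m) (Fin m') R V)
  refine ⟨m + m', ε.symm.toLinearMap ∘ₗ i.prodMap i', p.prodMap p' ∘ₗ ε.toLinearMap, ?_⟩
  refine LinearMap.ext fun w => ?_
  obtain ⟨x, y⟩ := w
  have h1 := LinearMap.congr_fun hpi x
  have h2 := LinearMap.congr_fun hpi' y
  simp only [LinearMap.comp_apply, LinearEquiv.coe_coe, LinearEquiv.apply_symm_apply,
    LinearMap.prodMap_apply, LinearMap.id_apply] at h1 h2 ⊢
  rw [h1, h2]

theorem Retr.fst_factor (h : Retr (R := R) V X) : Retr (R := R) (V × W) X := by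
  obtain ⟨m, i, p, hpi⟩ := h
  refine ⟨m, (LinearMap.pi fun k => LinearMap.inl R V W ∘ₗ LinearMap.proj k) ∘ₗ i,
    p ∘ₗ (LinearMap.pi fun k => LinearMap.fst R V W ∘ₗ LinearMap.proj k), ?_⟩
  ext x
  have h1 := LinearMap.congr_fun hpi x
  have h2 : ∀ v : Fin m → V, (LinearMap.pi fun k => LinearMap.fst R V W ∘ₗ LinearMap.proj k)
      ((LinearMap.pi fun k => LinearMap.inl R V W ∘ₗ LinearMap.proj k) v) = v := fun v => rfl
  simp only [LinearMap.comp_apply, LinearMap.id_apply] at h1 ⊢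
  rw [h2, h1]

theorem Retr.snd_factor (h : Retr (R := R) W X) : Retr (R := R) (V × W) X := by
  obtain ⟨m, i, p, hpi⟩ := h
  refine ⟨m, (LinearMap.pi fun k => LinearMap.inr R V W ∘ₗ LinearMap.proj k) ∘ₗ i,
    p ∘ₗ (LinearMap.pi fun k => LinearMap.snd R V W ∘ₗ LinearMap.proj k), ?_⟩
  ext x
  have h1 := LinearMap.congr_fun hpi x
  have h2 : ∀ v : Fin m → W, (LinearMap.pi fun k => LinearMap.snd R V W ∘ₗ LinearMap.proj k)
      ((LinearMap.pi fun k => LinearMap.inr R V W ∘ₗ LinearMap.proj k) v) = v := fun v => rfl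
  simp only [LinearMap.comp_apply, LinearMap.id_apply] at h1 ⊢
  rw [h2, h1]

theorem Retr.of_projective (Q : Type u) [AddCommGroup Q] [Module R Q] [Module.Projective R Q]
    [Module.Finite R Q] : Retr (R := R) R Q := by
  obtain ⟨m, f, hf⟩ := Module.Finite.exists_fin' R Q
  obtain ⟨s, hs⟩ := Module.projective_lifting_property f LinearMap.id hf
  exact ⟨m, s, f, hs⟩

theorem Retr.of_inAdd {V X : ModuleCat.{u} R} (h : InAdd V X) : Retr (R := R) V X := by
  obtain ⟨m, Y, ⟨φ⟩⟩ := h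
  refine ⟨m, (biprod.inl ≫ φ.hom).hom, (φ.inv ≫ biprod.fst).hom, ?_⟩
  have h1 : (biprod.inl ≫ φ.hom) ≫ (φ.inv ≫ biprod.fst) = 𝟙 X := by simp
  have h2 := congrArg ModuleCat.Hom.hom h1
  rw [ModuleCat.hom_comp] at h2
  exact h2

end retr

section retrcm
variable {A : Type u} [Ring A] {e : A} (he : IsIdempotentElem e)

theorem Retr.cm {V X : Type u} [AddCommGroup V] [Module A V] [AddCommGroup X] [Module A X]
    (h : Retr (R := A) V X) : Retr (R := he.Corner) (CM he V) (CM he X) := by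
  obtain ⟨m, i, p, hpi⟩ := h
  refine ⟨m, (cmPi he m).toLinearMap ∘ₗ cmMap he i, cmMap he p ∘ₗ (cmPi he m).symm.toLinearMap,
    ?_⟩
  ext x
  simp only [LinearMap.comp_apply, LinearEquiv.coe_coe, LinearEquiv.symm_apply_apply,
    LinearMap.id_apply]
  rw [← LinearMap.comp_apply, ← cmMap_comp, hpi]
  rfl

end retrcm

section core

/-- The Igusa-Todorov bound in retract form: if every finitely generated module `M` of finite
projective dimension has an `n`-th syzygy (up to stable equivalence) which is the cokernel of an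
injection between retracts of finite powers of a fixed finitely generated module `V`, then the
finite projective dimensions of finitely generated modules are bounded. -/
theorem wei_core {R : Type u} [Ring R] [IsArtinianRing R] (n : ℕ) (V : Type u) [AddCommGroup V]
    [Module R V] [Module.Finite R V]
    (h : ∀ M : ModuleCat.{u} R, Module.Finite R M → (∃ d, PdLT R M d) →
      ∃ (X₁ X₂ X₃ : ModuleCat.{u} R) (f : X₁ →ₗ[R] X₂) (g : X₂ →ₗ[R] X₃),
        Function.Injective f ∧ Function.Exact f g ∧ Function.Surjective g ∧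
        Retr (R := R) V X₁ ∧ Retr (R := R) V X₂ ∧ Syz R n M X₃) :
    ∃ N : ℕ, ∀ M : ModuleCat.{u} R, Module.Finite R M → (∃ d, PdLT R M d) →
      PdLT R M (n + N + 1) := by
  classical
  obtain ⟨κV, _, T, hT, hTA, hTN, ⟨eV⟩⟩ := exists_decomp (A := R) V
  have hTf : ∀ k, Module.Finite R (T k) := fun k => by
    have := hTN k
    infer_instance
  have hadd : ∀ (X : Type u) [AddCommGroup X] [Module R X], Retr (R := R) V X →
      InPw T X := by
    intro X _ _ hX
    obtain ⟨m, i, p, hpi⟩ := hX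
    have hin : InPw T (Fin m → V) := InPw.pi fun _ => ⟨κV, inferInstance, id, ⟨eV⟩⟩
    obtain ⟨κ, _, ρ, ⟨e₂⟩⟩ := hin
    have hXf : Module.Finite R X :=
      Module.Finite.of_surjective p (fun x => ⟨i x, LinearMap.congr_fun hpi x⟩)
    exact retract_pw_decomp T hT ρ (e₂.toLinearMap ∘ₗ i) (p ∘ₗ e₂.symm.toLinearMap) (by
      ext x
      have h1 := LinearMap.congr_fun hpi x
      simp only [LinearMap.comp_apply, LinearEquiv.coe_coe, LinearEquiv.symm_apply_apply,
        LinearMap.id_apply] at h1 ⊢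
      exact h1)
  obtain ⟨N, hN⟩ := it_key' T
  refine ⟨N, fun M hM hpd => ?_⟩
  obtain ⟨X₁, X₂, X₃, f, g, hf, hfg, hg, h1, h2, hsyz⟩ := h M hM hpd
  obtain ⟨κ₁, _, σ₁, ⟨e₁⟩⟩ := hadd _ h1
  obtain ⟨κ₂, _, σ₂, ⟨e₂⟩⟩ := hadd _ h2
  obtain ⟨d, hd⟩ := hpd
  have hpd3 : ∃ d, PdLT R X₃ d := ⟨d + 1, (hsyz.pdLT_iff d).mp (hd.mono (by omega))⟩
  have hb := hN κ₁ κ₂ σ₁ σ₂ X₁ X₂ X₃ e₁ e₂ f g hf hfg hg hpd3
  exact (hsyz.pdLT_iff N).mpr hb

end core

section final
variable {A : Type u} [Ring A] {e : A}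

/-- Corner rings of `n`-Igusa-Todorov algebras with `n ≤ 2` have finite finitistic dimension. -/
theorem corner_findim [IsArtinianRing A] (he : IsIdempotentElem e) (n : ℕ) (hn : n ≤ 2)
    (V : ModuleCat.{u} A) (hV : Module.Finite A V)
    (h : ∀ X : ModuleCat.{u} A, Module.Finite A X →
      ∃ S : ShortComplex (ModuleCat.{u} A), S.ShortExact ∧ InAdd V S.X₁ ∧ InAdd V S.X₂ ∧
        IsSyzygy n X S.X₃) :
    ∃ d : ℕ, ∀ M : ModuleCat.{u} he.Corner, Module.Finite he.Corner M →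
      projectiveDimension M ≠ ⊤ → projectiveDimension M ≤ d := by
  have := corner_isArtinianRing he
  have hVB : Module.Finite he.Corner (CM he (V × A)) := by
    have := cm_isNoetherian he (V × A)
    infer_instance
  obtain ⟨N, hN⟩ := wei_core (R := he.Corner) n (CM he (V × A)) (fun M hM hpd => by
    obtain ⟨X, hXf, hX⟩ := corner_lift he M
    obtain ⟨Kn, hKn, hKnB⟩ := hX n hn
    obtain ⟨S, hS, hS1, hS2, hsyz⟩ := h X hXf
    have hpe : PEq A Kn S.X₃ :=
      ESyz.peq n (PEq.of_equiv (LinearEquiv.refl A X)) hKn (IsSyzygy.esyz n hsyz)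
    obtain ⟨Q, Q', hQ, hQf, hQ', hQ'f, ⟨t⟩⟩ := hpe
    have hex : Function.Exact S.f S.g :=
      (ShortComplex.ShortExact.moduleCat_exact_iff_function_exact S).mp hS.exact
    obtain ⟨E, fE, gE, hfE, hfgE, hgE, i, p, hpi⟩ :=
      econstr S.f.hom S.g.hom hS.moduleCat_injective_f hex hS.moduleCat_surjective_g t
    have hR1 : Retr (R := A) (V × A) S.X₁ := (Retr.of_inAdd hS1).fst_factor
    have hR2 : Retr (R := A) (V × A) E :=
      Retr.of_retract i p hpi
        (Retr.prod (Retr.of_inAdd hS2).fst_factor (Retr.of_projective (R := A) Q').snd_factor)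
    exact ⟨ModuleCat.of he.Corner (CM he S.X₁), ModuleCat.of he.Corner (CM he E),
      ModuleCat.of he.Corner (CM he Kn), cmMap he fE, cmMap he gE, cmMap_injective he hfE,
      cmMap_exact he hfgE, cmMap_surjective he hgE, Retr.cm he hR1, Retr.cm he hR2, hKnB⟩)
  refine ⟨n + N, fun M hM hpd => pd_le_of_pdLT M (n + N) ?_⟩
  exact hN M hM (finite_pd_of_ne_top M hpd)

end final

end Vale.Agent.H47.Findim
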