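import Mathlib

/-!
# Definitions used in the statements on the finitistic dimension

* `IsSyzygy n M K`: `K` is an `n`-th syzygy of `M` with respect to a resolution by finitely
  generated projective modules.
* `InAdd V X`: `X` is a direct summand of a finite direct sum of copies of `V`.
-/

universe u

namespace Vale.Agent.H47.Findim

open CategoryTheory Limits

/-- `IsSyzygy n M K`: there is an exact sequence `0 → K → P_{n-1} → ⋯ → P_0 → M → 0` in which all
`P_i` are finitely generated projective modules. For `n = 0` this says `K ≅ M`; for `n + 1` it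
says that `K` is isomorphic to the kernel of an epimorphism from a finitely generated projective
module onto an `n`-th syzygy of `M`. -/
def IsSyzygy {A : Type u} [Ring A] : ℕ → ModuleCat.{u} A → ModuleCat.{u} A → Prop
  | 0, M, K => Nonempty (K ≅ M)
  | (n + 1), M, K => ∃ S : ShortComplex (ModuleCat.{u} A), S.ShortExact ∧ Nonempty (S.X₁ ≅ K) ∧
      Projective S.X₂ ∧ Module.Finite A S.X₂ ∧ IsSyzygy n M S.X₃

/-- `InAdd V X`: the module `X` is a direct summand of the direct sum `V^m` of finitely many
copies of `V`, for some `m`; that is, `X` lies in `add V`. -/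
def InAdd {A : Type u} [Ring A] (V X : ModuleCat.{u} A) : Prop :=
  ∃ (m : ℕ) (Y : ModuleCat.{u} A), Nonempty (X ⊞ Y ≅ ModuleCat.of A (Fin m → V))

end Vale.Agent.H47.Findim
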