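import Mathlib

open CategoryTheory Abelian

universe w v u

namespace Vale.Agent.H47.Findim

variable {C : Type u} [Category.{v} C] [Abelian C]

/-- `FP φ`: the morphism `φ` factors through a projective object. -/
def FP {X Y : C} (φ : X ⟶ Y) : Prop :=
  ∃ (P : C) (_ : Projective P) (a : X ⟶ P) (b : P ⟶ Y), φ = a ≫ b

/-- Iterated composition of an endomorphism. -/
def iter {X : C} (γ : X ⟶ X) : ℕ → (X ⟶ X)
  | 0 => 𝟙 X
  | (m + 1) => γ ≫ iter γ m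

section
variable [HasExt.{w} C]

theorem comp_eq_zero_of_FP {X Y N : C} {φ : X ⟶ Y} (h : FP φ) {i : ℕ}
    (x : Ext Y N (i + 1)) : (Ext.mk₀ φ).comp x (zero_add _) = 0 := by
  obtain ⟨P, hP, a, b, rfl⟩ := h
  rw [← Ext.mk₀_comp_mk₀_assoc]
  have : (Ext.mk₀ b).comp x (zero_add _) = 0 := Ext.eq_zero_of_projective _
  rw [this, Ext.comp_zero]

/-- If `1 - u` factors through a projective then `u` acts as the identity on positive `Ext`. -/
theorem comp_eq_self_of_FP {X N : C} {u : X ⟶ X} (h : FP (𝟙 X - u)) {i : ℕ}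
    (x : Ext X N (i + 1)) : (Ext.mk₀ u).comp x (zero_add _) = x := by
  have h0 := comp_eq_zero_of_FP h x
  have h1 : Ext.mk₀ (𝟙 X - u) = Ext.mk₀ (𝟙 X) - Ext.mk₀ u := by
    rw [sub_eq_add_neg, Ext.mk₀_add, Ext.mk₀_neg, ← sub_eq_add_neg]
  rw [h1, sub_eq_add_neg, Ext.add_comp, Ext.neg_comp, Ext.mk₀_id_comp] at h0
  exact (eq_of_sub_eq_zero (by rw [sub_eq_add_neg]; exact h0)).symm

theorem iter_inj {X N : C} (γ : X ⟶ X) {i : ℕ}
    (hγ : ∀ x : Ext X N i, (Ext.mk₀ γ).comp x (zero_add _) = 0 → x = 0) (m : ℕ) :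
    ∀ x : Ext X N i, (Ext.mk₀ (iter γ m)).comp x (zero_add _) = 0 → x = 0 := by
  induction m with
  | zero => intro x hx; simpa [iter] using hx
  | succ m ih =>
    intro x hx
    apply ih
    apply hγ
    rw [Ext.mk₀_comp_mk₀_assoc]
    exact hx

end

theorem ext_core {S : ShortComplex C} (hS : S.ShortExact)
    (s : S.X₂ ⟶ S.X₁) (t : S.X₁ ⟶ S.X₂)
    (hts : FP (𝟙 S.X₁ - t ≫ s)) (hst : FP (𝟙 S.X₂ - s ≫ t))
    {Z : C} (ιZ : Z ⟶ S.X₁) (pZ : S.X₁ ⟶ Z) (hZ : ιZ ≫ pZ = 𝟙 Z)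
    (m : ℕ) (hm : iter (S.f ≫ s) m ≫ pZ = 0)
    (h : S.X₁ ⟶ S.X₁) (h1 : (S.f ≫ s) ≫ h = 𝟙 _ - pZ ≫ ιZ)
    (h2 : h ≫ (S.f ≫ s) = 𝟙 _ - pZ ≫ ιZ)
    (d : ℕ) (hd : HasProjectiveDimensionLT S.X₃ d) :
    HasProjectiveDimensionLT Z (max d 1) ∧
      ∀ j, 1 ≤ j → HasProjectiveDimensionLT Z j → HasProjectiveDimensionLT S.X₃ (j + 1) := by
  let _ := HasExt.standard C
  constructor
  · rw [hasProjectiveDimensionLT_iff]
    intro i hi N z
    obtain ⟨i, rfl⟩ : ∃ i', i = i' + 1 := ⟨i - 1, by omega⟩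
    have hinj : ∀ x : Ext.{max u v} S.X₁ N (i + 1),
        (Ext.mk₀ (S.f ≫ s)).comp x (zero_add _) = 0 → x = 0 := by
      intro x hx
      rw [← Ext.mk₀_comp_mk₀_assoc] at hx
      obtain ⟨x₃, hx₃⟩ := Ext.contravariant_sequence_exact₂ hS N _ hx
      have hx₃0 : x₃ = 0 := x₃.eq_zero_of_hasProjectiveDimensionLT d (by omega)
      rw [hx₃0, Ext.comp_zero] at hx₃
      have := comp_eq_self_of_FP hts x
      rw [← Ext.mk₀_comp_mk₀_assoc, ← hx₃, Ext.comp_zero] at this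
      exact this.symm
    have hz := iter_inj _ hinj m ((Ext.mk₀ pZ).comp z (zero_add _)) (by
      rw [Ext.mk₀_comp_mk₀_assoc, hm, Ext.mk₀_zero, Ext.zero_comp])
    have := Ext.mk₀_id_comp z
    rw [← hZ, ← Ext.mk₀_comp_mk₀_assoc, hz, Ext.comp_zero] at this
    exact this.symm
  · intro j hj hZj
    rw [hasProjectiveDimensionLT_iff]
    intro i hi N δ
    obtain ⟨i, rfl⟩ : ∃ i', i = i' + 1 := ⟨i - 1, by omega⟩
    have hi' : j ≤ i := by omega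
    -- facts in degree `k + 1 ≥ j`
    have key : ∀ k, j ≤ k + 1 → ∀ x : Ext.{max u v} S.X₁ N (k + 1),
        (Ext.mk₀ ((S.f ≫ s) ≫ h)).comp x (zero_add _) = x ∧
        (Ext.mk₀ (h ≫ (S.f ≫ s))).comp x (zero_add _) = x := by
      intro k hk x
      have hzero : (Ext.mk₀ (pZ ≫ ιZ)).comp x (zero_add _) = 0 := by
        rw [← Ext.mk₀_comp_mk₀_assoc]
        have : (Ext.mk₀ ιZ).comp x (zero_add _) = 0 :=
          Ext.eq_zero_of_hasProjectiveDimensionLT _ j hk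
        rw [this, Ext.comp_zero]
      have e : Ext.mk₀ (𝟙 S.X₁ - pZ ≫ ιZ) = Ext.mk₀ (𝟙 S.X₁) - Ext.mk₀ (pZ ≫ ιZ) := by
        rw [sub_eq_add_neg, Ext.mk₀_add, Ext.mk₀_neg, ← sub_eq_add_neg]
      rw [h1, h2, e, sub_eq_add_neg, Ext.add_comp, Ext.neg_comp, hzero, Ext.mk₀_id_comp]
      simp
    have finj : ∀ k, j ≤ k + 1 → ∀ y : Ext.{max u v} S.X₂ N (k + 1),
        (Ext.mk₀ S.f).comp y (zero_add _) = 0 → y = 0 := by
      intro k hk y hy
      have hy' := comp_eq_self_of_FP hst y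
      have hx' : (Ext.mk₀ t).comp y (zero_add _) = 0 := by
        have h3 := (key k hk ((Ext.mk₀ t).comp y (zero_add _))).2
        rw [← h3, ← Ext.mk₀_comp_mk₀_assoc, ← Ext.mk₀_comp_mk₀_assoc, Ext.mk₀_comp_mk₀_assoc s t,
          hy', hy, Ext.comp_zero]
      rw [← Ext.mk₀_comp_mk₀_assoc, hx', Ext.comp_zero] at hy'
      exact hy'.symm
    have fsurj : ∀ k, j ≤ k + 1 → ∀ x : Ext.{max u v} S.X₁ N (k + 1),
        ∃ y : Ext.{max u v} S.X₂ N (k + 1), (Ext.mk₀ S.f).comp y (zero_add _) = x := by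
      intro k hk x
      refine ⟨(Ext.mk₀ s).comp ((Ext.mk₀ h).comp x (zero_add _)) (zero_add _), ?_⟩
      have h3 := (key k hk x).1
      rw [← Ext.mk₀_comp_mk₀_assoc, ← Ext.mk₀_comp_mk₀_assoc] at h3
      exact h3
    have hy : (Ext.mk₀ S.g).comp δ (zero_add _) = 0 := by
      apply finj i (by omega)
      rw [Ext.mk₀_comp_mk₀_assoc, S.zero, Ext.mk₀_zero, Ext.zero_comp]
    obtain ⟨x₁, hx₁⟩ := Ext.contravariant_sequence_exact₃ hS N δ hy (n₀ := i) (by omega)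
    obtain ⟨i, rfl⟩ : ∃ i', i = i' + 1 := ⟨i - 1, by omega⟩
    obtain ⟨y, rfl⟩ := fsurj i (by omega) x₁
    rw [← hx₁]
    exact hS.extClass_comp_assoc y

end Vale.Agent.H47.Findim
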