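import Vale.Agent.H47.Findim.Fitting

/-!
# Minimal projective presentations over left artinian rings

Every finitely generated module `M` over a left artinian ring `A` is the image of a finitely
generated projective module `P` under a map whose kernel lies in `rad(A) • P`.
-/

universe u

namespace Vale.Agent.H47.Findim

variable {A : Type u} [Ring A]

theorem smul_top_map_mem (I : Ideal A) {P Q : Type u} [AddCommGroup P] [Module A P]
    [AddCommGroup Q] [Module A Q] (h : P →ₗ[A] Q) {x : P}
    (hx : x ∈ (I • ⊤ : Submodule A P)) : h x ∈ (I • ⊤ : Submodule A Q) := by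
  refine Submodule.smul_induction_on hx (fun r hr n _ => ?_) (fun x y hx hy => ?_)
  · rw [map_smul]
    exact Submodule.smul_mem_smul hr trivial
  · rw [map_add]
    exact add_mem hx hy

theorem semisimple_quot_jacobson [IsArtinianRing A] (P : Type u) [AddCommGroup P] [Module A P] :
    IsSemisimpleModule A (P ⧸ (Ring.jacobson A • ⊤ : Submodule A P)) := by
  have h : Module.IsTorsionBySet A (P ⧸ (Ring.jacobson A • ⊤ : Submodule A P))
      (Ring.jacobson A) := Module.isTorsionBySet_quotient_ideal_smul P (Ring.jacobson A)
  let _ := h.module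
  exact (h.semilinearMap.isSemisimpleModule_iff_of_bijective Function.bijective_id).2
    inferInstance

theorem leftInverse_of_minimal [IsArtinianRing A] {M : Type u} [AddCommGroup M] [Module A M]
    (P : ModuleCat.{u} A) [Module.Projective A P] [Module.Finite A P] (π : P →ₗ[A] M)
    (hπ : Function.Surjective π)
    (hmin : ∀ (Q : ModuleCat.{u} A) (πQ : Q →ₗ[A] M), Module.Projective A Q → Module.Finite A Q →
      Function.Surjective πQ → (Module.length A P).toNat ≤ (Module.length A Q).toNat)
    (θ : Module.End A P) (hθ : π ∘ₗ θ = π) : ∃ h : Module.End A P, h * θ = 1 := by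
  obtain ⟨m, e, h, he, hem, h1, h2⟩ := fitting_data θ
  have hc : IsCompl (LinearMap.range e) (LinearMap.ker e) :=
    LinearMap.IsIdempotentElem.isCompl (f := e) he
  have he' : ∀ x, e (e x) = e x := fun x => LinearMap.congr_fun he x
  -- `ker e` is a projective module mapping onto `M`
  have hproj : Module.Projective A (LinearMap.ker e) :=
    Module.Projective.of_split (LinearMap.ker e).subtype
      ((LinearMap.id - e).codRestrict (LinearMap.ker e) (fun x => by
        rw [LinearMap.mem_ker, LinearMap.sub_apply, LinearMap.id_apply, map_sub, he', sub_self]))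
      (by
        ext ⟨x, hx⟩
        rw [LinearMap.mem_ker] at hx
        simp [hx])
  have hθm : ∀ k : ℕ, ∀ p, π ((θ ^ k) p) = π p := by
    intro k
    induction k with
    | zero => intro p; simp
    | succ k ih =>
      intro p
      rw [pow_succ, Module.End.mul_apply, ih]
      exact LinearMap.congr_fun hθ p
  have hsurj : Function.Surjective (π ∘ₗ (LinearMap.ker e).subtype) := by
    intro y
    obtain ⟨p, rfl⟩ := hπ y
    refine ⟨⟨(θ ^ m) p, ?_⟩, ?_⟩
    · rw [LinearMap.mem_ker]
      exact LinearMap.congr_fun hem p
    · exact hθm m p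
  have hle := hmin (ModuleCat.of A (LinearMap.ker e)) (π ∘ₗ (LinearMap.ker e).subtype) hproj
    (inferInstance : Module.Finite A (LinearMap.ker e)) hsurj
  have hlen : Module.length A P = Module.length A (LinearMap.range e) +
      Module.length A (LinearMap.ker e) := by
    rw [← Module.length_prod, (Submodule.prodEquivOfIsCompl _ _ hc).length_eq]
  have hfp : Module.length A (LinearMap.range e) ≠ ⊤ := Module.length_ne_top
  have hfq : Module.length A (LinearMap.ker e) ≠ ⊤ := Module.length_ne_top
  have hz : (Module.length A (LinearMap.range e)).toNat = 0 := by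
    have : (Module.length A P).toNat = (Module.length A (LinearMap.range e)).toNat +
        (Module.length A (LinearMap.ker e)).toNat := by
      rw [hlen, ENat.toNat_add hfp hfq]
    have hle' : (Module.length A P).toNat ≤ (Module.length A (LinearMap.ker e)).toNat := hle
    omega
  have hz' : Module.length A (LinearMap.range e) = 0 := by
    rcases ENat.toNat_eq_zero.mp hz with h | h
    · exact h
    · exact absurd h hfp
  have hsub : Subsingleton (LinearMap.range e) := Module.length_eq_zero_iff.mp hz'
  have he0 : e = 0 := by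
    ext x
    have : (⟨e x, x, rfl⟩ : LinearMap.range e) = 0 := Subsingleton.elim _ _
    exact congrArg Subtype.val this
  refine ⟨h, ?_⟩
  rw [h2, he0, sub_zero]

/-- Minimal projective presentations: the kernel lies in the radical of the projective. -/
theorem exists_min_pres [IsArtinianRing A] (M : Type u) [AddCommGroup M] [Module A M]
    [Module.Finite A M] :
    ∃ (P : ModuleCat.{u} A) (π : P →ₗ[A] M), Module.Projective A P ∧ Module.Finite A P ∧
      Function.Surjective π ∧ LinearMap.ker π ≤ (Ring.jacobson A • ⊤ : Submodule A P) := by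
  classical
  have hS : ∃ n : ℕ, ∃ (P : ModuleCat.{u} A) (π : P →ₗ[A] M), Module.Projective A P ∧
      Module.Finite A P ∧ Function.Surjective π ∧ (Module.length A P).toNat = n := by
    obtain ⟨n, f, hf⟩ := Module.Finite.exists_fin' A M
    exact ⟨_, ModuleCat.of A (Fin n → A), f, (inferInstance : Module.Projective A (Fin n → A)),
      (inferInstance : Module.Finite A (Fin n → A)), hf, rfl⟩
  obtain ⟨P, π, hP, hPf, hπ, hlen⟩ := Nat.find_spec hS
  have hmin : ∀ (Q : ModuleCat.{u} A) (πQ : Q →ₗ[A] M), Module.Projective A Q →
      Module.Finite A Q → Function.Surjective πQ →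
      (Module.length A P).toNat ≤ (Module.length A Q).toNat := by
    intro Q πQ hQ hQf hπQ
    rw [hlen]
    exact Nat.find_min' hS ⟨Q, πQ, hQ, hQf, hπQ, rfl⟩
  refine ⟨P, π, hP, hPf, hπ, ?_⟩
  intro x hx
  rw [LinearMap.mem_ker] at hx
  have hss := semisimple_quot_jacobson (A := A) P
  set JP : Submodule A P := Ring.jacobson A • ⊤ with hJP
  let q : P →ₗ[A] P ⧸ JP := JP.mkQ
  obtain ⟨Cb, hC⟩ := exists_isCompl ((LinearMap.ker π).map q)
  let ρ : (P ⧸ JP) →ₗ[A] (LinearMap.ker π).map q := Submodule.projectionOnto _ _ hC
  let qK : LinearMap.ker π →ₗ[A] (LinearMap.ker π).map q := q.submoduleMap (LinearMap.ker π)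
  have hqK : Function.Surjective qK := q.submoduleMap_surjective (LinearMap.ker π)
  obtain ⟨φ, hφ⟩ := Module.projective_lifting_property qK (ρ ∘ₗ q) hqK
  let θ : Module.End A P := LinearMap.id - (LinearMap.ker π).subtype ∘ₗ φ
  have hθ : π ∘ₗ θ = π := by
    ext p
    have : π (φ p : P) = 0 := (φ p).2
    simp [θ, this]
  obtain ⟨h, hh⟩ := leftInverse_of_minimal P π hπ hmin θ hθ
  -- `θ x` lies in `JP`
  have h1 : q (φ x : P) = q x := by
    have e1 := LinearMap.congr_fun hφ x
    have e2 : ((qK (φ x) : (LinearMap.ker π).map q) : P ⧸ JP) = q (φ x : P) := rfl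
    have e3 : ((ρ (q x) : (LinearMap.ker π).map q) : P ⧸ JP) = q x := by
      have hm : q x ∈ (LinearMap.ker π).map q := ⟨x, hx, rfl⟩
      have := Submodule.projectionOnto_apply_left hC ⟨q x, hm⟩
      exact congrArg Subtype.val this
    rw [← e2, ← e3]
    exact congrArg Subtype.val e1
  have h2 : θ x ∈ JP := by
    rw [← Submodule.Quotient.mk_eq_zero JP]
    show q (x - (φ x : P)) = 0
    rw [map_sub, h1, sub_self]
  have h3 : h (θ x) = x := by
    have := LinearMap.congr_fun hh x
    exact this
  rw [← h3]
  exact smul_top_map_mem (Ring.jacobson A) h h2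

end Vale.Agent.H47.Findim
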