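import Vale.Agent.H47.Findim.Stabil

/-!
# Representation-finite quotients

If `A ⧸ I` has only finitely many isomorphism classes of finitely generated indecomposable
modules, then the finitely generated `A`-modules killed by `I` are finite products of members of a
finite family of finitely generated `A`-modules.
-/

universe u

namespace Vale.Agent.H47.Findim

open CategoryTheory Limits

variable {A : Type u} [Ring A]

theorem indecomposable_of_indec {B : Type u} [Ring B] (T : Type u) [AddCommGroup T] [Module B T]
    (h : Indec B T) : CategoryTheory.Indecomposable (ModuleCat.of B T) := by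
  constructor
  · intro hz
    have hs : Subsingleton T := ModuleCat.isZero_iff_subsingleton.mp hz
    have := h.1
    exact not_subsingleton T hs
  · intro Y Z φ
    let e : ModuleCat.of B T ⟶ ModuleCat.of B T := φ.hom ≫ biprod.fst ≫ biprod.inl ≫ φ.inv
    have hee : e ≫ e = e := by simp [e]
    have hmul : e.hom * e.hom = e.hom := by
      have := congrArg ModuleCat.Hom.hom hee
      rw [ModuleCat.hom_comp] at this
      exact this
    rcases h.2 e.hom hmul with h0 | h1
    · left
      have he0 : e = 0 := ModuleCat.hom_ext h0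
      rw [IsZero.iff_id_eq_zero]
      have : 𝟙 Y = biprod.inl ≫ φ.inv ≫ e ≫ φ.hom ≫ biprod.fst := by simp [e]
      rw [this, he0]
      simp
    · right
      have he1 : e = 𝟙 _ := ModuleCat.hom_ext h1
      rw [IsZero.iff_id_eq_zero]
      have : (0 : Z ⟶ Z) = biprod.inr ≫ φ.inv ≫ e ≫ φ.hom ≫ biprod.snd := by simp [e]
      have h2 : 𝟙 Z = biprod.inr ≫ φ.inv ≫ 𝟙 _ ≫ φ.hom ≫ biprod.snd := by simp
      rw [h2, ← he1, ← this]

open Classical in
/-- The module itself if finitely generated, the zero module otherwise. -/
noncomputable def finOr (M : ModuleCat.{u} A) : ModuleCat.{u} A :=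
  if Module.Finite A M then M else ModuleCat.of A PUnit

theorem finOr_eq (M : ModuleCat.{u} A) (h : Module.Finite A M) : finOr M = M := by
  unfold finOr
  rw [if_pos h]

theorem finOr_finite (M : ModuleCat.{u} A) : Module.Finite A (finOr M) := by
  by_cases h : Module.Finite A M
  · rw [finOr_eq M h]; exact h
  · unfold finOr
    rw [if_neg h]
    show Module.Finite A PUnit.{u + 1}
    infer_instance

theorem repfin_family [IsArtinianRing A] (I : Ideal A) [I.IsTwoSided]
    (hI : ∃ (n : ℕ) (V : Fin n → ModuleCat.{u} (A ⧸ I)), ∀ M : ModuleCat.{u} (A ⧸ I),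
      Module.Finite (A ⧸ I) M → CategoryTheory.Indecomposable M → ∃ i, Nonempty (M ≅ V i)) :
    ∃ (n : ℕ) (V : Fin n → ModuleCat.{u} A), (∀ i, Module.Finite A (V i)) ∧
      ∀ (X : Type u) [AddCommGroup X] [Module A X] [Module.Finite A X],
        (∀ a ∈ I, ∀ x : X, a • x = 0) →
        ∃ (κ : Type) (_ : Fintype κ) (σ : κ → Fin n), Nonempty (X ≃ₗ[A] Pw V σ) := by
  classical
  obtain ⟨n, V, hV⟩ := hI
  refine ⟨n, fun i => finOr ((ModuleCat.restrictScalars (Ideal.Quotient.mk I)).obj (V i)),
    fun i => finOr_finite _, ?_⟩
  intro X _ _ _ hX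
  obtain ⟨κ, _, T, hT, hTA, hTN, ⟨e⟩⟩ := exists_decomp (A := A) X
  have hTI : ∀ k, ∀ a ∈ I, ∀ t : T k, a • t = 0 := by
    intro k a ha t
    have h1 : a • e.symm (Pi.single k t) = 0 := hX a ha _
    have h2 := congrArg e h1
    rw [map_smul, LinearEquiv.apply_symm_apply, map_zero] at h2
    have h3 := congrFun h2 k
    simpa using h3
  have key : ∀ k, ∃ i, Nonempty (T k ≃ₗ[A]
      finOr ((ModuleCat.restrictScalars (Ideal.Quotient.mk I)).obj (V i))) := by
    intro k
    have htors : Module.IsTorsionBySet A (T k) (I : Set A) := fun t a => hTI k a.1 a.2 t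
    let _ : Module (A ⧸ I) (T k) := htors.module
    have hsmul : ∀ (a : A) (t : T k), (Ideal.Quotient.mk I a) • t = a • t := fun a t => rfl
    have hfinA : Module.Finite A (T k) := by
      have := hTN k
      infer_instance
    have hfin : Module.Finite (A ⧸ I) (T k) := by
      obtain ⟨s, hs⟩ := hfinA.fg_top
      refine ⟨s, ?_⟩
      rw [eq_top_iff]
      intro t _
      have ht : t ∈ Submodule.span A (s : Set (T k)) := hs ▸ Submodule.mem_top
      refine Submodule.span_induction (p := fun t _ => t ∈ Submodule.span (A ⧸ I) (s : Set (T k)))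
        (fun x hx => Submodule.subset_span hx) (Submodule.zero_mem _)
        (fun x y _ _ hx hy => Submodule.add_mem _ hx hy)
        (fun a x _ hx => ?_) ht
      rw [← hsmul]
      exact Submodule.smul_mem _ _ hx
    have hind : Indec (A ⧸ I) (T k) := by
      refine ⟨(hT k).1, fun ε hε => ?_⟩
      let ε' : Module.End A (T k) :=
        { toFun := ε
          map_add' := ε.map_add
          map_smul' := fun a t => by
            rw [← hsmul, map_smul, hsmul]
            rfl }
      have hε' : ε' * ε' = ε' := by
        ext t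
        exact LinearMap.congr_fun hε t
      rcases (hT k).2 ε' hε' with h | h
      · left
        ext t
        exact LinearMap.congr_fun h t
      · right
        ext t
        exact LinearMap.congr_fun h t
    obtain ⟨i, ⟨φ⟩⟩ := hV (ModuleCat.of (A ⧸ I) (T k)) hfin (indecomposable_of_indec _ hind)
    let ψ : T k ≃ₗ[A ⧸ I] V i := φ.toLinearEquiv
    let ψ' : T k ≃ₗ[A] (ModuleCat.restrictScalars (Ideal.Quotient.mk I)).obj (V i) :=
      { toFun := ψ
        invFun := ψ.symm
        map_add' := ψ.map_add
        map_smul' := fun a t => by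
          show ψ (a • t) = Ideal.Quotient.mk I a • ψ t
          rw [← hsmul, map_smul]
        left_inv := ψ.left_inv
        right_inv := ψ.right_inv }
    have hfin' : Module.Finite A ((ModuleCat.restrictScalars (Ideal.Quotient.mk I)).obj (V i)) :=
      Module.Finite.equiv ψ'
    refine ⟨i, ⟨?_⟩⟩
    rw [finOr_eq _ hfin']
    exact ψ'
  choose σ hσ using key
  exact ⟨κ, inferInstance, σ, ⟨e.trans (LinearEquiv.piCongrRight fun k => (hσ k).some)⟩⟩

end Vale.Agent.H47.Findim
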