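import Vale.Agent.H47.Findim.ITKey
import Vale.Agent.H47.Findim.MinPres
import Vale.Agent.H47.Findim.RepFin

/-!
# Extensions of two finite families, and Xi's theorem on the finitistic dimension
-/

universe u

namespace Vale.Agent.H47.Findim

open CategoryTheory

variable {A : Type u} [Ring A] [IsArtinianRing A]

/-- Modules of finite projective dimension which are extensions of a finite product of members
of a finite family `V₂` by a finite product of members of a finite family `V₁` have bounded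
projective dimension. -/
theorem ext_bound {ι₁ ι₂ : Type} [Fintype ι₁] [Fintype ι₂] (V₁ : ι₁ → ModuleCat.{u} A)
    (V₂ : ι₂ → ModuleCat.{u} A) (hV₁ : ∀ i, Module.Finite A (V₁ i))
    (hV₂ : ∀ i, Module.Finite A (V₂ i)) :
    ∃ N : ℕ, ∀ (K : Type u) [AddCommGroup K] [Module A K] (K₁ : Submodule A K)
      (κ₁ κ₂ : Type) [Fintype κ₁] [Fintype κ₂] (σ₁ : κ₁ → ι₁) (σ₂ : κ₂ → ι₂),
      (K₁ ≃ₗ[A] Pw V₁ σ₁) → ((K ⧸ K₁) ≃ₗ[A] Pw V₂ σ₂) → (∃ d, PdLT A K d) →
      PdLT A K (N + 1) := by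
  classical
  have hsyz : ∀ j, ∃ Ω : ModuleCat.{u} A, Module.Finite A Ω ∧ Syz1 A (V₂ j) Ω := fun j => by
    have := hV₂ j
    exact exists_syz1 (A := A) (V₂ j)
  choose Ω hΩf hΩ using hsyz
  choose P hP hPf jj π hjj hex hπ using hΩ
  let 𝒱 : (ι₂ ⊕ ι₁) ⊕ ι₂ → ModuleCat.{u} A := Sum.elim (Sum.elim Ω V₁) P
  have inst : ∀ x, Module.Finite A (𝒱 x) := by
    rintro ((j | i) | j)
    · exact hΩf j
    · exact hV₁ i
    · exact hPf j
  obtain ⟨N, hN⟩ := it_key' 𝒱
  refine ⟨N, ?_⟩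
  intro K _ _ K₁ κ₁ κ₂ _ _ σ₁ σ₂ e₁ e₂ hpd
  -- the projective presentation of the quotient
  have hPproj : Module.Projective A (Pw P σ₂) :=
    PdLT.projective (PdLT.pi fun k => by
      have := hP (σ₂ k)
      exact PdLT.of_projective)
  let π₀ : Pw P σ₂ →ₗ[A] Pw V₂ σ₂ := LinearMap.pi fun k => π (σ₂ k) ∘ₗ LinearMap.proj k
  let j' : Pw Ω σ₂ →ₗ[A] Pw P σ₂ := LinearMap.pi fun k => jj (σ₂ k) ∘ₗ LinearMap.proj k
  have hj' : Function.Injective j' := by
    intro x y hxy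
    funext k
    exact hjj (σ₂ k) (congrFun hxy k)
  have hπ₀ : Function.Surjective π₀ := by
    intro y
    choose x hx using fun k => hπ (σ₂ k) (y k)
    exact ⟨x, funext hx⟩
  have hex₀ : ∀ p : Pw P σ₂, π₀ p = 0 ↔ ∃ ω, j' ω = p := by
    intro p
    constructor
    · intro hp
      have : ∀ k, ∃ x, jj (σ₂ k) x = p k := fun k => (hex (σ₂ k) (p k)).mp (congrFun hp k)
      choose x hx using this
      exact ⟨x, funext hx⟩
    · rintro ⟨ω, rfl⟩
      funext k
      exact (hex (σ₂ k) _).mpr ⟨ω k, rfl⟩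
  obtain ⟨lam, hlam⟩ := Module.projective_lifting_property K₁.mkQ
    (e₂.symm.toLinearMap ∘ₗ π₀) (Submodule.mkQ_surjective K₁)
  have hlam' : ∀ p, K₁.mkQ (lam p) = e₂.symm (π₀ p) := fun p => LinearMap.congr_fun hlam p
  have hmem : ∀ ω, lam (j' ω) ∈ K₁ := by
    intro ω
    rw [← Submodule.Quotient.mk_eq_zero K₁]
    show K₁.mkQ (lam (j' ω)) = 0
    rw [hlam', (hex₀ _).mpr ⟨ω, rfl⟩, map_zero]
  let G : K₁ × Pw P σ₂ →ₗ[A] K := K₁.subtype.coprod lam
  let F : Pw Ω σ₂ →ₗ[A] K₁ × Pw P σ₂ :=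
    LinearMap.prod (-((lam ∘ₗ j').codRestrict K₁ hmem)) j'
  have hG : ∀ (x : K₁) (p : Pw P σ₂), G (x, p) = (x : K) + lam p := fun x p => by simp [G]
  have hF1 : ∀ ω, ((F ω).1 : K) = -lam (j' ω) := fun ω => rfl
  have hF2 : ∀ ω, (F ω).2 = j' ω := fun ω => rfl
  have hFinj : Function.Injective F := by
    intro x y hxy
    apply hj'
    rw [← hF2, ← hF2, hxy]
  have hGsurj : Function.Surjective G := by
    intro k
    obtain ⟨p, hp⟩ := hπ₀ (e₂ (K₁.mkQ k))
    have hk : k - lam p ∈ K₁ := by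
      rw [← Submodule.Quotient.mk_eq_zero K₁]
      show K₁.mkQ (k - lam p) = 0
      rw [map_sub, hlam', hp, LinearEquiv.symm_apply_apply, sub_self]
    refine ⟨(⟨k - lam p, hk⟩, p), ?_⟩
    rw [hG]
    simp
  have hFG : Function.Exact F G := by
    rintro ⟨x, p⟩
    rw [hG]
    constructor
    · intro h
      have hx : (x : K) = -lam p := eq_neg_of_add_eq_zero_left h
      have hp : π₀ p = 0 := by
        have h1 : K₁.mkQ (lam p) = 0 := by
          show Submodule.Quotient.mk (lam p) = 0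
          rw [Submodule.Quotient.mk_eq_zero]
          have : lam p = -(x : K) := by rw [hx, neg_neg]
          rw [this]
          exact K₁.neg_mem x.2
        rw [hlam'] at h1
        exact e₂.symm.map_eq_zero_iff.mp h1
      obtain ⟨ω, rfl⟩ := (hex₀ p).mp hp
      refine ⟨ω, Prod.ext (Subtype.ext ?_) rfl⟩
      rw [hF1, hx]
    · rintro ⟨ω, hω⟩
      have h1 : (x : K) = -lam (j' ω) := by rw [← hF1, hω]
      have h2 : p = j' ω := by rw [← hF2, hω]
      rw [h1, h2, neg_add_cancel]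
  exact hN κ₂ (κ₁ ⊕ κ₂) (fun k => Sum.inl (Sum.inl (σ₂ k)))
    (Sum.elim (fun k => Sum.inl (Sum.inr (σ₁ k))) (fun k => Sum.inr (σ₂ k)))
    (ModuleCat.of A (Pw Ω σ₂)) (ModuleCat.of A (K₁ × Pw P σ₂)) (ModuleCat.of A K)
    (LinearEquiv.refl A _)
    ((e₁.prodCongr (LinearEquiv.refl A (Pw P σ₂))).trans
      (pwSum 𝒱 (fun k => Sum.inl (Sum.inr (σ₁ k))) (fun k => Sum.inr (σ₂ k))).symm)
    F G hFinj hFG hGsurj hpd

/-- Xi's theorem (2006): if `I J rad(A) = 0` and the quotients `A ⧸ I`, `A ⧸ J` are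
representation-finite, then the finitistic dimension of `A` is finite. -/
theorem xi_findim (I J : Ideal A) [I.IsTwoSided] [J.IsTwoSided]
    (hIJ : I * J * Ring.jacobson A = ⊥)
    (hI : ∃ (n : ℕ) (V : Fin n → ModuleCat.{u} (A ⧸ I)), ∀ M : ModuleCat.{u} (A ⧸ I),
      Module.Finite (A ⧸ I) M → CategoryTheory.Indecomposable M → ∃ i, Nonempty (M ≅ V i))
    (hJ : ∃ (n : ℕ) (V : Fin n → ModuleCat.{u} (A ⧸ J)), ∀ M : ModuleCat.{u} (A ⧸ J),
      Module.Finite (A ⧸ J) M → CategoryTheory.Indecomposable M → ∃ i, Nonempty (M ≅ V i)) :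
    ∃ d : ℕ, ∀ (M : Type u) [AddCommGroup M] [Module A M] [Module.Finite A M],
      (∃ n, PdLT A M n) → PdLT A M (d + 1) := by
  obtain ⟨n₁, V₁, hV₁f, hV₁⟩ := repfin_family I hI
  obtain ⟨n₂, V₂, hV₂f, hV₂⟩ := repfin_family J hJ
  obtain ⟨N, hN⟩ := ext_bound V₁ V₂ hV₁f hV₂f
  refine ⟨N + 1, ?_⟩
  intro M _ _ _ ⟨n, hn⟩
  obtain ⟨P, π, hP, hPf, hπ, hker⟩ := exists_min_pres (A := A) M
  have hKP : ∀ c : A, (∀ r ∈ Ring.jacobson A, c * r = 0) →
      ∀ p ∈ (Ring.jacobson A • ⊤ : Submodule A P), c • p = 0 := by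
    intro c hc p hp
    refine Submodule.smul_induction_on hp (fun r hr x _ => ?_) (fun x y hx hy => ?_)
    · rw [← mul_smul, hc r hr, zero_smul]
    · rw [smul_add, hx, hy, add_zero]
  have hab : ∀ a ∈ I, ∀ b ∈ J, ∀ k : LinearMap.ker π, (a * b) • k = 0 := by
    intro a ha b hb k
    apply Subtype.ext
    show (a * b) • (k : P) = 0
    refine hKP (a * b) (fun r hr => ?_) _ (hker k.2)
    have : a * b * r ∈ I * J * Ring.jacobson A := Ideal.mul_mem_mul (Ideal.mul_mem_mul ha hb) hr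
    rw [hIJ] at this
    exact this
  have h1 : ∀ a ∈ I, ∀ x : (J • ⊤ : Submodule A (LinearMap.ker π)), a • x = 0 := by
    intro a ha x
    apply Subtype.ext
    show a • (x : LinearMap.ker π) = 0
    refine Submodule.smul_induction_on x.2 (fun b hb k _ => ?_) (fun x y hx hy => ?_)
    · rw [← mul_smul]
      exact hab a ha b hb k
    · rw [smul_add, hx, hy, add_zero]
  have h2 : ∀ b ∈ J, ∀ y : LinearMap.ker π ⧸ (J • ⊤ : Submodule A (LinearMap.ker π)),
      b • y = 0 := by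
    intro b hb y
    induction y using Submodule.Quotient.induction_on with
    | H k =>
      rw [← Submodule.Quotient.mk_smul, Submodule.Quotient.mk_eq_zero]
      exact Submodule.smul_mem_smul hb Submodule.mem_top
  obtain ⟨κ₁, _, σ₁, ⟨e₁⟩⟩ := hV₁ (J • ⊤ : Submodule A (LinearMap.ker π)) h1
  obtain ⟨κ₂, _, σ₂, ⟨e₂⟩⟩ := hV₂ (LinearMap.ker π ⧸ (J • ⊤ : Submodule A (LinearMap.ker π))) h2
  have hPpd : ∀ m, PdLT A P (m + 1) := fun m => (PdLT.of_projective (A := A) (M := P)).mono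
    (by omega)
  have hKpd : PdLT A (LinearMap.ker π) (n + 1) :=
    PdLT.ses_left (Submodule.subtype_injective _) (LinearMap.exact_subtype_ker_map π) hπ
      (hPpd n) (hn.mono (by omega))
  have hK := hN (LinearMap.ker π) (J • ⊤) κ₁ κ₂ σ₁ σ₂ e₁ e₂ ⟨n + 1, hKpd⟩
  exact PdLT.ses_right (Submodule.subtype_injective _) (LinearMap.exact_subtype_ker_map π) hπ
    hK (hPpd (N + 1))

end Vale.Agent.H47.Findim
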