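import Vale.Agent.H47.Findim.Defs
import Vale.Agent.H47.Findim.Xi

/-!
# Final statements: Xi's theorem and Igusa-Todorov algebras, in terms of Mathlib's
`projectiveDimension`
-/

universe u

namespace Vale.Agent.H47.Findim

open CategoryTheory Limits

variable {A : Type u} [Ring A]

theorem finite_pd_of_ne_top (M : ModuleCat.{u} A) (h : projectiveDimension M ≠ ⊤) :
    ∃ n, PdLT A M n := by
  obtain ⟨n, hn⟩ := (projectiveDimension_ne_top_iff M).mp h
  exact ⟨n + 1, hn⟩

theorem pd_le_of_pdLT (M : ModuleCat.{u} A) (d : ℕ) (h : PdLT A M (d + 1)) :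
    projectiveDimension M ≤ d :=
  (projectiveDimension_le_iff M d).mpr h

/-- Xi's theorem, stated with Mathlib's projective dimension. -/
theorem xi_final [IsArtinianRing A] (I J : Ideal A) [I.IsTwoSided] [J.IsTwoSided]
    (hIJ : I * J * Ring.jacobson A = ⊥)
    (hI : ∃ (n : ℕ) (V : Fin n → ModuleCat.{u} (A ⧸ I)), ∀ M : ModuleCat.{u} (A ⧸ I),
      Module.Finite (A ⧸ I) M → CategoryTheory.Indecomposable M → ∃ i, Nonempty (M ≅ V i))
    (hJ : ∃ (n : ℕ) (V : Fin n → ModuleCat.{u} (A ⧸ J)), ∀ M : ModuleCat.{u} (A ⧸ J),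
      Module.Finite (A ⧸ J) M → CategoryTheory.Indecomposable M → ∃ i, Nonempty (M ≅ V i)) :
    ∃ d : ℕ, ∀ M : ModuleCat.{u} A, Module.Finite A M → projectiveDimension M ≠ ⊤ →
      projectiveDimension M ≤ d := by
  obtain ⟨d, hd⟩ := xi_findim I J hIJ hI hJ
  refine ⟨d, fun M hM hpd => pd_le_of_pdLT M d ?_⟩
  exact hd M (finite_pd_of_ne_top M hpd)

/-- A finite-length retract of a finite product of members of a family of indecomposable modules
is itself such a product. -/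
theorem retract_pw_decomp {J : Type} (W : J → ModuleCat.{u} A) (hW : ∀ j, Indec A (W j))
    {Z : Type u} [AddCommGroup Z] [Module A Z] [IsArtinian A Z] [IsNoetherian A Z]
    {κ : Type} [Fintype κ] (ρ : κ → J) (i : Z →ₗ[A] Pw W ρ) (p : Pw W ρ →ₗ[A] Z)
    (hpi : p ∘ₗ i = LinearMap.id) :
    ∃ (κ' : Type) (_ : Fintype κ') (σ : κ' → J), Nonempty (Z ≃ₗ[A] Pw W σ) := by
  classical
  obtain ⟨κ', _, T, hT, hTA, hTN, ⟨e⟩⟩ := exists_decomp (A := A) Z
  have key : ∀ l, ∃ j, Nonempty (T l ≃ₗ[A] W j) := by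
    intro l
    have := hTA l
    have := hTN l
    let a : T l →ₗ[A] Z := e.symm.toLinearMap ∘ₗ LinearMap.single A (fun l => T l) l
    let b : Z →ₗ[A] T l := LinearMap.proj l ∘ₗ e.toLinearMap
    have hba : b ∘ₗ a = LinearMap.id := by
      ext x
      simp [a, b]
    obtain ⟨k, a', b', hb'a'⟩ := exchange (hT l) (i ∘ₗ a) (b ∘ₗ p) (LinearMap.ext fun x => by
      have h1 := LinearMap.congr_fun hpi (a x)
      have h2 := LinearMap.congr_fun hba x
      simp only [LinearMap.comp_apply, LinearMap.id_apply] at h1 h2 ⊢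
      rw [h1, h2])
    have := (hT l).1
    exact ⟨ρ k, (hW (ρ k)).equiv_of_split a' b' hb'a'⟩
  choose σ hσ using key
  exact ⟨κ', inferInstance, σ, ⟨e.trans (LinearEquiv.piCongrRight fun l => (hσ l).some)⟩⟩

theorem IsSyzygy.syz : ∀ (n : ℕ) {M K : ModuleCat.{u} A}, IsSyzygy n M K → Syz A n M K
  | 0, M, K, h => by
    obtain ⟨φ⟩ := h
    exact StEq.of_equiv φ.symm.toLinearEquiv
  | (n + 1), M, K, h => by
    obtain ⟨S, hS, ⟨φ⟩, hP, hPf, hsyz⟩ := h
    refine ⟨S.X₃, IsSyzygy.syz n hsyz, S.X₂, (IsProjective.iff_projective S.X₂).mpr hP, hPf,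
      S.f.hom ∘ₗ φ.symm.toLinearEquiv.toLinearMap, S.g.hom, ?_, ?_, ?_⟩
    · exact hS.moduleCat_injective_f.comp φ.symm.toLinearEquiv.injective
    · have hex : Function.Exact S.f S.g :=
        (ShortComplex.ShortExact.moduleCat_exact_iff_function_exact S).mp hS.exact
      intro y
      rw [hex y]
      constructor
      · rintro ⟨x, rfl⟩
        exact ⟨φ.toLinearEquiv x, by simp⟩
      · rintro ⟨x, rfl⟩
        exact ⟨_, rfl⟩
    · exact hS.moduleCat_surjective_g

/-- Igusa-Todorov algebras have finite finitistic dimension (Wei 2009), in a form which only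
asks for the defining exact sequences for modules of finite projective dimension. -/
theorem wei_final [IsArtinianRing A] (n : ℕ) (V : ModuleCat.{u} A) (hV : Module.Finite A V)
    (h : ∀ M : ModuleCat.{u} A, Module.Finite A M → projectiveDimension M ≠ ⊤ →
      ∃ S : ShortComplex (ModuleCat.{u} A), S.ShortExact ∧ InAdd V S.X₁ ∧ InAdd V S.X₂ ∧
        IsSyzygy n M S.X₃) :
    ∃ d : ℕ, ∀ M : ModuleCat.{u} A, Module.Finite A M → projectiveDimension M ≠ ⊤ →
      projectiveDimension M ≤ d := by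
  classical
  obtain ⟨κV, _, T, hT, hTA, hTN, ⟨eV⟩⟩ := exists_decomp (A := A) V
  have hTf : ∀ k, Module.Finite A (T k) := fun k => by
    have := hTN k
    infer_instance
  -- members of `add V` are finite products of the `T k`
  have hadd : ∀ X : ModuleCat.{u} A, InAdd V X →
      ∃ (κ : Type) (_ : Fintype κ) (σ : κ → κV), Nonempty (X ≃ₗ[A] Pw T σ) := by
    intro X hX
    obtain ⟨m, Y, ⟨φ⟩⟩ := hX
    have hin : InPw T (Fin m → V) :=
      InPw.pi fun _ => ⟨κV, inferInstance, id, ⟨eV⟩⟩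
    obtain ⟨κ, _, ρ, ⟨e₂⟩⟩ := hin
    let i : X →ₗ[A] Pw T ρ := e₂.toLinearMap ∘ₗ (biprod.inl ≫ φ.hom).hom
    let p : Pw T ρ →ₗ[A] X := (φ.inv ≫ biprod.fst).hom ∘ₗ e₂.symm.toLinearMap
    have hpi : p ∘ₗ i = LinearMap.id := by
      have h1 : (biprod.inl ≫ φ.hom) ≫ (φ.inv ≫ biprod.fst) = 𝟙 X := by simp
      have h2 := congrArg ModuleCat.Hom.hom h1
      rw [ModuleCat.hom_comp] at h2
      ext x
      have h3 := LinearMap.congr_fun h2 x
      simp only [LinearMap.comp_apply, LinearEquiv.coe_coe, LinearEquiv.symm_apply_apply, i, p]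
      exact h3
    have hXf : Module.Finite A X := by
      have hs : Function.Surjective p := fun x => ⟨i x, LinearMap.congr_fun hpi x⟩
      have : Module.Finite A (Pw T ρ) := inferInstance
      exact Module.Finite.of_surjective p hs
    exact retract_pw_decomp T hT ρ i p hpi
  obtain ⟨N, hN⟩ := it_key' T
  refine ⟨n + N, fun M hM hpd => pd_le_of_pdLT M (n + N) ?_⟩
  obtain ⟨S, hS, h1, h2, hsyz⟩ := h M hM hpd
  obtain ⟨κ₁, _, σ₁, ⟨e₁⟩⟩ := hadd _ h1
  obtain ⟨κ₂, _, σ₂, ⟨e₂⟩⟩ := hadd _ h2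
  have hS' := IsSyzygy.syz n hsyz
  obtain ⟨d, hd⟩ := finite_pd_of_ne_top M hpd
  have hpd3 : ∃ d, PdLT A S.X₃ d :=
    ⟨d + 1, (hS'.pdLT_iff d).mp (hd.mono (by omega))⟩
  have hex : Function.Exact S.f S.g :=
    (ShortComplex.ShortExact.moduleCat_exact_iff_function_exact S).mp hS.exact
  have hb := hN κ₁ κ₂ σ₁ σ₂ S.X₁ S.X₂ S.X₃ e₁ e₂ S.f.hom S.g.hom hS.moduleCat_injective_f hex
    hS.moduleCat_surjective_g hpd3
  exact (hS'.pdLT_iff N).mpr hb

end Vale.Agent.H47.Findim
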