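import Vale.Agent.H47.Findim.Layers

/-!
# Radical layers of infinite projective dimension

If at most three of the radical layers `rad^i A / rad^(i+1) A` of a left artinian ring `A` have
infinite projective dimension, then the finitistic dimension of `A` is finite
(Huard, Lanzilotta, Mendoza 2009).
-/

universe u

namespace Vale.Agent.H47.Findim

open CategoryTheory

variable {A : Type u} [Ring A] [IsArtinianRing A]

/-- A finite family of finitely generated modules such that every finitely generated module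
killed by the radical is a finite product of members of the family. -/
theorem ss_family : ∃ (ι : Type) (_ : Fintype ι) (T : ι → ModuleCat.{u} A),
    (∀ i, Module.Finite A (T i)) ∧
    ∀ (X : Type u) [AddCommGroup X] [Module A X] [Module.Finite A X],
      (∀ r ∈ Ring.jacobson A, ∀ x : X, r • x = 0) → InPw T X := by
  classical
  obtain ⟨κ, _, T, hT, hTA, hTN, ⟨e⟩⟩ := exists_decomp (A := A) (Lay A 0)
  refine ⟨κ, inferInstance, T, fun k => ?_, ?_⟩
  · have := hTN k
    infer_instance
  · intro X _ _ _ hX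
    obtain ⟨m, s, r, hrs⟩ := killed_retract hX
    have hin : InPw T (Fin m → Lay A 0) := InPw.pi fun _ => ⟨κ, inferInstance, id, ⟨e⟩⟩
    obtain ⟨κ', _, ρ, ⟨e₂⟩⟩ := hin
    exact retract_pw_decomp T hT ρ (e₂.toLinearMap ∘ₗ s) (r ∘ₗ e₂.symm.toLinearMap) (by
      ext x
      have h1 := LinearMap.congr_fun hrs x
      simp only [LinearMap.comp_apply, LinearEquiv.coe_coe, LinearEquiv.symm_apply_apply,
        LinearMap.id_apply] at h1 ⊢
      exact h1)

/-- `ext_bound` for a single family, in terms of short exact sequences. -/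
theorem ext_bound' {ι : Type} [Fintype ι] (V : ι → ModuleCat.{u} A)
    (hV : ∀ i, Module.Finite A (V i)) :
    ∃ N : ℕ, ∀ (X Y Z : Type u) [AddCommGroup X] [Module A X] [AddCommGroup Y] [Module A Y]
      [AddCommGroup Z] [Module A Z] (f : X →ₗ[A] Y) (g : Y →ₗ[A] Z),
      Function.Injective f → Function.Exact f g → Function.Surjective g →
      InPw V X → InPw V Z → (∃ d, PdLT A Y d) → PdLT A Y (N + 1) := by
  obtain ⟨N, hN⟩ := ext_bound V V hV hV
  refine ⟨N, ?_⟩
  intro X Y Z _ _ _ _ _ _ f g hf hfg hg ⟨κ₁, _, σ₁, ⟨e₁⟩⟩ ⟨κ₂, _, σ₂, ⟨e₂⟩⟩ hpd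
  have hker : LinearMap.range f = LinearMap.ker g := (LinearMap.exact_iff.mp hfg).symm
  exact hN Y (LinearMap.range f) κ₁ κ₂ σ₁ σ₂ ((LinearEquiv.ofInjective f hf).symm.trans e₁)
    ((Submodule.quotEquivOfEq _ _ hker).trans ((g.quotKerEquivOfSurjective hg).trans e₂)) hpd

/-- A finitely generated module stably equivalent to a finite product of members of a family of
indecomposable modules containing the summands of `A` is itself such a product. -/
theorem inPw_of_stEq {J : Type} (𝒲 : J → ModuleCat.{u} A) (h𝒲 : ∀ j, Indec A (𝒲 j))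
    (hA : InPw 𝒲 A) {Y Z : Type u} [AddCommGroup Y] [Module A Y] [AddCommGroup Z] [Module A Z]
    [Module.Finite A Z] (hY : InPw 𝒲 Y) (h : StEq A Y Z) : InPw 𝒲 Z := by
  obtain ⟨κ₀, _, i₀, p₀, hp₀⟩ := h.retract
  have hin : InPw 𝒲 (Y × (κ₀ → A)) := hY.prod (InPw.pi fun _ => hA)
  obtain ⟨κ₂, _, ρ, ⟨e₂⟩⟩ := hin
  exact retract_pw_decomp 𝒲 h𝒲 ρ (e₂.toLinearMap ∘ₗ i₀) (p₀ ∘ₗ e₂.symm.toLinearMap) (by
    ext z
    have h1 := LinearMap.congr_fun hp₀ z
    simp only [LinearMap.comp_apply, LinearEquiv.coe_coe, LinearEquiv.symm_apply_apply,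
      LinearMap.id_apply] at h1 ⊢
    exact h1)

/-- The key bound: a module `X` of finite projective dimension which is an extension of a
semisimple module `S₁` by a module `W`, where `W` is an extension of a module `G` of projective
dimension at most `α` by a semisimple module `S₂`, has bounded projective dimension. -/
theorem two_layer_bound {ι : Type} [Fintype ι] (T : ι → ModuleCat.{u} A)
    (hT : ∀ i, Module.Finite A (T i)) (α : ℕ) :
    ∃ N : ℕ, ∀ (S₂ W G X S₁ : ModuleCat.{u} A) [Module.Finite A S₂] [Module.Finite A W]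
      [Module.Finite A G] [Module.Finite A X] [Module.Finite A S₁]
      (f₁ : S₂ →ₗ[A] W) (g₁ : W →ₗ[A] G) (f₂ : W →ₗ[A] X) (g₂ : X →ₗ[A] S₁),
      Function.Injective f₁ → Function.Exact f₁ g₁ → Function.Surjective g₁ →
      Function.Injective f₂ → Function.Exact f₂ g₂ → Function.Surjective g₂ →
      InPw T S₁ → InPw T S₂ → PdLT A G (α + 1) → (∃ d, PdLT A X d) →
      PdLT A X (α + N + 1) := by
  classical
  have hsyz : ∀ i, ∃ K : ModuleCat.{u} A, Module.Finite A K ∧ Syz A α (T i) K := fun i => by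
    have := hT i
    exact exists_syz α (T i)
  choose Ω hΩf hΩ using hsyz
  have hdec : ∀ i, ∃ (κ : Type) (_ : Fintype κ) (U : κ → ModuleCat.{u} A),
      (∀ k, Indec A (U k)) ∧ (∀ k, IsArtinian A (U k)) ∧ (∀ k, IsNoetherian A (U k)) ∧
      Nonempty (Ω i ≃ₗ[A] ∀ k, U k) := fun i => by
    have := hΩf i
    exact exists_decomp (Ω i)
  choose κΩ instκΩ U hU hUA hUN hUe using hdec
  obtain ⟨κA, _, UA, hUAi, hUAA, hUAN, ⟨eA⟩⟩ := exists_decomp (A := A) A
  let 𝒲 : (Σ i, κΩ i) ⊕ κA → ModuleCat.{u} A := Sum.elim (fun x => U x.1 x.2) UA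
  have h𝒲 : ∀ j, Indec A (𝒲 j) := by
    rintro (⟨i, k⟩ | k)
    · exact hU i k
    · exact hUAi k
  have h𝒲f : ∀ j, Module.Finite A (𝒲 j) := by
    rintro (⟨i, k⟩ | k)
    · have := hUN i k
      show Module.Finite A (U i k)
      infer_instance
    · have := hUAN k
      show Module.Finite A (UA k)
      infer_instance
  have hAin : InPw 𝒲 A := ⟨κA, inferInstance, Sum.inr, ⟨eA⟩⟩
  have hΩin : ∀ (κ : Type) [Fintype κ] (σ : κ → ι), InPw 𝒲 (Pw Ω σ) := fun κ _ σ =>
    InPw.pi fun k => ⟨κΩ (σ k), inferInstance, fun l => Sum.inl ⟨σ k, l⟩, hUe (σ k)⟩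
  obtain ⟨N, hN⟩ := ext_bound' 𝒲 h𝒲f
  refine ⟨N, ?_⟩
  intro S₂ W G X S₁ _ _ _ _ _ f₁ g₁ f₂ g₂ hf₁ hfg₁ hg₁ hf₂ hfg₂ hg₂ ⟨κ₁, _, σ₁, ⟨e₁⟩⟩
    ⟨κ₂, _, σ₂, ⟨e₂⟩⟩ hG ⟨d, hd⟩
  obtain ⟨KW, KX, KS1, f', g', hKW, hKX, hKS1, sW, sX, sS1, hf', hfg', hg'⟩ :=
    horseshoe α f₂ g₂ hf₂ hfg₂ hg₂
  obtain ⟨KS2, KW', KG, f'', g'', hKS2, hKW', hKG, sS2, sW', sG, hf'', hfg'', hg''⟩ :=
    horseshoe α f₁ g₁ hf₁ hfg₁ hg₁
  have hproj : Module.Projective A KG := PdLT.projective ((sG.pdLT_iff 0).mp hG)
  have st1 : StEq A KS2 KW' := stEq_of_ses_proj f'' g'' hf'' hfg'' hg''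
  have st2 : StEq A KW' KW := Syz.stEq (StEq.refl _) sW' sW
  have sP2 : Syz A α (ModuleCat.of A (Pw T σ₂)) (ModuleCat.of A (Pw Ω σ₂)) :=
    Syz.pi α (M := fun k => T (σ₂ k)) (K := fun k => Ω (σ₂ k)) (fun k => hΩ _)
  have st3 : StEq A (Pw Ω σ₂) KS2 := Syz.stEq (StEq.of_equiv e₂.symm) sP2 sS2
  have hKWin : InPw 𝒲 KW := inPw_of_stEq 𝒲 h𝒲 hAin (hΩin κ₂ σ₂) (st3.trans (st1.trans st2))
  have sP1 : Syz A α (ModuleCat.of A (Pw T σ₁)) (ModuleCat.of A (Pw Ω σ₁)) :=
    Syz.pi α (M := fun k => T (σ₁ k)) (K := fun k => Ω (σ₁ k)) (fun k => hΩ _)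
  have st4 : StEq A (Pw Ω σ₁) KS1 := Syz.stEq (StEq.of_equiv e₁.symm) sP1 sS1
  have hKS1in : InPw 𝒲 KS1 := inPw_of_stEq 𝒲 h𝒲 hAin (hΩin κ₁ σ₁) st4
  have hKXpd : PdLT A KX (d + 1) := (sX.pdLT_iff d).mp (hd.mono (by omega))
  have hfin := hN KW KX KS1 f' g' hf' hfg' hg' hKWin hKS1in ⟨d + 1, hKXpd⟩
  exact (sX.pdLT_iff N).mpr hfin

/-- If `A / rad A` has projective dimension at most `g`, so has every finitely generated
module. -/
theorem gldim_bound (g : ℕ) (h0 : PdLT A (Lay A 0) (g + 1)) :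
    ∀ (M : Type u) [AddCommGroup M] [Module A M] [Module.Finite A M], PdLT A M (g + 1) := by
  have hss : ∀ (X : Type u) [AddCommGroup X] [Module A X] [Module.Finite A X],
      (∀ r ∈ Ring.jacobson A, ∀ x : X, r • x = 0) → PdLT A X (g + 1) := by
    intro X _ _ _ hX
    obtain ⟨m, s, r, hrs⟩ := killed_retract hX
    exact PdLT.of_retract s r hrs (PdLT.pi fun _ => h0)
  have key : ∀ n : ℕ, ∀ (M : Type u) [AddCommGroup M] [Module A M] [Module.Finite A M],
      (Ring.jacobson A ^ n • ⊤ : Submodule A M) = ⊥ → PdLT A M (g + 1) := by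
    intro n
    induction n with
    | zero =>
      intro M _ _ _ h
      rw [Submodule.pow_zero, Ideal.one_eq_top, Submodule.top_smul] at h
      have : Subsingleton M := by
        refine ⟨fun x y => ?_⟩
        have hx : x ∈ (⊤ : Submodule A M) := trivial
        have hy : y ∈ (⊤ : Submodule A M) := trivial
        rw [h] at hx hy
        rw [(Submodule.mem_bot A).mp hx, (Submodule.mem_bot A).mp hy]
      exact PdLT.of_subsingleton _
    | succ n ih =>
      intro M _ _ _ h
      have h1 : (Ring.jacobson A ^ n • ⊤ :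
          Submodule A (Ring.jacobson A • ⊤ : Submodule A M)) = ⊥ := by
        rw [eq_bot_iff]
        intro x hx
        rw [Submodule.mem_bot]
        apply Subtype.ext
        show (x : M) = 0
        have hmem : (x : M) ∈ (Ring.jacobson A ^ (n + 1) • ⊤ : Submodule A M) := by
          refine Submodule.smul_induction_on hx (fun a ha y _ => ?_) (fun y z hy hz => ?_)
          · show a • (y : M) ∈ _
            refine Submodule.smul_induction_on y.2 (fun b hb m _ => ?_) (fun y z hy hz => ?_)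
            · rw [← mul_smul]
              refine Submodule.smul_mem_smul ?_ trivial
              rw [Submodule.pow_succ]
              exact Ideal.mul_mem_mul ha hb
            · rw [smul_add]
              exact add_mem hy hz
          · exact add_mem hy hz
        rw [h] at hmem
        exact (Submodule.mem_bot A).mp hmem
      have hM' := ih (Ring.jacobson A • ⊤ : Submodule A M) h1
      have hQ : PdLT A (M ⧸ (Ring.jacobson A • ⊤ : Submodule A M)) (g + 1) :=
        hss _ (fun r hr y => by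
          induction y using Submodule.Quotient.induction_on with
          | H m =>
            rw [← Submodule.Quotient.mk_smul, Submodule.Quotient.mk_eq_zero]
            exact Submodule.smul_mem_smul hr trivial)
      exact PdLT.ses_mid (f := (Ring.jacobson A • ⊤ : Submodule A M).subtype)
        (g := (Ring.jacobson A • ⊤ : Submodule A M).mkQ) (Submodule.subtype_injective _)
        (LinearMap.exact_subtype_mkQ _) (Submodule.mkQ_surjective _) hM' hQ
  obtain ⟨n, hn⟩ := jac_nilpotent (A := A)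
  intro M _ _ _
  exact key n M (by rw [hn, Submodule.bot_smul])

/-- The layers of the filtration `K ⊓ rad^i P` of a submodule `K` of a finitely generated
module `P` are killed by the radical and are retracts of powers of the radical layers of `A`. -/
theorem sublayer (P : Type u) [AddCommGroup P] [Module A P] [Module.Finite A P]
    (K : Submodule A P) (i : ℕ) :
    (∀ r ∈ Ring.jacobson A, ∀ y : SubQ (K ⊓ (Ring.jacobson A ^ i • ⊤ : Submodule A P))
        (K ⊓ (Ring.jacobson A ^ (i + 1) • ⊤ : Submodule A P)), r • y = 0) ∧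
    ∃ (m : ℕ) (s : SubQ (K ⊓ (Ring.jacobson A ^ i • ⊤ : Submodule A P))
        (K ⊓ (Ring.jacobson A ^ (i + 1) • ⊤ : Submodule A P)) →ₗ[A] (Fin m → Lay A i))
      (r : (Fin m → Lay A i) →ₗ[A] SubQ (K ⊓ (Ring.jacobson A ^ i • ⊤ : Submodule A P))
        (K ⊓ (Ring.jacobson A ^ (i + 1) • ⊤ : Submodule A P))), r ∘ₗ s = LinearMap.id := by
  obtain ⟨hkY, m, sY, rY, hY⟩ := layerP_retract (A := A) P i
  have hle : K ⊓ (Ring.jacobson A ^ i • ⊤ : Submodule A P) ≤
      (Ring.jacobson A ^ i • ⊤ : Submodule A P) := inf_le_right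
  have h1 : (K ⊓ (Ring.jacobson A ^ (i + 1) • ⊤ : Submodule A P)).submoduleOf
      (K ⊓ (Ring.jacobson A ^ i • ⊤ : Submodule A P)) ≤
      ((Ring.jacobson A ^ (i + 1) • ⊤ : Submodule A P).submoduleOf
        (Ring.jacobson A ^ i • ⊤ : Submodule A P)).comap (Submodule.inclusion hle) := by
    intro x hx
    exact hx.2
  let ιm : SubQ (K ⊓ (Ring.jacobson A ^ i • ⊤ : Submodule A P))
      (K ⊓ (Ring.jacobson A ^ (i + 1) • ⊤ : Submodule A P)) →ₗ[A]
      ↥(Ring.jacobson A ^ i • ⊤ : Submodule A P) ⧸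
        (Ring.jacobson A ^ (i + 1) • ⊤ : Submodule A P).submoduleOf
          (Ring.jacobson A ^ i • ⊤ : Submodule A P) :=
    Submodule.mapQ _ _ (Submodule.inclusion hle) h1
  have hιm : Function.Injective ιm := by
    rw [← LinearMap.ker_eq_bot, LinearMap.ker_eq_bot']
    intro x hx
    induction x using Submodule.Quotient.induction_on with
    | H x =>
      rw [Submodule.mapQ_apply, Submodule.Quotient.mk_eq_zero] at hx
      rw [Submodule.Quotient.mk_eq_zero]
      exact ⟨x.2.1, hx⟩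
  have hss := semisimple_of_killed _ hkY
  obtain ⟨p, hp⟩ := exists_retraction_of_semisimple ιm hιm
  refine ⟨fun r hr y => ?_, m, sY ∘ₗ ιm, p ∘ₗ rY, ?_⟩
  · apply hιm
    rw [map_smul, map_zero]
    exact hkY r hr _
  · refine LinearMap.ext fun y => ?_
    have e1 := LinearMap.congr_fun hY (ιm y)
    have e2 := LinearMap.congr_fun hp y
    simp only [LinearMap.comp_apply, LinearMap.id_apply] at e1 e2 ⊢
    rw [e1, e2]

omit [IsArtinianRing A] in
theorem exists_two_cover (s : Finset ℕ) (hs : s.card ≤ 3) (h0 : 0 ∈ s) :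
    ∃ a b : ℕ, 1 ≤ a ∧ a < b ∧ ∀ l ∈ s, l = 0 ∨ l = a ∨ l = b := by
  classical
  set t := s.erase 0 with ht
  have htc : t.card ≤ 2 := by
    rw [ht, Finset.card_erase_of_mem h0]
    omega
  have hmem : ∀ l ∈ s, l = 0 ∨ l ∈ t := by
    intro l hl
    by_cases h : l = 0
    · exact Or.inl h
    · exact Or.inr (Finset.mem_erase.mpr ⟨h, hl⟩)
  rcases t.eq_empty_or_nonempty with he | hne
  · refine ⟨1, 2, le_rfl, by omega, fun l hl => ?_⟩
    rcases hmem l hl with h | h
    · exact Or.inl h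
    · rw [he] at h
      exact absurd h (Finset.notMem_empty l)
  · obtain ⟨a, ha⟩ := hne
    have ha1 : 1 ≤ a := Nat.one_le_iff_ne_zero.mpr (Finset.mem_erase.mp ha).1
    set t' := t.erase a with ht'
    have htc' : t'.card ≤ 1 := by
      rw [ht', Finset.card_erase_of_mem ha]
      omega
    rcases t'.eq_empty_or_nonempty with he' | hne'
    · refine ⟨a, a + 1, ha1, by omega, fun l hl => ?_⟩
      rcases hmem l hl with h | h
      · exact Or.inl h
      · by_cases hla : l = a
        · exact Or.inr (Or.inl hla)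
        · have : l ∈ t' := Finset.mem_erase.mpr ⟨hla, h⟩
          rw [he'] at this
          exact absurd this (Finset.notMem_empty l)
    · obtain ⟨b, hb⟩ := hne'
      have hba : b ≠ a := (Finset.mem_erase.mp hb).1
      have hb1 : 1 ≤ b :=
        Nat.one_le_iff_ne_zero.mpr (Finset.mem_erase.mp (Finset.mem_erase.mp hb).2).1
      have hall : ∀ l ∈ s, l = 0 ∨ l = a ∨ l = b := by
        intro l hl
        rcases hmem l hl with h | h
        · exact Or.inl h
        · by_cases hla : l = a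
          · exact Or.inr (Or.inl hla)
          · have : l ∈ t' := Finset.mem_erase.mpr ⟨hla, h⟩
            exact Or.inr (Or.inr (Finset.card_le_one.mp htc' l this b hb))
      rcases Nat.lt_or_gt_of_ne hba with hlt | hgt
      · exact ⟨b, a, hb1, hlt, fun l hl => by
          rcases hall l hl with h | h | h
          · exact Or.inl h
          · exact Or.inr (Or.inr h)
          · exact Or.inr (Or.inl h)⟩
      · exact ⟨a, b, ha1, hgt, hall⟩

/-- If all radical layers of `A` outside a set `s` of at most three indices have finite projective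
dimension, then the finitistic dimension of `A` is finite. -/
theorem hlm_findim (s : Finset ℕ) (hs : s.card ≤ 3)
    (h : ∀ i, i ∉ s → ∃ n, PdLT A (Lay A i) n) :
    ∃ d : ℕ, ∀ (M : Type u) [AddCommGroup M] [Module A M] [Module.Finite A M],
      (∃ n, PdLT A M n) → PdLT A M (d + 1) := by
  classical
  obtain ⟨N₁, hN₁⟩ := jac_nilpotent (A := A)
  have hα : ∃ α, ∀ i, i ∉ s → PdLT A (Lay A i) (α + 1) := by
    choose! d hd using h
    refine ⟨(Finset.range N₁).sup d, fun i hi => ?_⟩
    by_cases hiN : i < N₁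
    · exact (hd i hi).mono
        ((Finset.le_sup (f := d) (Finset.mem_range.mpr hiN)).trans (Nat.le_succ _))
    · have hbot : Ring.jacobson A ^ i = ⊥ := by
        rw [eq_bot_iff, ← hN₁]
        exact jac_pow_anti (by omega)
      have : Subsingleton (Lay A i) := by
        refine ⟨fun x y => ?_⟩
        induction x using Submodule.Quotient.induction_on with
        | H x =>
          induction y using Submodule.Quotient.induction_on with
          | H y =>
            have hx : (x : A) = 0 := (Submodule.mem_bot A).mp (le_of_eq hbot x.2)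
            have hy : (y : A) = 0 := (Submodule.mem_bot A).mp (le_of_eq hbot y.2)
            have : x = y := Subtype.ext (by rw [hx, hy])
            rw [this]
      exact PdLT.of_subsingleton _
  obtain ⟨α, hα⟩ := hα
  by_cases h0 : 0 ∈ s
  swap
  · exact ⟨α, fun M _ _ _ _ => gldim_bound α (hα 0 h0) M⟩
  obtain ⟨a, b, ha, hab, hcov⟩ := exists_two_cover s hs h0
  obtain ⟨ι, _, T, hTf, hT⟩ := ss_family (A := A)
  obtain ⟨N, hN⟩ := two_layer_bound T hTf α
  refine ⟨α + N + 1, ?_⟩
  intro M _ _ _ ⟨n, hn⟩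
  obtain ⟨P, π, hP, hPf, hπ, hker⟩ := exists_min_pres (A := A) M
  let D : ℕ → Submodule A P := fun i =>
    LinearMap.ker π ⊓ (Ring.jacobson A ^ i • ⊤ : Submodule A P)
  have hD : ∀ l, D (l + 1) ≤ D l := fun l =>
    inf_le_inf_left _ (Submodule.smul_mono_left (jac_pow_succ_le l))
  have hanti : ∀ i j, i ≤ j → D j ≤ D i := by
    intro i j hij
    induction j, hij using Nat.le_induction with
    | base => exact le_rfl
    | succ j _ ih => exact (hD j).trans ih
  have hD1 : D 1 = LinearMap.ker π := by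
    show LinearMap.ker π ⊓ (Ring.jacobson A ^ 1 • ⊤ : Submodule A P) = LinearMap.ker π
    rw [Submodule.pow_one]
    exact inf_eq_left.mpr hker
  have hDN : D (max N₁ (b + 1)) = ⊥ := by
    have hbot : Ring.jacobson A ^ (max N₁ (b + 1)) = ⊥ := by
      rw [eq_bot_iff, ← hN₁]
      exact jac_pow_anti (le_max_left _ _)
    show LinearMap.ker π ⊓ (Ring.jacobson A ^ (max N₁ (b + 1)) • ⊤ : Submodule A P) = ⊥
    rw [hbot, Submodule.bot_smul, inf_bot_eq]
  have hlay := fun l => sublayer (A := A) P (LinearMap.ker π) l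
  have hgood : ∀ l, l ≠ 0 → l ≠ a → l ≠ b → PdLT A (SubQ (D l) (D (l + 1))) (α + 1) := by
    intro l hl0 hla hlb
    have hl : l ∉ s := fun hl => by
      rcases hcov l hl with h | h | h
      · exact hl0 h
      · exact hla h
      · exact hlb h
    obtain ⟨-, m, s', r', hsr⟩ := hlay l
    exact PdLT.of_retract s' r' hsr (PdLT.pi fun _ => hα l hl)
  have hss : ∀ l, InPw T (SubQ (D l) (D (l + 1))) := fun l => hT _ (hlay l).1
  have hG1 : PdLT A (SubQ (D 1) (D a)) (α + 1) :=
    subq_chain D hD (α + 1) 1 a ha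
      (fun l h1 h2 => hgood l (by omega) (by omega) (by omega))
  have hG2 : PdLT A (SubQ (D (a + 1)) (D b)) (α + 1) :=
    subq_chain D hD (α + 1) (a + 1) b (by omega)
      (fun l h1 h2 => hgood l (by omega) (by omega) (by omega))
  have hG3 : PdLT A (SubQ (D (b + 1)) (D (max N₁ (b + 1)))) (α + 1) :=
    subq_chain D hD (α + 1) (b + 1) (max N₁ (b + 1)) (le_max_right _ _)
      (fun l h1 h2 => hgood l (by omega) (by omega) (by omega))
  obtain ⟨fA, gA, hfA, hfgA, hgA⟩ := subq_ses (A := A) (C := D 1) (D := D a)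
    (E := D (max N₁ (b + 1))) (hanti 1 a ha) (hanti a _ (by
      have := le_max_right N₁ (b + 1)
      omega))
  obtain ⟨fB, gB, hfB, hfgB, hgB⟩ := subq_ses (A := A) (C := D a) (D := D (b + 1))
    (E := D (max N₁ (b + 1))) (hanti a (b + 1) (by omega)) (hanti (b + 1) _ (le_max_right _ _))
  obtain ⟨fC, gC, hfC, hfgC, hgC⟩ := subq_ses (A := A) (C := D a) (D := D (a + 1))
    (E := D (b + 1)) (hD a) (hanti (a + 1) (b + 1) (by omega))
  obtain ⟨fD, gD, hfD, hfgD, hgD⟩ := subq_ses (A := A) (C := D (a + 1)) (D := D b)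
    (E := D (b + 1)) (hanti (a + 1) b (by omega)) (hD b)
  have hsub : (D (max N₁ (b + 1))).submoduleOf (D 1) = ⊥ := by
    rw [eq_bot_iff]
    intro x hx
    have hx' : (x : P) ∈ D (max N₁ (b + 1)) := hx
    rw [hDN] at hx'
    rw [Submodule.mem_bot]
    exact Subtype.ext ((Submodule.mem_bot A).mp hx')
  let e0 : SubQ (D 1) (D (max N₁ (b + 1))) ≃ₗ[A] LinearMap.ker π :=
    (Submodule.quotEquivOfEqBot _ hsub).trans (LinearEquiv.ofEq _ _ hD1)
  have hPpd : ∀ m, PdLT A P (m + 1) := fun m => (PdLT.of_projective (A := A) (M := P)).mono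
    (by omega)
  have hKpd : PdLT A (LinearMap.ker π) (n + 1) :=
    PdLT.ses_left (Submodule.subtype_injective _) (LinearMap.exact_subtype_ker_map π) hπ
      (hPpd n) (hn.mono (by omega))
  have hX0 : PdLT A (SubQ (D 1) (D (max N₁ (b + 1)))) (n + 1) := PdLT.of_equiv e0.symm hKpd
  have h1 : PdLT A (SubQ (D a) (D (max N₁ (b + 1)))) (n + α + 1) :=
    PdLT.ses_left hfA hfgA hgA (hX0.mono (by omega)) (hG1.mono (by omega))
  have h2 : PdLT A (SubQ (D a) (D (b + 1))) (n + α + 1 + 1) :=
    PdLT.ses_right hfB hfgB hgB (hG3.mono (by omega)) (h1.mono (by omega))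
  have h3 : PdLT A (SubQ (D a) (D (b + 1))) (α + N + 1) :=
    hN (ModuleCat.of A (SubQ (D b) (D (b + 1)))) (ModuleCat.of A (SubQ (D (a + 1)) (D (b + 1))))
      (ModuleCat.of A (SubQ (D (a + 1)) (D b))) (ModuleCat.of A (SubQ (D a) (D (b + 1))))
      (ModuleCat.of A (SubQ (D a) (D (a + 1)))) fD gD fC gC hfD hfgD hgD hfC hfgC hgC
      (hss a) (hss b) hG2 ⟨_, h2⟩
  have h4 : PdLT A (SubQ (D a) (D (max N₁ (b + 1)))) (α + N + 1) :=
    PdLT.ses_mid hfB hfgB hgB (hG3.mono (by omega)) h3
  have h5 : PdLT A (SubQ (D 1) (D (max N₁ (b + 1)))) (α + N + 1) :=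
    PdLT.ses_mid hfA hfgA hgA h4 (hG1.mono (by omega))
  have h6 : PdLT A (LinearMap.ker π) (α + N + 1) := PdLT.of_equiv e0 h5
  exact PdLT.ses_right (Submodule.subtype_injective _) (LinearMap.exact_subtype_ker_map π) hπ
    h6 (hPpd (α + N + 1))

/-- Huard-Lanzilotta-Mendoza: a left artinian ring with at most three radical layers of infinite
projective dimension has finite finitistic dimension. -/
theorem hlm_final
    (h : ∃ s : Finset ℕ, s.card ≤ 3 ∧ ∀ i : ℕ, i ∉ s →
      projectiveDimension (ModuleCat.of A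
        (↥(Ring.jacobson A ^ i) ⧸
          (Ring.jacobson A ^ (i + 1)).submoduleOf (Ring.jacobson A ^ i))) ≠ ⊤) :
    ∃ d : ℕ, ∀ M : ModuleCat.{u} A, Module.Finite A M → projectiveDimension M ≠ ⊤ →
      projectiveDimension M ≤ d := by
  obtain ⟨s, hs, hfin⟩ := h
  obtain ⟨d, hd⟩ := hlm_findim s hs (fun i hi => finite_pd_of_ne_top _ (hfin i hi))
  refine ⟨d, fun M hM hpd => pd_le_of_pdLT M d ?_⟩
  exact hd M (finite_pd_of_ne_top M hpd)

end Vale.Agent.H47.Findim
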