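import Vale.Agent.H47.Findim.Stabil

/-!
# The Igusa-Todorov bound for a finite family of modules

For a finite family `V` of finitely generated modules over a left artinian ring there is a
bound `N` such that every module `C` of finite projective dimension which is the cokernel of an
injection between finite products of members of `V` has projective dimension at most `N`.
-/

universe u

namespace Vale.Agent.H47.Findim

variable {A : Type u} [Ring A] [IsArtinianRing A]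

theorem it_key {ι : Type} [Fintype ι] (V : ι → ModuleCat.{u} A) [∀ i, Module.Finite A (V i)] :
    ∃ N : ℕ, ∀ (κ κ' : Type) [Fintype κ] [Fintype κ'] (σ : κ → ι) (τ : κ' → ι)
      (C : ModuleCat.{u} A) (f : Pw V σ →ₗ[A] Pw V τ) (g : Pw V τ →ₗ[A] C),
      Function.Injective f → Function.Exact f g → Function.Surjective g →
      (∃ d, PdLT A C d) → PdLT A C (N + 1) := by
  classical
  obtain ⟨n₀, hn₀⟩ := SS_stabilizes V
  choose W hWf hW using fun i => exists_syz n₀ (V i)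
  have hdec : ∀ i, ∃ (κ : Type) (_ : Fintype κ) (T : κ → ModuleCat.{u} A),
      (∀ k, Indec A (T k)) ∧ (∀ k, IsArtinian A (T k)) ∧ (∀ k, IsNoetherian A (T k)) ∧
      Nonempty (W i ≃ₗ[A] ∀ k, T k) := fun i => by
    have := hWf i
    exact exists_decomp (W i)
  choose κW instκW T hT hTA hTN hTe using hdec
  obtain ⟨κA, _, TA, hTAi, hTAA, hTAN, ⟨eA⟩⟩ := exists_decomp (A := A) A
  let 𝒲 : (Σ i, κW i) ⊕ κA → ModuleCat.{u} A := Sum.elim (fun x => T x.1 x.2) TA
  have h𝒲 : ∀ j, Indec A (𝒲 j) := by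
    rintro (⟨i, k⟩ | k)
    · exact hT i k
    · exact hTAi k
  obtain ⟨ν, hν⟩ := exists_pd_bound 𝒲
  refine ⟨n₀ + ν + 1, ?_⟩
  intro κ κ' _ _ σ τ C f g hf hfg hg ⟨d, hd⟩
  have hCfin : Module.Finite A C := Module.Finite.of_surjective g hg
  -- Step 1: the difference of multiplicity vectors lies in the stable subgroup
  have hroof : Roof A (max d n₀) (Pw V σ) (Pw V τ) :=
    Roof.of_ses f g hf hfg hg (hd.mono (by omega))
  have hmem : cnt σ - cnt τ ∈ SS V (max d n₀) :=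
    ⟨κ, κ', inferInstance, inferInstance, σ, τ, rfl, hroof⟩
  rw [hn₀ _ (le_max_right _ _)] at hmem
  obtain ⟨κ₁, κ₁', _, _, σ₁, τ₁, hcnt, hroof₁⟩ := hmem
  -- Step 2: enlarge the sequence
  let F : Pw V (Sum.elim σ σ₁) →ₗ[A] Pw V (Sum.elim τ σ₁) :=
    (pwSum V τ σ₁).symm.toLinearMap ∘ₗ (f.prodMap LinearMap.id) ∘ₗ (pwSum V σ σ₁).toLinearMap
  let G : Pw V (Sum.elim τ σ₁) →ₗ[A] C :=
    g ∘ₗ LinearMap.fst A (Pw V τ) (Pw V σ₁) ∘ₗ (pwSum V τ σ₁).toLinearMap
  have hF : Function.Injective F := by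
    intro x y hxy
    have h1 : (f.prodMap LinearMap.id) ((pwSum V σ σ₁) x) =
        (f.prodMap LinearMap.id) ((pwSum V σ σ₁) y) := (pwSum V τ σ₁).symm.injective hxy
    apply (pwSum V σ σ₁).injective
    have h2 : f ((pwSum V σ σ₁) x).1 = f ((pwSum V σ σ₁) y).1 := by
      have := congrArg Prod.fst h1
      exact this
    have h3 : ((pwSum V σ σ₁) x).2 = ((pwSum V σ σ₁) y).2 := by
      have := congrArg Prod.snd h1
      exact this
    exact Prod.ext (hf h2) h3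
  have hG : Function.Surjective G := by
    intro c
    obtain ⟨y, rfl⟩ := hg c
    refine ⟨(pwSum V τ σ₁).symm (y, 0), ?_⟩
    show g ((pwSum V τ σ₁) ((pwSum V τ σ₁).symm (y, 0))).1 = g y
    rw [LinearEquiv.apply_symm_apply]
  have hFG : Function.Exact F G := by
    intro y
    constructor
    · intro hy
      have h1 : g ((pwSum V τ σ₁) y).1 = 0 := hy
      obtain ⟨x, hx⟩ := (hfg _).mp h1
      refine ⟨(pwSum V σ σ₁).symm (x, ((pwSum V τ σ₁) y).2), ?_⟩
      show (pwSum V τ σ₁).symm ((f.prodMap LinearMap.id)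
        ((pwSum V σ σ₁) ((pwSum V σ σ₁).symm (x, ((pwSum V τ σ₁) y).2)))) = y
      rw [LinearEquiv.apply_symm_apply, LinearEquiv.symm_apply_eq]
      exact Prod.ext hx rfl
    · rintro ⟨x, rfl⟩
      show g ((pwSum V τ σ₁) ((pwSum V τ σ₁).symm ((f.prodMap LinearMap.id)
        ((pwSum V σ σ₁) x)))).1 = 0
      rw [LinearEquiv.apply_symm_apply]
      exact hfg.apply_apply_eq_zero _
  have hr : Roof A n₀ (Pw V (Sum.elim σ σ₁)) (Pw V (Sum.elim τ σ₁)) := by
    have h1 : Roof A n₀ (Pw V σ₁ × Pw V σ) (Pw V τ₁ × Pw V σ) := hroof₁.prod (Roof.refl _)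
    have h2 := h1.congr (pwSum V σ₁ σ).symm (pwSum V τ₁ σ).symm
    obtain ⟨e1⟩ := pw_equiv_of_cnt_eq V (Sum.elim σ₁ σ) (Sum.elim σ σ₁)
      (by rw [cnt_sum, cnt_sum, add_comm])
    obtain ⟨e2⟩ := pw_equiv_of_cnt_eq V (Sum.elim τ₁ σ) (Sum.elim τ σ₁) (by
      rw [cnt_sum, cnt_sum]
      funext i
      have := congrFun hcnt i
      simp only [Pi.sub_apply, Pi.add_apply] at this ⊢
      omega)
    exact h2.congr e1 e2
  -- Step 3: syzygies
  obtain ⟨KT, KT', KC, f', g', hKT, hKT', hKC, sT, sT', sC, hf', hfg', hg'⟩ :=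
    horseshoe n₀ (X := ModuleCat.of A (Pw V (Sum.elim σ σ₁)))
      (Y := ModuleCat.of A (Pw V (Sum.elim τ σ₁))) (C := C) F G hF hFG hG
  obtain ⟨U, DX, DY, α, pα, β, pβ, hU, a1, a2, a3, a4, b1, b2, b3, b4⟩ := hr
  have hDX : Module.Finite A DX := Module.Finite.of_surjective pα a3
  have hDY : Module.Finite A DY := Module.Finite.of_surjective pβ b3
  obtain ⟨K1T, K1U, K1D, fa, ga, _, _, hK1D, s1T, s1U, s1D, hfa, hfga, hga⟩ :=
    horseshoe n₀ (X := ModuleCat.of A (Pw V (Sum.elim σ σ₁))) (Y := U) (C := DX) α pα a1 a2 a3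
  obtain ⟨K2T', K2U, K2D, fb, gb, _, _, hK2D, s2T', s2U, s2D, hfb, hfgb, hgb⟩ :=
    horseshoe n₀ (X := ModuleCat.of A (Pw V (Sum.elim τ σ₁))) (Y := U) (C := DY) β pβ b1 b2 b3
  have hp1 : Module.Projective A K1D := PdLT.projective ((s1D.pdLT_iff 0).mp a4)
  have hp2 : Module.Projective A K2D := PdLT.projective ((s2D.pdLT_iff 0).mp b4)
  have st1 : StEq A K1T K1U := stEq_of_ses_proj fa ga hfa hfga hga
  have st2 : StEq A K2T' K2U := stEq_of_ses_proj fb gb hfb hfgb hgb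
  have st : StEq A KT KT' :=
    ((Syz.stEq (StEq.refl _) sT s1T).trans st1).trans
      ((Syz.stEq (StEq.refl _) s1U s2U).trans (st2.symm.trans (Syz.stEq (StEq.refl _) s2T' sT')))
  -- Step 4: the Fitting/Ext argument
  have hKCpd : PdLT A KC (d + 1) := (sC.pdLT_iff d).mp (hd.mono (by omega))
  obtain ⟨Z, pZ, hpZ, ⟨m, hZm⟩, hZ⟩ := fitting_ext f' g' hf' hfg' hg' st hKCpd
  -- Step 5: bound the projective dimension of `Z`
  have sW : Syz A n₀ (ModuleCat.of A (Pw V (Sum.elim σ σ₁)))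
      (ModuleCat.of A (Pw W (Sum.elim σ σ₁))) :=
    Syz.pi n₀ (M := fun k => V (Sum.elim σ σ₁ k)) (K := fun k => W (Sum.elim σ σ₁ k))
      (fun k => hW _)
  have stW : StEq A (Pw W (Sum.elim σ σ₁)) KT := Syz.stEq (StEq.refl _) sW sT
  obtain ⟨κ₀, _, i₀, p₀, hp₀⟩ := stW.retract
  have hin : InPw 𝒲 (Pw W (Sum.elim σ σ₁) × (κ₀ → A)) := by
    refine InPw.prod (InPw.pi fun k => ?_) (InPw.pi fun _ => ?_)
    · exact ⟨κW (Sum.elim σ σ₁ k), inferInstance, fun l => Sum.inl ⟨Sum.elim σ σ₁ k, l⟩,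
        hTe (Sum.elim σ σ₁ k)⟩
    · exact ⟨κA, inferInstance, Sum.inr, ⟨eA⟩⟩
  obtain ⟨κ₂, _, ρ, ⟨e₂⟩⟩ := hin
  have hZpd : PdLT A Z (ν + 1) :=
    pd_of_retract_pi 𝒲 h𝒲 ν hν ρ (e₂.toLinearMap ∘ₗ i₀ ∘ₗ Z.subtype)
      (pZ ∘ₗ p₀ ∘ₗ e₂.symm.toLinearMap) (by
        ext z
        have h1 := LinearMap.congr_fun hp₀ (z : KT)
        simp only [LinearMap.comp_apply, LinearMap.id_apply] at h1
        simp only [LinearMap.comp_apply, LinearEquiv.coe_coe, LinearEquiv.symm_apply_apply,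
          Submodule.subtype_apply, LinearMap.id_apply]
        rw [h1, hpZ]) ⟨m, hZm⟩
  -- Step 6
  have hfin := hZ (ν + 1) (by omega) hZpd
  exact (sC.pdLT_iff (ν + 1)).mpr hfin

/-- Variant of `it_key` for modules isomorphic to finite products of members of the family. -/
theorem it_key' {ι : Type} [Fintype ι] (V : ι → ModuleCat.{u} A) [∀ i, Module.Finite A (V i)] :
    ∃ N : ℕ, ∀ (κ κ' : Type) [Fintype κ] [Fintype κ'] (σ : κ → ι) (τ : κ' → ι)
      (X Y C : ModuleCat.{u} A) (_ : X ≃ₗ[A] Pw V σ) (_ : Y ≃ₗ[A] Pw V τ)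
      (f : X →ₗ[A] Y) (g : Y →ₗ[A] C),
      Function.Injective f → Function.Exact f g → Function.Surjective g →
      (∃ d, PdLT A C d) → PdLT A C (N + 1) := by
  obtain ⟨N, hN⟩ := it_key V
  refine ⟨N, ?_⟩
  intro κ κ' _ _ σ τ X Y C eX eY f g hf hfg hg hC
  refine hN κ κ' σ τ C (eY.toLinearMap ∘ₗ f ∘ₗ eX.symm.toLinearMap) (g ∘ₗ eY.symm.toLinearMap)
    (eY.injective.comp (hf.comp eX.symm.injective)) ?_ (hg.comp eY.symm.surjective) hC
  intro y
  have := hfg (eY.symm y)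
  constructor
  · intro hy
    obtain ⟨x, hx⟩ := this.mp hy
    exact ⟨eX x, by simp [hx]⟩
  · rintro ⟨x, rfl⟩
    simp only [LinearMap.comp_apply, LinearEquiv.coe_coe, LinearEquiv.symm_apply_apply]
    exact hfg.apply_apply_eq_zero _

end Vale.Agent.H47.Findim
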