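import Vale.Agent.H47.Findim.Final

/-!
# Radical layers, semisimple modules and subquotients of a chain of submodules
-/

universe u

namespace Vale.Agent.H47.Findim

open CategoryTheory

variable {A : Type u} [Ring A]

section semisimple

theorem semisimple_of_killed [IsArtinianRing A] (X : Type u) [AddCommGroup X] [Module A X]
    (h : ∀ r ∈ Ring.jacobson A, ∀ x : X, r • x = 0) : IsSemisimpleModule A X := by
  have h' : Module.IsTorsionBySet A X (Ring.jacobson A) := by
    intro x r
    exact h r.1 r.2 x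
  let _ := h'.module
  exact (h'.semilinearMap.isSemisimpleModule_iff_of_bijective Function.bijective_id).2
    inferInstance

theorem exists_retraction_of_semisimple {X Y : Type u} [AddCommGroup X] [Module A X]
    [AddCommGroup Y] [Module A Y] [IsSemisimpleModule A Y] (i : X →ₗ[A] Y)
    (hi : Function.Injective i) : ∃ p : Y →ₗ[A] X, p ∘ₗ i = LinearMap.id := by
  obtain ⟨C, hC⟩ := exists_isCompl (LinearMap.range i)
  let e : X ≃ₗ[A] LinearMap.range i := LinearEquiv.ofInjective i hi
  refine ⟨e.symm.toLinearMap ∘ₗ Submodule.projectionOnto _ _ hC, ?_⟩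
  ext x
  have h1 : Submodule.projectionOnto _ _ hC (i x) = e x := by
    have := Submodule.projectionOnto_apply_left hC (e x)
    rw [← this]
    rfl
  simp only [LinearMap.comp_apply, LinearEquiv.coe_coe, LinearMap.id_apply]
  rw [h1, LinearEquiv.symm_apply_apply]

theorem exists_section_of_semisimple {W Y : Type u} [AddCommGroup W] [Module A W]
    [AddCommGroup Y] [Module A Y] [IsSemisimpleModule A W] (q : W →ₗ[A] Y)
    (hq : Function.Surjective q) : ∃ s : Y →ₗ[A] W, q ∘ₗ s = LinearMap.id := by
  obtain ⟨C, hC⟩ := exists_isCompl (LinearMap.ker q)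
  let qC : C →ₗ[A] Y := q ∘ₗ C.subtype
  have hinj : Function.Injective qC := by
    rw [← LinearMap.ker_eq_bot, LinearMap.ker_eq_bot']
    intro c hc
    have h1 : (c : W) ∈ LinearMap.ker q := hc
    have h2 : (c : W) ∈ LinearMap.ker q ⊓ C := ⟨h1, c.2⟩
    rw [hC.inf_eq_bot] at h2
    exact Subtype.ext h2
  have hsurj : Function.Surjective qC := by
    intro y
    obtain ⟨w, rfl⟩ := hq y
    have : w ∈ LinearMap.ker q ⊔ C := by rw [hC.sup_eq_top]; trivial
    obtain ⟨k, hk, c, hc, rfl⟩ := Submodule.mem_sup.mp this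
    refine ⟨⟨c, hc⟩, ?_⟩
    show q c = q (k + c)
    rw [map_add, LinearMap.mem_ker.mp hk, zero_add]
  let e : C ≃ₗ[A] Y := LinearEquiv.ofBijective qC ⟨hinj, hsurj⟩
  refine ⟨C.subtype ∘ₗ e.symm.toLinearMap, ?_⟩
  ext y
  show qC (e.symm y) = y
  exact e.apply_symm_apply y

end semisimple

section jac

/-- The `i`-th radical layer `rad^i A / rad^(i+1) A` of the ring, as a left module. -/
abbrev Lay (A : Type u) [Ring A] (i : ℕ) : Type u :=
  ↥(Ring.jacobson A ^ i) ⧸ (Ring.jacobson A ^ (i + 1)).submoduleOf (Ring.jacobson A ^ i)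

theorem jac_mul_mem {r a : A} {i : ℕ} (hr : r ∈ Ring.jacobson A) (ha : a ∈ Ring.jacobson A ^ i) :
    r * a ∈ Ring.jacobson A ^ (i + 1) := by
  have h : r * a ∈ Ring.jacobson A * Ring.jacobson A ^ i := Ideal.mul_mem_mul hr ha
  rcases Nat.eq_zero_or_pos i with rfl | hi
  · rw [zero_add, Submodule.pow_one]
    exact Ideal.mul_le_left h
  · have h2 : Ring.jacobson A ^ (i + 1) = Ring.jacobson A * Ring.jacobson A ^ i :=
      Submodule.pow_succ' (M := Ring.jacobson A) (n := i) (by omega)
    rw [h2]
    exact h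

theorem jac_pow_succ_le (i : ℕ) : Ring.jacobson A ^ (i + 1) ≤ Ring.jacobson A ^ i := by
  rw [Submodule.pow_succ]
  exact Ideal.mul_le_left

theorem jac_pow_anti {i j : ℕ} (h : i ≤ j) : Ring.jacobson A ^ j ≤ Ring.jacobson A ^ i := by
  induction j, h using Nat.le_induction with
  | base => exact le_rfl
  | succ j _ ih => exact (jac_pow_succ_le j).trans ih

theorem jac_nilpotent [IsArtinianRing A] : ∃ n : ℕ, Ring.jacobson A ^ n = ⊥ := by
  obtain ⟨n, hn⟩ := IsArtinianRing.isNilpotent_jacobson_bot (R := A)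
  refine ⟨n, ?_⟩
  rw [← Ideal.jacobson_bot]
  exact hn

theorem lay_killed (i : ℕ) {r : A} (hr : r ∈ Ring.jacobson A) (y : Lay A i) : r • y = 0 := by
  induction y using Submodule.Quotient.induction_on with
  | H a =>
    rw [← Submodule.Quotient.mk_smul, Submodule.Quotient.mk_eq_zero]
    show ((r • a : ↥(Ring.jacobson A ^ i)) : A) ∈ Ring.jacobson A ^ (i + 1)
    exact jac_mul_mem hr a.2

end jac

section retract

variable [IsArtinianRing A]

/-- A module which is the image of `(rad^i)^m` under a map killing `(rad^(i+1))^m` is a retract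
of the `m`-th power of the `i`-th radical layer. -/
theorem layer_retract (i : ℕ) {X : Type u} [AddCommGroup X] [Module A X] (m : ℕ)
    (Ψ : (Fin m → ↥(Ring.jacobson A ^ i)) →ₗ[A] X) (hΨ : Function.Surjective Ψ)
    (hkill : ∀ (k : Fin m) (a : ↥(Ring.jacobson A ^ i)), (a : A) ∈ Ring.jacobson A ^ (i + 1) →
      Ψ (Pi.single k a) = 0) :
    ∃ (s : X →ₗ[A] (Fin m → Lay A i)) (r : (Fin m → Lay A i) →ₗ[A] X),
      r ∘ₗ s = LinearMap.id := by
  classical
  let φ : Fin m → (↥(Ring.jacobson A ^ i) →ₗ[A] X) := fun k =>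
    Ψ ∘ₗ LinearMap.single A (fun _ : Fin m => ↥(Ring.jacobson A ^ i)) k
  have hφ : ∀ k, (Ring.jacobson A ^ (i + 1)).submoduleOf (Ring.jacobson A ^ i) ≤
      LinearMap.ker (φ k) := by
    intro k a ha
    rw [LinearMap.mem_ker]
    exact hkill k a ha
  let φ' : Fin m → (Lay A i →ₗ[A] X) := fun k => Submodule.liftQ _ (φ k) (hφ k)
  let r : (Fin m → Lay A i) →ₗ[A] X := ∑ k, φ' k ∘ₗ LinearMap.proj k
  have hr : Function.Surjective r := by
    intro y
    obtain ⟨a, rfl⟩ := hΨ y
    refine ⟨fun k => Submodule.Quotient.mk (a k), ?_⟩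
    have h1 : ∀ k, (φ' k ∘ₗ LinearMap.proj k) (fun k => Submodule.Quotient.mk (a k)) =
        Ψ (Pi.single k (a k)) := fun k => rfl
    show (∑ k, φ' k ∘ₗ LinearMap.proj k) (fun k => Submodule.Quotient.mk (a k)) = Ψ a
    rw [LinearMap.sum_apply]
    simp only [h1]
    rw [← map_sum, Finset.univ_sum_single]
  have hss : IsSemisimpleModule A (Fin m → Lay A i) :=
    semisimple_of_killed _ (fun r hr v => funext fun k => lay_killed i hr (v k))
  obtain ⟨s, hs⟩ := exists_section_of_semisimple r hr
  exact ⟨s, r, hs⟩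

omit [IsArtinianRing A] in
theorem lin_eq_sum {P : Type u} [AddCommGroup P] [Module A P] {m : ℕ}
    (f : (Fin m → A) →ₗ[A] P) (c : Fin m → A) :
    f c = ∑ k, c k • f (Pi.single k 1) := by
  classical
  have h : c = ∑ k, c k • (Pi.single k 1 : Fin m → A) := by
    funext j
    simp [Finset.sum_apply, Pi.single_apply]
  conv_lhs => rw [h]
  rw [map_sum]
  simp only [map_smul]

/-- A finitely generated module killed by the radical is a retract of a power of `A / rad A`. -/
theorem killed_retract {X : Type u} [AddCommGroup X] [Module A X] [Module.Finite A X]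
    (hX : ∀ r ∈ Ring.jacobson A, ∀ x : X, r • x = 0) :
    ∃ (m : ℕ) (s : X →ₗ[A] (Fin m → Lay A 0)) (r : (Fin m → Lay A 0) →ₗ[A] X),
      r ∘ₗ s = LinearMap.id := by
  classical
  obtain ⟨m, f, hf⟩ := Module.Finite.exists_fin' A X
  let incl : (Fin m → ↥(Ring.jacobson A ^ 0)) →ₗ[A] (Fin m → A) :=
    LinearMap.pi fun k => (Ring.jacobson A ^ 0).subtype ∘ₗ LinearMap.proj k
  refine ⟨m, layer_retract 0 m (f ∘ₗ incl) ?_ ?_⟩
  · intro y
    obtain ⟨c, rfl⟩ := hf y
    refine ⟨fun k => ⟨c k, ?_⟩, rfl⟩
    rw [Submodule.pow_zero, Ideal.one_eq_top]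
    trivial
  · intro k a ha
    rw [zero_add, Submodule.pow_one] at ha
    have h1 : incl (Pi.single k a) = (a : A) • (Pi.single k 1 : Fin m → A) := by
      funext j
      by_cases hj : j = k
      · subst hj
        simp [incl]
      · simp [incl, hj]
    show f (incl (Pi.single k a)) = 0
    rw [h1, map_smul]
    exact hX _ ha _

/-- The `i`-th radical layer of a finitely generated module is a retract of a power of the
`i`-th radical layer of the ring. -/
theorem layerP_retract (P : Type u) [AddCommGroup P] [Module A P] [Module.Finite A P] (i : ℕ) :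
    (∀ r ∈ Ring.jacobson A, ∀ y : ↥(Ring.jacobson A ^ i • ⊤ : Submodule A P) ⧸
        (Ring.jacobson A ^ (i + 1) • ⊤ : Submodule A P).submoduleOf
          (Ring.jacobson A ^ i • ⊤ : Submodule A P), r • y = 0) ∧
    ∃ (m : ℕ) (s : (↥(Ring.jacobson A ^ i • ⊤ : Submodule A P) ⧸
        (Ring.jacobson A ^ (i + 1) • ⊤ : Submodule A P).submoduleOf
          (Ring.jacobson A ^ i • ⊤ : Submodule A P)) →ₗ[A] (Fin m → Lay A i))
      (r : (Fin m → Lay A i) →ₗ[A] (↥(Ring.jacobson A ^ i • ⊤ : Submodule A P) ⧸
        (Ring.jacobson A ^ (i + 1) • ⊤ : Submodule A P).submoduleOf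
          (Ring.jacobson A ^ i • ⊤ : Submodule A P))), r ∘ₗ s = LinearMap.id := by
  classical
  have hkilled : ∀ r ∈ Ring.jacobson A, ∀ y : ↥(Ring.jacobson A ^ i • ⊤ : Submodule A P) ⧸
        (Ring.jacobson A ^ (i + 1) • ⊤ : Submodule A P).submoduleOf
          (Ring.jacobson A ^ i • ⊤ : Submodule A P), r • y = 0 := by
    intro r hr y
    induction y using Submodule.Quotient.induction_on with
    | H p =>
      rw [← Submodule.Quotient.mk_smul, Submodule.Quotient.mk_eq_zero]
      show r • (p : P) ∈ (Ring.jacobson A ^ (i + 1) • ⊤ : Submodule A P)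
      refine Submodule.smul_induction_on p.2 (fun a ha n _ => ?_) (fun x y hx hy => ?_)
      · rw [← mul_smul]
        exact Submodule.smul_mem_smul (jac_mul_mem hr ha) trivial
      · rw [smul_add]
        exact add_mem hx hy
  refine ⟨hkilled, ?_⟩
  obtain ⟨m, f, hf⟩ := Module.Finite.exists_fin' A P
  let incl : (Fin m → ↥(Ring.jacobson A ^ i)) →ₗ[A] (Fin m → A) :=
    LinearMap.pi fun k => (Ring.jacobson A ^ i).subtype ∘ₗ LinearMap.proj k
  have hmem : ∀ a, (f ∘ₗ incl) a ∈ (Ring.jacobson A ^ i • ⊤ : Submodule A P) := by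
    intro a
    show f (incl a) ∈ _
    rw [lin_eq_sum]
    exact Submodule.sum_mem _ fun k _ => Submodule.smul_mem_smul (a k).2 trivial
  let Ψ₀ : (Fin m → ↥(Ring.jacobson A ^ i)) →ₗ[A] ↥(Ring.jacobson A ^ i • ⊤ : Submodule A P) :=
    (f ∘ₗ incl).codRestrict _ hmem
  have hΨ₀ : Function.Surjective Ψ₀ := by
    rintro ⟨p, hp⟩
    suffices h : ∃ a, f (incl a) = p by
      obtain ⟨a, ha⟩ := h
      exact ⟨a, Subtype.ext ha⟩
    refine Submodule.smul_induction_on hp (fun r hr n _ => ?_) (fun x y hx hy => ?_)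
    · obtain ⟨c, rfl⟩ := hf n
      refine ⟨fun k => ⟨r * c k, Ideal.mul_mem_right _ _ hr⟩, ?_⟩
      rw [← map_smul]
      rfl
    · obtain ⟨a, rfl⟩ := hx
      obtain ⟨b, rfl⟩ := hy
      exact ⟨a + b, by rw [map_add, map_add]⟩
  obtain ⟨s, r, hsr⟩ := layer_retract i m
    (Submodule.mkQ ((Ring.jacobson A ^ (i + 1) • ⊤ : Submodule A P).submoduleOf
      (Ring.jacobson A ^ i • ⊤ : Submodule A P)) ∘ₗ Ψ₀)
    ((Submodule.mkQ_surjective _).comp hΨ₀) (by
      intro k a ha
      show Submodule.Quotient.mk (Ψ₀ (Pi.single k a)) = 0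
      rw [Submodule.Quotient.mk_eq_zero]
      show f (incl (Pi.single k a)) ∈ (Ring.jacobson A ^ (i + 1) • ⊤ : Submodule A P)
      have h1 : incl (Pi.single k a) = (a : A) • (Pi.single k 1 : Fin m → A) := by
        funext j
        by_cases hj : j = k
        · subst hj
          simp [incl]
        · simp [incl, hj]
      rw [h1, map_smul]
      exact Submodule.smul_mem_smul ha trivial)
  exact ⟨m, s, r, hsr⟩

end retract

section subq

variable {M : Type u} [AddCommGroup M] [Module A M]

/-- The subquotient `C / E` of two submodules of a module. -/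
abbrev SubQ (C E : Submodule A M) : Type u := ↥C ⧸ E.submoduleOf C

theorem subq_subsingleton {C E : Submodule A M} (h : C ≤ E) : Subsingleton (SubQ C E) := by
  refine ⟨fun x y => ?_⟩
  induction x using Submodule.Quotient.induction_on with
  | H x =>
    induction y using Submodule.Quotient.induction_on with
    | H y =>
      rw [Submodule.Quotient.eq]
      show ((x - y : ↥C) : M) ∈ E
      exact h (x - y).2

/-- The short exact sequence `0 → D/E → C/E → C/D → 0` for submodules `E ≤ D ≤ C`. -/
theorem subq_ses {C D E : Submodule A M} (hDC : D ≤ C) (hED : E ≤ D) :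
    ∃ (f : SubQ D E →ₗ[A] SubQ C E) (g : SubQ C E →ₗ[A] SubQ C D),
      Function.Injective f ∧ Function.Exact f g ∧ Function.Surjective g := by
  have h1 : E.submoduleOf D ≤ (E.submoduleOf C).comap (Submodule.inclusion hDC) := by
    intro x hx
    exact hx
  have h2 : E.submoduleOf C ≤ (D.submoduleOf C).comap LinearMap.id := by
    intro x hx
    exact hED hx
  refine ⟨Submodule.mapQ _ _ (Submodule.inclusion hDC) h1, Submodule.mapQ _ _ LinearMap.id h2,
    ?_, ?_, ?_⟩
  · rw [← LinearMap.ker_eq_bot, LinearMap.ker_eq_bot']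
    intro x hx
    induction x using Submodule.Quotient.induction_on with
    | H x =>
      rw [Submodule.mapQ_apply, Submodule.Quotient.mk_eq_zero] at hx
      rw [Submodule.Quotient.mk_eq_zero]
      exact hx
  · intro y
    induction y using Submodule.Quotient.induction_on with
    | H y =>
      constructor
      · intro hy
        rw [Submodule.mapQ_apply, Submodule.Quotient.mk_eq_zero] at hy
        have hyD : (y : M) ∈ D := hy
        exact ⟨Submodule.Quotient.mk ⟨(y : M), hyD⟩, rfl⟩
      · rintro ⟨x, hx⟩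
        induction x using Submodule.Quotient.induction_on with
        | H x =>
          rw [← hx, Submodule.mapQ_apply, Submodule.mapQ_apply, Submodule.Quotient.mk_eq_zero]
          exact x.2
  · intro y
    induction y using Submodule.Quotient.induction_on with
    | H y => exact ⟨Submodule.Quotient.mk y, rfl⟩

/-- Along a decreasing chain of submodules, a bound for the projective dimension of the layers
gives the same bound for the subquotients. -/
theorem subq_chain (D : ℕ → Submodule A M) (hD : ∀ l, D (l + 1) ≤ D l) (n : ℕ) (i j : ℕ)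
    (hij : i ≤ j) (h : ∀ l, i ≤ l → l < j → PdLT A (SubQ (D l) (D (l + 1))) n) :
    PdLT A (SubQ (D i) (D j)) n := by
  have hanti : ∀ a b, a ≤ b → D b ≤ D a := by
    intro a b hab
    induction b, hab using Nat.le_induction with
    | base => exact le_rfl
    | succ b _ ih => exact (hD b).trans ih
  induction j, hij using Nat.le_induction with
  | base =>
    have := subq_subsingleton (A := A) (C := D i) (E := D i) le_rfl
    exact PdLT.of_subsingleton n
  | succ j hj ih =>
    obtain ⟨f, g, hf, hfg, hg⟩ := subq_ses (A := A) (C := D i) (D := D j) (E := D (j + 1))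
      (hanti i j hj) (hD j)
    exact PdLT.ses_mid hf hfg hg (h j hj (Nat.lt_succ_self j))
      (ih fun l hl hlj => h l hl (Nat.lt_succ_of_lt hlj))

end subq

end Vale.Agent.H47.Findim
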