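import Mathlib

/-!
# Projective dimension of modules: unbundled wrapper

`PdLT A M n` says that the `A`-module `M` has projective dimension `< n`, phrased through
Mathlib's `CategoryTheory.HasProjectiveDimensionLT` on `ModuleCat A`.
-/

namespace Vale.Agent.H47.Findim

open CategoryTheory

universe u

variable {A : Type u} [Ring A]


/-- `PdLT A M n`: the module `M` has projective dimension `< n`. -/
def PdLT (A : Type u) [Ring A] (M : Type u) [AddCommGroup M] [Module A M] (n : ℕ) : Prop :=
  HasProjectiveDimensionLT (ModuleCat.of A M) n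

variable {M N X Y Z : Type u} [AddCommGroup M] [Module A M] [AddCommGroup N] [Module A N]
  [AddCommGroup X] [Module A X] [AddCommGroup Y] [Module A Y] [AddCommGroup Z] [Module A Z]

theorem PdLT.mono {n m : ℕ} (h : PdLT A M n) (hnm : n ≤ m) : PdLT A M m := by
  unfold PdLT at *
  exact hasProjectiveDimensionLT_of_ge _ n m hnm

theorem PdLT.of_equiv {n : ℕ} (e : M ≃ₗ[A] N) (h : PdLT A M n) : PdLT A N n := by
  unfold PdLT at *
  exact hasProjectiveDimensionLT_of_iso e.toModuleIso n

theorem PdLT.of_retract {n : ℕ} (i : Z →ₗ[A] X) (p : X →ₗ[A] Z) (hpi : p ∘ₗ i = LinearMap.id)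
    (h : PdLT A X n) : PdLT A Z n := by
  unfold PdLT at *
  have r : Retract (ModuleCat.of A Z) (ModuleCat.of A X) :=
    { i := ModuleCat.ofHom i
      r := ModuleCat.ofHom p
      retract := by
        rw [← ModuleCat.ofHom_comp, hpi]; rfl }
  exact r.hasProjectiveDimensionLT n

theorem PdLT.of_projective [Module.Projective A M] : PdLT A M 1 := by
  unfold PdLT
  have : Projective (ModuleCat.of A M) := (IsProjective.iff_projective M).mp inferInstance
  infer_instance

theorem PdLT.projective (h : PdLT A M 1) : Module.Projective A M := by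
  unfold PdLT at h
  exact (IsProjective.iff_projective M).mpr (projective_iff_hasProjectiveDimensionLT_one.mpr h)

theorem PdLT.of_subsingleton [Subsingleton M] (n : ℕ) : PdLT A M n := by
  unfold PdLT
  have : Limits.IsZero (ModuleCat.of A M) := ModuleCat.isZero_of_subsingleton _
  have := this.hasProjectiveDimensionLT_zero
  exact hasProjectiveDimensionLT_of_ge _ 0 n (Nat.zero_le _)

section ses
variable {f : X →ₗ[A] Y} {g : Y →ₗ[A] Z}

theorem shortExact_of (hf : Function.Injective f) (hfg : Function.Exact f g)
    (hg : Function.Surjective g) :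
    (ShortComplex.mk (ModuleCat.ofHom f) (ModuleCat.ofHom g)
      (by rw [← ModuleCat.ofHom_comp, hfg.linearMap_comp_eq_zero]; rfl)).ShortExact :=
  ModuleCat.shortComplex_shortExact _ hfg hf hg

theorem PdLT.ses_mid {n : ℕ} (hf : Function.Injective f) (hfg : Function.Exact f g)
    (hg : Function.Surjective g) (h1 : PdLT A X n) (h3 : PdLT A Z n) : PdLT A Y n :=
  (shortExact_of hf hfg hg).hasProjectiveDimensionLT_X₂ n h1 h3

theorem PdLT.ses_right {n : ℕ} (hf : Function.Injective f) (hfg : Function.Exact f g)
    (hg : Function.Surjective g) (h1 : PdLT A X n) (h2 : PdLT A Y (n + 1)) : PdLT A Z (n + 1) :=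
  (shortExact_of hf hfg hg).hasProjectiveDimensionLT_X₃ n h1 h2

theorem PdLT.ses_left {n : ℕ} (hf : Function.Injective f) (hfg : Function.Exact f g)
    (hg : Function.Surjective g) (h2 : PdLT A Y n) (h3 : PdLT A Z (n + 1)) : PdLT A X n :=
  (shortExact_of hf hfg hg).hasProjectiveDimensionLT_X₁ n h2 h3

end ses

theorem PdLT.prod {n : ℕ} (h1 : PdLT A M n) (h2 : PdLT A N n) : PdLT A (M × N) n :=
  PdLT.ses_mid (f := LinearMap.inl A M N) (g := LinearMap.snd A M N)
    LinearMap.inl_injective (fun x => by
      constructor
      · intro hx; exact ⟨x.1, Prod.ext rfl (by simpa using hx.symm)⟩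
      · rintro ⟨y, rfl⟩; simp) LinearMap.snd_surjective h1 h2

theorem PdLT.pi {ι : Type} [Finite ι] {T : ι → Type u} [∀ i, AddCommGroup (T i)]
    [∀ i, Module A (T i)] {n : ℕ} (h : ∀ i, PdLT A (T i) n) : PdLT A (∀ i, T i) n := by
  classical
  induction ι using Finite.induction_empty_option with
  | of_equiv e ih =>
    rename_i α β
    have := ih (T := fun a => T (e a)) (fun a => h (e a))
    exact PdLT.of_equiv (LinearEquiv.piCongrLeft A T e) this
  | h_empty => exact PdLT.of_subsingleton n
  | h_option ih =>
    rename_i α _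
    have := ih (T := fun a => T (some a)) (fun a => h (some a))
    exact PdLT.of_equiv (LinearEquiv.piOptionEquivProd A).symm (PdLT.prod (h none) this)

end Vale.Agent.H47.Findim
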