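import Vale.Agent.H47.Findim.Core

/-!
# Finite products over a family, multiplicity vectors, roofs and stabilisation
-/

universe u

namespace Vale.Agent.H47.Findim

variable {A : Type u} [Ring A]

section count
variable {ι : Type}

open Classical in
/-- Multiplicity vector of a finite family of indices. -/
noncomputable def cnt {κ : Type} [Fintype κ] (σ : κ → ι) : ι → ℤ :=
  fun i => ∑ k, if σ k = i then (1 : ℤ) else 0

open Classical in
theorem cnt_sum {κ κ' : Type} [Fintype κ] [Fintype κ'] (σ : κ → ι) (τ : κ' → ι) :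
    cnt (Sum.elim σ τ) = cnt σ + cnt τ := by
  funext i
  show (∑ k : κ ⊕ κ', if Sum.elim σ τ k = i then (1 : ℤ) else 0) =
    (∑ k, if σ k = i then (1 : ℤ) else 0) + ∑ k, if τ k = i then (1 : ℤ) else 0
  rw [Fintype.sum_sum_type]
  rfl

open Classical in
theorem cnt_eq_card {κ : Type} [Fintype κ] (σ : κ → ι) (i : ι) :
    cnt σ i = (Fintype.card {k // σ k = i} : ℤ) := by
  rw [Fintype.card_subtype, Finset.card_filter]
  simp [cnt]

theorem exists_equiv_of_cnt_eq {κ κ' : Type} [Fintype κ] [Fintype κ'] (σ : κ → ι) (τ : κ' → ι)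
    (h : cnt σ = cnt τ) : ∃ e : κ ≃ κ', σ = τ ∘ e := by
  classical
  have hc : ∀ i, Fintype.card {k // σ k = i} = Fintype.card {k // τ k = i} := by
    intro i
    have := congrFun h i
    rw [cnt_eq_card, cnt_eq_card] at this
    exact_mod_cast this
  let E : ∀ i, {k // σ k = i} ≃ {k // τ k = i} := fun i => Fintype.equivOfCardEq (hc i)
  refine ⟨(Equiv.sigmaFiberEquiv σ).symm.trans
    ((Equiv.sigmaCongrRight E).trans (Equiv.sigmaFiberEquiv τ)), ?_⟩
  funext k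
  exact ((E (σ k) ⟨k, rfl⟩).2).symm

end count

/-- The product of the members `V (σ k)` of a family. -/
abbrev Pw {ι : Type} (V : ι → ModuleCat.{u} A) {κ : Type} (σ : κ → ι) : Type u :=
  ∀ k, V (σ k)

section pw
variable {ι : Type} (V : ι → ModuleCat.{u} A)

theorem pw_equiv_of_cnt_eq {κ κ' : Type} [Fintype κ] [Fintype κ'] (σ : κ → ι) (τ : κ' → ι)
    (h : cnt σ = cnt τ) : Nonempty (Pw V σ ≃ₗ[A] Pw V τ) := by
  obtain ⟨e, rfl⟩ := exists_equiv_of_cnt_eq σ τ h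
  exact ⟨LinearEquiv.piCongrLeft A (fun k' => V (τ k')) e⟩

/-- Products over a disjoint union. -/
def pwSum {κ κ' : Type} (σ : κ → ι) (τ : κ' → ι) :
    Pw V (Sum.elim σ τ) ≃ₗ[A] Pw V σ × Pw V τ :=
  LinearEquiv.sumPiEquivProdPi A κ κ' (fun k => V (Sum.elim σ τ k))

end pw

/-- `Roof A n X Y`: injections `X → U ← Y` into a finitely generated module, with cokernels of
projective dimension at most `n`. -/
def Roof (A : Type u) [Ring A] (n : ℕ) (X Y : Type u) [AddCommGroup X] [Module A X]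
    [AddCommGroup Y] [Module A Y] : Prop :=
  ∃ (U DX DY : ModuleCat.{u} A) (α : X →ₗ[A] U) (pα : U →ₗ[A] DX) (β : Y →ₗ[A] U)
    (pβ : U →ₗ[A] DY),
    Module.Finite A U ∧ Function.Injective α ∧ Function.Exact α pα ∧ Function.Surjective pα ∧
      PdLT A DX (n + 1) ∧
      Function.Injective β ∧ Function.Exact β pβ ∧ Function.Surjective pβ ∧ PdLT A DY (n + 1)

section roof
variable {X Y X' Y' C : Type u} [AddCommGroup X] [Module A X] [AddCommGroup Y] [Module A Y]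
  [AddCommGroup X'] [Module A X'] [AddCommGroup Y'] [Module A Y'] [AddCommGroup C] [Module A C]

theorem Roof.of_ses {n : ℕ} [Module.Finite A Y] (f : X →ₗ[A] Y) (g : Y →ₗ[A] C)
    (hf : Function.Injective f) (hfg : Function.Exact f g) (hg : Function.Surjective g)
    (hC : PdLT A C (n + 1)) : Roof A n X Y := by
  refine ⟨ModuleCat.of A Y, ModuleCat.of A C, ModuleCat.of A PUnit.{u + 1}, f, g, LinearMap.id,
    0, ‹_›, hf, hfg, hg, hC, Function.injective_id, ?_, ?_, PdLT.of_subsingleton _⟩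
  · intro y
    exact ⟨fun _ => ⟨y, rfl⟩, fun _ => rfl⟩
  · intro z
    exact ⟨0, Subsingleton.elim _ _⟩

theorem Roof.refl {n : ℕ} (X : Type u) [AddCommGroup X] [Module A X] [Module.Finite A X] :
    Roof A n X X :=
  Roof.of_ses (C := PUnit.{u + 1}) LinearMap.id 0 Function.injective_id
    (fun y => ⟨fun _ => ⟨y, rfl⟩, fun _ => rfl⟩) (fun _ => ⟨0, Subsingleton.elim _ _⟩)
    (PdLT.of_subsingleton _)

theorem Roof.symm {n : ℕ} (h : Roof A n X Y) : Roof A n Y X := by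
  obtain ⟨U, DX, DY, α, pα, β, pβ, hU, h1, h2, h3, h4, h5, h6, h7, h8⟩ := h
  exact ⟨U, DY, DX, β, pβ, α, pα, hU, h5, h6, h7, h8, h1, h2, h3, h4⟩

theorem Roof.mono {n m : ℕ} (h : Roof A n X Y) (hnm : n ≤ m) : Roof A m X Y := by
  obtain ⟨U, DX, DY, α, pα, β, pβ, hU, h1, h2, h3, h4, h5, h6, h7, h8⟩ := h
  exact ⟨U, DX, DY, α, pα, β, pβ, hU, h1, h2, h3, h4.mono (by omega), h5, h6, h7,
    h8.mono (by omega)⟩

theorem Roof.congr {n : ℕ} (h : Roof A n X Y) (eX : X ≃ₗ[A] X') (eY : Y ≃ₗ[A] Y') :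
    Roof A n X' Y' := by
  obtain ⟨U, DX, DY, α, pα, β, pβ, hU, h1, h2, h3, h4, h5, h6, h7, h8⟩ := h
  refine ⟨U, DX, DY, α ∘ₗ eX.symm.toLinearMap, pα, β ∘ₗ eY.symm.toLinearMap, pβ, hU,
    h1.comp eX.symm.injective, ?_, h3, h4, h5.comp eY.symm.injective, ?_, h7, h8⟩
  · intro u
    rw [h2 u]
    constructor
    · rintro ⟨x, rfl⟩; exact ⟨eX x, by simp⟩
    · rintro ⟨x, rfl⟩; exact ⟨eX.symm x, rfl⟩
  · intro u
    rw [h6 u]
    constructor
    · rintro ⟨x, rfl⟩; exact ⟨eY x, by simp⟩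
    · rintro ⟨x, rfl⟩; exact ⟨eY.symm x, rfl⟩

theorem exact_prodMap {X₁ X₂ Y₁ Y₂ Z₁ Z₂ : Type u} [AddCommGroup X₁] [Module A X₁]
    [AddCommGroup X₂] [Module A X₂] [AddCommGroup Y₁] [Module A Y₁] [AddCommGroup Y₂]
    [Module A Y₂] [AddCommGroup Z₁] [Module A Z₁] [AddCommGroup Z₂] [Module A Z₂]
    {f₁ : X₁ →ₗ[A] Y₁} {g₁ : Y₁ →ₗ[A] Z₁} {f₂ : X₂ →ₗ[A] Y₂} {g₂ : Y₂ →ₗ[A] Z₂}
    (h₁ : Function.Exact f₁ g₁) (h₂ : Function.Exact f₂ g₂) :
    Function.Exact (f₁.prodMap f₂) (g₁.prodMap g₂) := by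
  rintro ⟨y₁, y₂⟩
  constructor
  · intro h
    have e1 : g₁ y₁ = 0 := congrArg Prod.fst h
    have e2 : g₂ y₂ = 0 := congrArg Prod.snd h
    obtain ⟨x₁, hx₁⟩ := (h₁ y₁).mp e1
    obtain ⟨x₂, hx₂⟩ := (h₂ y₂).mp e2
    exact ⟨(x₁, x₂), Prod.ext hx₁ hx₂⟩
  · rintro ⟨⟨x₁, x₂⟩, hx⟩
    have e1 : f₁ x₁ = y₁ := congrArg Prod.fst hx
    have e2 : f₂ x₂ = y₂ := congrArg Prod.snd hx
    exact Prod.ext ((h₁ y₁).mpr ⟨x₁, e1⟩) ((h₂ y₂).mpr ⟨x₂, e2⟩)

theorem Roof.prod {n : ℕ} (h : Roof A n X Y) (h' : Roof A n X' Y') :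
    Roof A n (X × X') (Y × Y') := by
  obtain ⟨U, DX, DY, α, pα, β, pβ, hU, h1, h2, h3, h4, h5, h6, h7, h8⟩ := h
  obtain ⟨U', DX', DY', α', pα', β', pβ', hU', h1', h2', h3', h4', h5', h6', h7', h8'⟩ := h'
  refine ⟨ModuleCat.of A (U × U'), ModuleCat.of A (DX × DX'), ModuleCat.of A (DY × DY'),
    α.prodMap α', pα.prodMap pα', β.prodMap β', pβ.prodMap pβ', ?_, ?_, exact_prodMap h2 h2',
    ?_, PdLT.prod h4 h4', ?_, exact_prodMap h6 h6', ?_, PdLT.prod h8 h8'⟩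
  · show Module.Finite A (U × U')
    infer_instance
  · exact Function.Injective.prodMap h1 h1'
  · exact Function.Surjective.prodMap h3 h3'
  · exact Function.Injective.prodMap h5 h5'
  · exact Function.Surjective.prodMap h7 h7'

end roof

section ss
variable {ι : Type} (V : ι → ModuleCat.{u} A) [∀ i, Module.Finite A (V i)]

/-- Differences of multiplicity vectors of pairs of products admitting a roof of level `n`. -/
def SS (n : ℕ) : AddSubgroup (ι → ℤ) where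
  carrier := {v | ∃ (κ κ' : Type) (_ : Fintype κ) (_ : Fintype κ') (σ : κ → ι) (τ : κ' → ι),
      v = cnt σ - cnt τ ∧ Roof A n (Pw V σ) (Pw V τ)}
  zero_mem' := ⟨Empty, Empty, inferInstance, inferInstance, Empty.elim, Empty.elim, by simp,
    Roof.refl _⟩
  add_mem' := by
    rintro v w ⟨κ, κ', _, _, σ, τ, rfl, h⟩ ⟨κ₁, κ₁', _, _, σ₁, τ₁, rfl, h₁⟩
    refine ⟨κ ⊕ κ₁, κ' ⊕ κ₁', inferInstance, inferInstance, Sum.elim σ σ₁, Sum.elim τ τ₁, ?_,
      (h.prod h₁).congr (pwSum V σ σ₁).symm (pwSum V τ τ₁).symm⟩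
    rw [cnt_sum, cnt_sum]; abel
  neg_mem' := by
    rintro v ⟨κ, κ', _, _, σ, τ, rfl, h⟩
    exact ⟨κ', κ, inferInstance, inferInstance, τ, σ, by abel, h.symm⟩

theorem SS_mono {n m : ℕ} (h : n ≤ m) : SS V n ≤ SS V m := by
  rintro v ⟨κ, κ', _, _, σ, τ, rfl, hr⟩
  exact ⟨κ, κ', inferInstance, inferInstance, σ, τ, rfl, hr.mono h⟩

theorem SS_stabilizes [Finite ι] : ∃ n₀, ∀ m, n₀ ≤ m → SS V m = SS V n₀ := by
  let f : ℕ →o Submodule ℤ (ι → ℤ) :=
    ⟨fun n => AddSubgroup.toIntSubmodule (SS V n), fun n m h =>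
      AddSubgroup.toIntSubmodule.monotone (SS_mono V h)⟩
  obtain ⟨n, hn⟩ := monotone_stabilizes_iff_noetherian.mpr
    (inferInstance : IsNoetherian ℤ (ι → ℤ)) f
  exact ⟨n, fun m hm => AddSubgroup.toIntSubmodule.injective (hn m hm).symm⟩

end ss

/-- `InPw W Y`: `Y` is isomorphic to a finite product of members of the family `W`. -/
def InPw {J : Type} (W : J → ModuleCat.{u} A) (Y : Type u) [AddCommGroup Y] [Module A Y] :
    Prop :=
  ∃ (κ : Type) (_ : Fintype κ) (ρ : κ → J), Nonempty (Y ≃ₗ[A] Pw W ρ)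

section inpw
variable {J : Type} {W : J → ModuleCat.{u} A} {Y Y' : Type u} [AddCommGroup Y] [Module A Y]
  [AddCommGroup Y'] [Module A Y']

theorem InPw.of_equiv (h : InPw W Y) (e : Y ≃ₗ[A] Y') : InPw W Y' := by
  obtain ⟨κ, _, ρ, ⟨e'⟩⟩ := h
  exact ⟨κ, inferInstance, ρ, ⟨e.symm.trans e'⟩⟩

theorem InPw.self (j : J) : InPw W (W j) :=
  ⟨Unit, inferInstance, fun _ => j, ⟨(LinearEquiv.funUnique Unit A (W j)).symm⟩⟩

theorem InPw.of_subsingleton [Subsingleton Y] : InPw W Y :=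
  ⟨Empty, inferInstance, Empty.elim, ⟨
    { toFun := fun _ k => k.elim
      map_add' := fun _ _ => by funext k; exact k.elim
      map_smul' := fun _ _ => by funext k; exact k.elim
      invFun := fun _ => 0
      left_inv := fun x => Subsingleton.elim _ _
      right_inv := fun x => by funext k; exact k.elim }⟩⟩

theorem InPw.prod (h : InPw W Y) (h' : InPw W Y') : InPw W (Y × Y') := by
  obtain ⟨κ, _, ρ, ⟨e⟩⟩ := h
  obtain ⟨κ', _, ρ', ⟨e'⟩⟩ := h'
  exact ⟨κ ⊕ κ', inferInstance, Sum.elim ρ ρ', ⟨(e.prodCongr e').trans (pwSum W ρ ρ').symm⟩⟩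

theorem InPw.pi {κ : Type} [Finite κ] {T : κ → Type u} [∀ k, AddCommGroup (T k)]
    [∀ k, Module A (T k)] (h : ∀ k, InPw W (T k)) : InPw W (∀ k, T k) := by
  classical
  induction κ using Finite.induction_empty_option with
  | of_equiv e ih =>
    rename_i α β
    have := ih (T := fun a => T (e a)) (fun a => h (e a))
    exact this.of_equiv (LinearEquiv.piCongrLeft A T e)
  | h_empty => exact InPw.of_subsingleton
  | h_option ih =>
    rename_i α _
    have := ih (T := fun a => T (some a)) (fun a => h (some a))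
    exact ((h none).prod this).of_equiv (LinearEquiv.piOptionEquivProd A).symm

theorem InPw.map {J' : Type} (φ : J' → J) (h : InPw (fun j => W (φ j)) Y) : InPw W Y := by
  obtain ⟨κ, _, ρ, ⟨e⟩⟩ := h
  exact ⟨κ, inferInstance, φ ∘ ρ, ⟨e⟩⟩

end inpw

end Vale.Agent.H47.Findim
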