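import Vale.Agent.H47.Findim.PdBasic

/-!
# Maps factoring through finite free modules and stable equivalence
-/

universe u

namespace Vale.Agent.H47.Findim

variable {A : Type u} [Ring A]

section
variable {X Y Z : Type u} [AddCommGroup X] [Module A X] [AddCommGroup Y] [Module A Y]
  [AddCommGroup Z] [Module A Z]

/-- `FF φ`: the linear map `φ` factors through a finite free module. -/
def FF (φ : X →ₗ[A] Y) : Prop :=
  ∃ (κ : Type) (_ : Fintype κ) (a : X →ₗ[A] (κ → A)) (b : (κ → A) →ₗ[A] Y), φ = b ∘ₗ a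

theorem FF.zero : FF (0 : X →ₗ[A] Y) :=
  ⟨Empty, inferInstance, 0, 0, by simp⟩

theorem FF.comp_left {φ : X →ₗ[A] Y} (h : FF φ) (ψ : Y →ₗ[A] Z) : FF (ψ ∘ₗ φ) := by
  obtain ⟨κ, _, a, b, rfl⟩ := h
  exact ⟨κ, inferInstance, a, ψ ∘ₗ b, by rw [LinearMap.comp_assoc]⟩

theorem FF.comp_right {φ : Y →ₗ[A] Z} (h : FF φ) (ψ : X →ₗ[A] Y) : FF (φ ∘ₗ ψ) := by
  obtain ⟨κ, _, a, b, rfl⟩ := h
  exact ⟨κ, inferInstance, a ∘ₗ ψ, b, by rw [LinearMap.comp_assoc]⟩

theorem FF.add {φ ψ : X →ₗ[A] Y} (h1 : FF φ) (h2 : FF ψ) : FF (φ + ψ) := by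
  obtain ⟨κ, _, a, b, rfl⟩ := h1
  obtain ⟨κ', _, a', b', rfl⟩ := h2
  refine ⟨κ ⊕ κ', inferInstance,
    (LinearEquiv.sumArrowLequivProdArrow κ κ' A A).symm.toLinearMap ∘ₗ a.prod a',
    b.coprod b' ∘ₗ (LinearEquiv.sumArrowLequivProdArrow κ κ' A A).toLinearMap, ?_⟩
  ext x
  simp

theorem FF.neg {φ : X →ₗ[A] Y} (h : FF φ) : FF (-φ) := by
  obtain ⟨κ, _, a, b, rfl⟩ := h
  exact ⟨κ, inferInstance, -a, b, by ext x; simp⟩

theorem FF.sub {φ ψ : X →ₗ[A] Y} (h1 : FF φ) (h2 : FF ψ) : FF (φ - ψ) := by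
  rw [sub_eq_add_neg]
  exact h1.add h2.neg

theorem FF.sum {ι : Type*} (s : Finset ι) (φ : ι → (X →ₗ[A] Y)) (h : ∀ i ∈ s, FF (φ i)) :
    FF (∑ i ∈ s, φ i) := by
  classical
  induction s using Finset.induction_on with
  | empty => rw [Finset.sum_empty]; exact FF.zero
  | insert a s ha ih =>
    rw [Finset.sum_insert ha]
    exact (h a (Finset.mem_insert_self a s)).add
      (ih fun i hi => h i (Finset.mem_insert_of_mem hi))

/-- A map factoring through a finitely generated projective module factors through a finite free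
module. -/
theorem FF.of_factor (P : Type u) [AddCommGroup P] [Module A P] [Module.Projective A P]
    [Module.Finite A P] (a : X →ₗ[A] P) (b : P →ₗ[A] Y) : FF (b ∘ₗ a) := by
  obtain ⟨n, f, hf⟩ := Module.Finite.exists_fin' A P
  obtain ⟨s, hs⟩ := Module.projective_lifting_property f LinearMap.id hf
  refine ⟨Fin n, inferInstance, s ∘ₗ a, b ∘ₗ f, ?_⟩
  ext x
  have := LinearMap.congr_fun hs (a x)
  simp only [LinearMap.comp_apply, LinearMap.id_apply] at this ⊢
  rw [this]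

end

/-- Stable equivalence of modules: mutually inverse maps up to maps factoring through finite free
modules. -/
def StEq (A : Type u) [Ring A] (X Y : Type u) [AddCommGroup X] [Module A X] [AddCommGroup Y]
    [Module A Y] : Prop :=
  ∃ (t : X →ₗ[A] Y) (s : Y →ₗ[A] X), FF (LinearMap.id - s ∘ₗ t) ∧ FF (LinearMap.id - t ∘ₗ s)

section
variable {X Y Z : Type u} [AddCommGroup X] [Module A X] [AddCommGroup Y] [Module A Y]
  [AddCommGroup Z] [Module A Z]

theorem StEq.of_equiv (e : X ≃ₗ[A] Y) : StEq A X Y :=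
  ⟨e.toLinearMap, e.symm.toLinearMap, by
    have : (LinearMap.id : X →ₗ[A] X) - e.symm.toLinearMap ∘ₗ e.toLinearMap = 0 := by
      ext x; simp
    rw [this]; exact FF.zero, by
    have : (LinearMap.id : Y →ₗ[A] Y) - e.toLinearMap ∘ₗ e.symm.toLinearMap = 0 := by
      ext x; simp
    rw [this]; exact FF.zero⟩

theorem StEq.refl (X : Type u) [AddCommGroup X] [Module A X] : StEq A X X :=
  StEq.of_equiv (LinearEquiv.refl A X)

theorem StEq.symm (h : StEq A X Y) : StEq A Y X := by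
  obtain ⟨t, s, h1, h2⟩ := h
  exact ⟨s, t, h2, h1⟩

theorem StEq.trans (h : StEq A X Y) (h' : StEq A Y Z) : StEq A X Z := by
  obtain ⟨t, s, h1, h2⟩ := h
  obtain ⟨t', s', h1', h2'⟩ := h'
  refine ⟨t' ∘ₗ t, s ∘ₗ s', ?_, ?_⟩
  · have : (LinearMap.id : X →ₗ[A] X) - (s ∘ₗ s') ∘ₗ (t' ∘ₗ t) =
        (LinearMap.id - s ∘ₗ t) + s ∘ₗ (LinearMap.id - s' ∘ₗ t') ∘ₗ t := by
      ext x; simp
    rw [this]
    exact h1.add ((h1'.comp_right t).comp_left s)
  · have : (LinearMap.id : Z →ₗ[A] Z) - (t' ∘ₗ t) ∘ₗ (s ∘ₗ s') =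
        (LinearMap.id - t' ∘ₗ s') + t' ∘ₗ (LinearMap.id - t ∘ₗ s) ∘ₗ s' := by
      ext x; simp
    rw [this]
    exact h2'.add ((h2.comp_right s').comp_left t')

/-- If `X` and `Y` are stably equivalent then `Y` is a retract of `X × (κ → A)`. -/
theorem StEq.retract (h : StEq A X Y) :
    ∃ (κ : Type) (_ : Fintype κ) (i : Y →ₗ[A] X × (κ → A)) (p : X × (κ → A) →ₗ[A] Y),
      p ∘ₗ i = LinearMap.id := by
  obtain ⟨t, s, -, κ, _, a, b, hab⟩ := h
  refine ⟨κ, inferInstance, s.prod a, t.coprod b, ?_⟩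
  ext y
  have := LinearMap.congr_fun hab y
  simp only [LinearMap.sub_apply, LinearMap.id_apply, LinearMap.comp_apply] at this
  show t (s y) + b (a y) = y
  rw [← this]; abel

theorem StEq.pdLT (h : StEq A X Y) {n : ℕ} (hX : PdLT A X (n + 1)) : PdLT A Y (n + 1) := by
  obtain ⟨κ, _, i, p, hpi⟩ := h.retract
  refine PdLT.of_retract i p hpi (PdLT.prod hX ?_)
  exact (PdLT.of_projective (A := A) (M := κ → A)).mono (by omega)

end

end Vale.Agent.H47.Findim
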